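import Vale.Agent.Lib.P371.Mix.Power

/-!
# The chord bound: `L_γ(m) ≤ (4/3)^{3/2-γ} L^cl_γ` for `1 ≤ γ < 3/2`.
-/

open MeasureTheory Set Filter Topology Matrix
open scoped ENNReal ComplexOrder

namespace Vale.Agent.Lib.P371.Mix

open Vale.Agent.Lib.P371.Sharp Vale.Agent.Lib.P371.SharpM

/-- The closed form of the constant. -/
theorem cH_eq {q : ℝ} (hq0 : 0 < q) (hq1 : q < 1) :
    cH q = (4 / 3 : ℝ) ^ ((1 - q) / 2) *
        (Real.Gamma (1 + q / 2 + 1) / (2 * Real.sqrt Real.pi * Real.Gamma (1 + q / 2 + 3 / 2))) *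
        (2 / (q * (q + 2) * Real.cos (Real.pi * q / 2))) := by
  have hpi := Real.pi_pos
  have hcos : 0 < Real.cos (Real.pi * q / 2) := by
    refine Real.cos_pos_of_mem_Ioo ⟨?_, ?_⟩ <;> nlinarith
  set A : ℝ := (1 + q) / 2 with hA
  have hA0 : 0 < A := by rw [hA]; linarith
  have hA1 : (1 - q) / 2 = 1 - A := by rw [hA]; ring
  have hrefl := Real.Gamma_mul_Gamma_one_sub A
  have hsin : Real.sin (Real.pi * A) = Real.cos (Real.pi * q / 2) := by
    rw [show Real.pi * A = Real.pi * q / 2 + Real.pi / 2 by rw [hA]; ring, Real.sin_add_pi_div_two]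
  rw [hsin] at hrefl
  have hdup := Real.Gamma_mul_Gamma_add_half A
  have h2A : 2 * A = q + 1 := by rw [hA]; ring
  have hq1' : (1 : ℝ) - (q + 1) = -q := by ring
  rw [h2A, hq1', Real.Gamma_add_one hq0.ne'] at hdup
  have hAh : A + 1 / 2 = 1 + q / 2 := by rw [hA]; ring
  rw [hAh] at hdup
  have hX1 : Real.Gamma (1 + q / 2 + 1) = (1 + q / 2) * Real.Gamma (1 + q / 2) :=
    Real.Gamma_add_one (by positivity)
  have hY : Real.Gamma (1 + q / 2 + 3 / 2) = (A + 1) * (A * Real.Gamma A) := by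
    rw [show 1 + q / 2 + 3 / 2 = A + 1 + 1 by rw [hA]; ring,
      Real.Gamma_add_one (by positivity), Real.Gamma_add_one hA0.ne']
  have ha : 0 < Real.Gamma A := Real.Gamma_pos_of_pos hA0
  have hg : 0 < Real.Gamma q := Real.Gamma_pos_of_pos hq0
  have hP : 0 < Real.sqrt Real.pi := Real.sqrt_pos.2 hpi
  set u : ℝ := (2 : ℝ) ^ (-q) with hu
  have hu0 : 0 < u := by positivity
  set Y : ℝ := (3 : ℝ) ^ ((q - 1) / 2) with hYdef
  have hY0 : 0 < Y := by positivity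
  have h4 : (4 : ℝ) ^ (-q) = u ^ 2 := by
    rw [hu, ← Real.rpow_natCast, ← Real.rpow_mul (by norm_num),
      show (4 : ℝ) = 2 ^ (2 : ℝ) by norm_num, ← Real.rpow_mul (by norm_num)]
    congr 1
    push_cast
    ring
  have h43 : (4 / 3 : ℝ) ^ ((1 - q) / 2) = Y * (2 * u) := by
    rw [Real.div_rpow (by norm_num) (by norm_num), div_eq_mul_inv, ← Real.rpow_neg (by norm_num),
      show -((1 - q) / 2) = (q - 1) / 2 by ring, mul_comm]
    congr 1
    rw [show (4 : ℝ) = 2 ^ (2 : ℝ) by norm_num, ← Real.rpow_mul (by norm_num), hu,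
      show (2 : ℝ) * ((1 - q) / 2) = 1 + -q by ring, Real.rpow_add (by norm_num), Real.rpow_one]
  have hΓ1 : Real.Gamma (1 - A) = Real.pi / Real.cos (Real.pi * q / 2) / Real.Gamma A := by
    rw [eq_div_iff ha.ne', ← hrefl]
    ring
  have hX : Real.Gamma (1 + q / 2) = q * Real.Gamma q * u * Real.sqrt Real.pi / Real.Gamma A := by
    rw [eq_div_iff ha.ne', mul_comm, hdup]
  unfold cH
  rw [h43, hA1, show (1 + q) / 2 = A from rfl, h4, hΓ1, hX1, hY, hX, ← hYdef]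
  have hq2 : q + 2 ≠ 0 := by positivity
  have hq3 : q + 1 ≠ 0 := by positivity
  have hq4 : q + 3 ≠ 0 := by positivity
  have hA2 : A + 1 = (q + 3) / 2 := by rw [hA]; ring
  have hA3 : A = (q + 1) / 2 := by rw [hA]; ring
  rw [hA2]
  generalize Real.Gamma A = a at *
  generalize Real.Gamma q = g at *
  generalize Real.cos (Real.pi * q / 2) = c at *
  generalize Real.sqrt Real.pi = P at *
  rw [hA3]
  field_simp
  ring

section main

variable {m N : ℕ}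

/-- The chord bound for `1 < γ < 3/2`. -/
theorem chord_open {γ : ℝ} (h1 : 1 < γ) (h2 : γ < 3 / 2)
    (ψ ψ' : Fin N → ℝ → EuclideanSpace ℂ (Fin m))
    (hψ : ∀ j, MemLp (ψ j) 2 volume) (hψ' : ∀ j, MemLp (ψ' j) 2 volume)
    (hftc : ∀ j, ∀ a b : ℝ, ∫ t in a..b, ψ' j t = ψ j b - ψ j a)
    (orth : ∀ i j, ∫ x, inner ℂ (ψ i x) (ψ j x) = if i = j then (1 : ℂ) else 0)
    (W : ℝ → Matrix (Fin m) (Fin m) ℂ) (hWm : ∀ a b, Measurable fun x => W x a b)
    (hW : ∀ x, (W x).PosSemidef)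
    (htr : Integrable fun x => ∑ a, ((hW x).isHermitian.eigenvalues a) ^ (γ + 1 / 2)) :
    (∀ j, Integrable fun x => PP (W x) (ψ j x)) ∧
    ∑ j, (max ((∫ x, PP (W x) (ψ j x)) - ∫ x, ‖ψ' j x‖ ^ 2) 0) ^ γ ≤
      (4 / 3 : ℝ) ^ (3 / 2 - γ) *
        (Real.Gamma (γ + 1) / (2 * Real.sqrt Real.pi * Real.Gamma (γ + 3 / 2))) *
        ∫ x, ∑ a, ((hW x).isHermitian.eigenvalues a) ^ (γ + 1 / 2) := by
  set q : ℝ := 2 * γ - 2 with hq
  have hq0 : 0 < q := by rw [hq]; linarith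
  have hq1 : q < 1 := by rw [hq]; linarith
  have eγ : 1 + q / 2 = γ := by rw [hq]; ring
  have ep : 3 / 2 + q / 2 = γ + 1 / 2 := by rw [hq]; ring
  have e3 : (1 - q) / 2 = 3 / 2 - γ := by rw [hq]; ring
  have hmain := power_main hq0 hq1 ψ ψ' hψ hψ' hftc orth W hWm hW (by rwa [ep])
  rw [cH_eq hq0 hq1] at hmain
  rw [eγ, ep, e3] at hmain
  refine ⟨hmain.1, ?_⟩
  have hpi := Real.pi_pos
  have hcos : 0 < Real.cos (Real.pi * q / 2) := by
    refine Real.cos_pos_of_mem_Ioo ⟨?_, ?_⟩ <;> nlinarith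
  have hIG : 0 < 2 / (q * (q + 2) * Real.cos (Real.pi * q / 2)) := by positivity
  have h := hmain.2
  have e : (∫ x, ∑ a, ((hW x).isHermitian.eigenvalues a) ^ (γ + 1 / 2)) *
      ((4 / 3 : ℝ) ^ (3 / 2 - γ) *
        (Real.Gamma (γ + 1) / (2 * Real.sqrt Real.pi * Real.Gamma (γ + 3 / 2))) *
        (2 / (q * (q + 2) * Real.cos (Real.pi * q / 2)))) =
      ((4 / 3 : ℝ) ^ (3 / 2 - γ) *
        (Real.Gamma (γ + 1) / (2 * Real.sqrt Real.pi * Real.Gamma (γ + 3 / 2))) *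
        ∫ x, ∑ a, ((hW x).isHermitian.eigenvalues a) ^ (γ + 1 / 2)) *
        (2 / (q * (q + 2) * Real.cos (Real.pi * q / 2))) := by ring
  rw [e] at h
  exact le_of_mul_le_mul_right h hIG

/-- `h_0(w) = (4/(3√3 π)) w^{3/2}`. -/
lemma hB_zero_left {w : ℝ} (hw : 0 ≤ w) :
    hB 0 w = (4 / 3 : ℝ) ^ (3 / 2 - 1 : ℝ) *
        (Real.Gamma (1 + 1) / (2 * Real.sqrt Real.pi * Real.Gamma (1 + 3 / 2))) *
        w ^ (1 + 1 / 2 : ℝ) := by
  have hpi := Real.pi_pos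
  have hP : 0 < Real.sqrt Real.pi := Real.sqrt_pos.2 hpi
  have hP2 : Real.sqrt Real.pi * Real.sqrt Real.pi = Real.pi := Real.mul_self_sqrt hpi.le
  have h3 : Real.sqrt 3 * Real.sqrt 3 = 3 := Real.mul_self_sqrt (by norm_num)
  have h30 : 0 < Real.sqrt 3 := Real.sqrt_pos.2 (by norm_num)
  have e1 : Real.Gamma (1 + 1) = 1 := by
    rw [Real.Gamma_add_one one_ne_zero, Real.Gamma_one, mul_one]
  have e2 : Real.Gamma (1 + 3 / 2) = 3 / 4 * Real.sqrt Real.pi := by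
    rw [show (1 + 3 / 2 : ℝ) = 3 / 2 + 1 by norm_num, Real.Gamma_add_one (by norm_num),
      show (3 / 2 : ℝ) = 1 / 2 + 1 by norm_num,
      Real.Gamma_add_one (by norm_num), Real.Gamma_one_half_eq]
    ring
  have e3 : (4 / 3 : ℝ) ^ (3 / 2 - 1 : ℝ) = 2 / Real.sqrt 3 := by
    rw [show (3 / 2 - 1 : ℝ) = 1 / 2 by norm_num, ← Real.sqrt_eq_rpow,
      Real.sqrt_div (by norm_num), show (4 : ℝ) = 2 ^ 2 by norm_num,
      Real.sqrt_sq (by norm_num)]
  have e4 : w ^ (1 + 1 / 2 : ℝ) = w * Real.sqrt w := by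
    rcases hw.eq_or_lt with h | h
    · rw [← h, Real.zero_rpow (by norm_num)]
      simp
    · rw [Real.rpow_add h, Real.rpow_one, Real.sqrt_eq_rpow]
  have e5 : Real.sqrt (4 * (0 : ℝ) ^ 2 + 3 * w) = Real.sqrt 3 * Real.sqrt w := by
    rw [show 4 * (0 : ℝ) ^ 2 + 3 * w = 3 * w by ring, Real.sqrt_mul (by norm_num)]
  have hsw : Real.sqrt w * Real.sqrt w = w := Real.mul_self_sqrt hw
  unfold hB
  rw [e1, e2, e3, e4, e5]
  set r := Real.sqrt w
  set t := Real.sqrt 3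
  set P := Real.sqrt Real.pi
  have hpi' : Real.pi = P * P := hP2.symm
  rw [hpi']
  have ht : t ^ 2 = 3 := by rw [sq]; exact h3
  have hw' : w = r * r := hsw.symm
  rw [hw']
  field_simp
  linear_combination (12 * r ^ 3 * (t ^ 2 + 3)) * ht

/-- The case `γ = 1` with positive parts. -/
theorem chord_one (ψ ψ' : Fin N → ℝ → EuclideanSpace ℂ (Fin m))
    (hψ : ∀ j, MemLp (ψ j) 2 volume) (hψ' : ∀ j, MemLp (ψ' j) 2 volume)
    (hftc : ∀ j, ∀ a b : ℝ, ∫ t in a..b, ψ' j t = ψ j b - ψ j a)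
    (orth : ∀ i j, ∫ x, inner ℂ (ψ i x) (ψ j x) = if i = j then (1 : ℂ) else 0)
    (W : ℝ → Matrix (Fin m) (Fin m) ℂ) (hWm : ∀ a b, Measurable fun x => W x a b)
    (hW : ∀ x, (W x).PosSemidef)
    (htr : Integrable fun x => ∑ a, ((hW x).isHermitian.eigenvalues a) ^ ((1 : ℝ) + 1 / 2)) :
    (∀ j, Integrable fun x => PP (W x) (ψ j x)) ∧
    ∑ j, (max ((∫ x, PP (W x) (ψ j x)) - ∫ x, ‖ψ' j x‖ ^ 2) 0) ^ (1 : ℝ) ≤
      (4 / 3 : ℝ) ^ (3 / 2 - 1 : ℝ) *
        (Real.Gamma (1 + 1) / (2 * Real.sqrt Real.pi * Real.Gamma (1 + 3 / 2))) *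
        ∫ x, ∑ a, ((hW x).isHermitian.eigenvalues a) ^ ((1 : ℝ) + 1 / 2) := by
  obtain ⟨-, -, -, hP⟩ := integrable_PP (p := 1 + 1 / 2) (by norm_num) (by norm_num)
    ψ ψ' hψ hψ' hftc orth W hWm hW htr
  refine ⟨hP, ?_⟩
  set c₀ : ℝ := (4 / 3 : ℝ) ^ (3 / 2 - 1 : ℝ) *
        (Real.Gamma (1 + 1) / (2 * Real.sqrt Real.pi * Real.Gamma (1 + 3 / 2))) with hc₀
  set e : Fin N → ℝ := fun j => (∫ x, PP (W x) (ψ j x)) - ∫ x, ‖ψ' j x‖ ^ 2 with he
  simp only [Real.rpow_one]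
  set I := ∫ x, ∑ a, ((hW x).isHermitian.eigenvalues a) ^ ((1 : ℝ) + 1 / 2) with hI
  -- the inequality at `s < 1`
  have hs : ∀ s : ℝ, 0 < s → s < 1 → s * ∑ j, max (e j) 0 ≤ c₀ * I := by
    intro s hs0 hs1
    set n : Fin N → ℝ := fun j => if 0 < e j then s else 0 with hn
    have hn0 : ∀ j, 0 ≤ n j := fun j => by
      simp only [hn]
      split_ifs <;> linarith
    have hn1 : ∀ j, n j < 1 := fun j => by
      simp only [hn]
      split_ifs <;> linarith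
    have hne : ∀ j, n j * e j = s * max (e j) 0 := fun j => by
      simp only [hn]
      split_ifs with h
      · rw [max_eq_left h.le]
      · rw [max_eq_right (not_lt.1 h)]
        ring
    obtain ⟨-, hQi, hQle⟩ := dual_weighted (b := 0) le_rfl ψ ψ' hψ hψ' hftc orth n hn0 hn1
    have hthe : ∀ j, thetaB 0 (n j) = 0 := fun j => by simp [thetaB]
    simp only [hthe, Finset.sum_const_zero, add_zero] at hQle
    have hpt : ∀ x, ∑ j, n j * PP (W x) (ψ j x) ≤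
        1 / 2 * QQ 0 (rows (EuclideanSpace.basisFun (Fin m) ℂ) fun j => wfam n ψ j x) +
          c₀ * ∑ a, ((hW x).isHermitian.eigenvalues a) ^ ((1 : ℝ) + 1 / 2) := by
      intro x
      have := pointwise_weighted (b := 0) le_rfl (hB 0)
        (fun w S hw hS => young_mix le_rfl hw hS) (W x) (hW x) n hn0 ψ x
      have e1 : ∑ a, hB 0 ((hW x).isHermitian.eigenvalues a) =
          c₀ * ∑ a, ((hW x).isHermitian.eigenvalues a) ^ ((1 : ℝ) + 1 / 2) := by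
        rw [Finset.mul_sum]
        exact Finset.sum_congr rfl fun a _ => hB_zero_left ((hW x).eigenvalues_nonneg a)
      rw [e1] at this
      exact this
    have hI1 : Integrable fun x => ∑ j, n j * PP (W x) (ψ j x) :=
      integrable_finsetSum _ fun j _ => (hP j).const_mul _
    have hI2 := (hQi.const_mul (1 / 2 : ℝ)).add (htr.const_mul c₀)
    have hint := integral_mono hI1 hI2 hpt
    have e2 : ∫ x, ∑ j, n j * PP (W x) (ψ j x) = ∑ j, n j * ∫ x, PP (W x) (ψ j x) := by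
      rw [integral_finsetSum _ fun j _ => (hP j).const_mul _]
      simp only [integral_const_mul]
    have e3 : ∫ x, (1 / 2 * QQ 0 (rows (EuclideanSpace.basisFun (Fin m) ℂ) fun j => wfam n ψ j x) +
          c₀ * ∑ a, ((hW x).isHermitian.eigenvalues a) ^ ((1 : ℝ) + 1 / 2)) =
        1 / 2 * (∫ x, QQ 0 (rows (EuclideanSpace.basisFun (Fin m) ℂ) fun j => wfam n ψ j x)) +
          c₀ * I := by
      rw [integral_add (hQi.const_mul (1 / 2 : ℝ)) (htr.const_mul c₀), integral_const_mul,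
        integral_const_mul]
    have hint' : ∫ x, ∑ j, n j * PP (W x) (ψ j x) ≤
        ∫ x, (1 / 2 * QQ 0 (rows (EuclideanSpace.basisFun (Fin m) ℂ) fun j => wfam n ψ j x) +
          c₀ * ∑ a, ((hW x).isHermitian.eigenvalues a) ^ ((1 : ℝ) + 1 / 2)) := hint
    rw [e2, e3] at hint'
    rw [Finset.mul_sum]
    have e4 : ∑ j, s * max (e j) 0 = ∑ j, n j * e j :=
      Finset.sum_congr rfl fun j _ => (hne j).symm
    have e5 : ∑ j, n j * e j =
        (∑ j, n j * ∫ x, PP (W x) (ψ j x)) - ∑ j, n j * ∫ x, ‖ψ' j x‖ ^ 2 := by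
      simp only [he, mul_sub, Finset.sum_sub_distrib]
    rw [e4, e5]
    linarith
  set S := ∑ j, max (e j) 0 with hS
  have hS0 : 0 ≤ S := Finset.sum_nonneg fun j _ => le_max_right _ _
  have hlim : Tendsto (fun s : ℝ => s * S) (𝓝[<] 1) (𝓝 S) := by
    have h1 : Continuous fun s : ℝ => s * S := continuous_id.mul continuous_const
    simpa using (h1.tendsto 1).mono_left (nhdsWithin_le_nhds (s := Iio 1))
  refine le_of_tendsto hlim ?_
  filter_upwards [Ioo_mem_nhdsLT (show (0 : ℝ) < 1 by norm_num)] with s hs'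
  exact hs s hs'.1 hs'.2

/-- **The chord bound.** For `1 ≤ γ < 3/2`. -/
theorem chord_bound {γ : ℝ} (h1 : 1 ≤ γ) (h2 : γ < 3 / 2)
    (ψ ψ' : Fin N → ℝ → EuclideanSpace ℂ (Fin m))
    (hψ : ∀ j, MemLp (ψ j) 2 volume) (hψ' : ∀ j, MemLp (ψ' j) 2 volume)
    (hftc : ∀ j, ∀ a b : ℝ, ∫ t in a..b, ψ' j t = ψ j b - ψ j a)
    (orth : ∀ i j, ∫ x, inner ℂ (ψ i x) (ψ j x) = if i = j then (1 : ℂ) else 0)
    (W : ℝ → Matrix (Fin m) (Fin m) ℂ) (hWm : ∀ a b, Measurable fun x => W x a b)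
    (hW : ∀ x, (W x).PosSemidef)
    (htr : Integrable fun x => ∑ a, ((hW x).isHermitian.eigenvalues a) ^ (γ + 1 / 2)) :
    (∀ j, Integrable fun x => PP (W x) (ψ j x)) ∧
    ∑ j, (max ((∫ x, PP (W x) (ψ j x)) - ∫ x, ‖ψ' j x‖ ^ 2) 0) ^ γ ≤
      (4 / 3 : ℝ) ^ (3 / 2 - γ) *
        (Real.Gamma (γ + 1) / (2 * Real.sqrt Real.pi * Real.Gamma (γ + 3 / 2))) *
        ∫ x, ∑ a, ((hW x).isHermitian.eigenvalues a) ^ (γ + 1 / 2) := by
  rcases h1.eq_or_lt with h | h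
  · subst h
    exact chord_one ψ ψ' hψ hψ' hftc orth W hWm hW htr
  · exact chord_open h h2 ψ ψ' hψ hψ' hftc orth W hWm hW htr

end main

end Vale.Agent.Lib.P371.Mix
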