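import Vale.Agent.Lib.P371.Mix.Poly

/-!
# The core inequality of the mixed calibrator, in coordinates, for a polynomial `P`.

`Y = P(F) + ∑ₙ Ωₙ`: the degree one term `∑_r ξ_r · P(F) ξ_r` is added to the calibrator of the
sharp bound, the cost is `tr R(F)`, `R' = P²`.
-/

open Matrix MeasureTheory Filter Topology Set

namespace Vale.Agent.Lib.P371.Mix

open Vale.Agent.Lib.P371.Sharp Vale.Agent.Lib.P371.SharpM

variable {d p : ℕ}

/-- The quartic terms in the eigenbasis. -/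
theorem quartic_eq {ε : ℝ} {F Q : Mat d} {f : Fin d → ℝ} (hQ : QBound ε F) (hε : 0 < ε) (M : ℕ)
    (h1 : Qᵀ * Q = 1) (h2 : Q * Qᵀ = 1) (h3 : F = Q * diagonal f * Qᵀ)
    (hf : ∀ j, ε ≤ f j ∧ f j ≤ 1 - ε) (a : ℕ → ℝ) (D : ℕ) (v : Fin p → Vec d) :
    2 * (∑ r, (pm a D F *ᵥ v r) ⬝ᵥ (∑ n ∈ Finset.Icc (-(M : ℤ)) (M : ℤ), sol F n (rowX v) *ᵥ v r)) +
        hs (dpm a D F (rowX v)) (rowX v)
      = ∑ j, ∑ k, (pd a D (f j) (f k) + (pv a D (f j) + pv a D (f k)) * SM M (f j + f k)) *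
          (rowX fun r => Qᵀ *ᵥ v r) j k ^ 2 := by
  set W := Finset.Icc (-(M : ℤ)) (M : ℤ) with hW
  set z : Fin p → Vec d := fun r => Qᵀ *ᵥ v r with hz
  set XT : Mat d := rowX z with hXT
  have hconjX : Qᵀ * rowX v * Q = XT := conj_rowX Q v
  have hsymm : ∀ j k, XT j k = XT k j := fun j k => (rowX_symm z).apply k j
  have hSsymm : ∀ j k, SM M (f j + f k) = SM M (f k + f j) := fun j k => by rw [add_comm]
  -- coordinates of the sum of the solutions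
  have hcoord : ∀ (n : ℤ) (r : Fin p) (j : Fin d),
      (Qᵀ *ᵥ (sol F n (rowX v) *ᵥ v r)) j =
        ∑ k, (XT j k * (1 / (f j + f k - 2 * (n : ℝ)))) * z r k := by
    intro n r j
    have hspec : lyap F n (sol F n (rowX v)) = rowX v := sol_spec hQ hε n (rowX v)
    set Ω := sol F n (rowX v) with hΩ
    have hent := lyap_entryM h1 h2 h3 n hspec
    have e : Qᵀ *ᵥ (Ω *ᵥ v r) = (Qᵀ * Ω * Q) *ᵥ z r := by
      simp only [z, Matrix.mulVec_mulVec]
      rw [Matrix.mul_assoc (Qᵀ * Ω), h2, Matrix.mul_one]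
    rw [e]
    simp only [Matrix.mulVec, dotProduct]
    refine Finset.sum_congr rfl fun k _ => ?_
    have hne := denom_ne hε hf j k n
    have e2 : (Qᵀ * Ω * Q) j k = XT j k * (1 / (f j + f k - 2 * (n : ℝ))) := by
      have := hent j k
      rw [hconjX] at this
      field_simp
      try linarith
    rw [e2]
  have hcoords : ∀ (r : Fin p) (j : Fin d),
      (Qᵀ *ᵥ ∑ n ∈ W, sol F n (rowX v) *ᵥ v r) j = ∑ k, (XT j k * SM M (f j + f k)) * z r k := by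
    intro r j
    rw [Matrix.mulVec_sum, Finset.sum_apply]
    simp only [hcoord]
    rw [Finset.sum_comm]
    refine Finset.sum_congr rfl fun k _ => ?_
    simp only [SM, Finset.mul_sum, Finset.sum_mul, hW]
  have hu : ∀ (r : Fin p), Qᵀ *ᵥ (pm a D F *ᵥ v r) = fun j => pv a D (f j) * z r j := by
    intro r
    have e : Qᵀ *ᵥ (pm a D F *ᵥ v r) = (Qᵀ * pm a D F * Q) *ᵥ z r := by
      simp only [z, Matrix.mulVec_mulVec]
      rw [Matrix.mul_assoc (Qᵀ * pm a D F), h2, Matrix.mul_one]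
    rw [e, conj_pm h1 h2 h3]
    ext j
    simp [Matrix.mulVec_diagonal]
  have hdot : ∀ r, (pm a D F *ᵥ v r) ⬝ᵥ (∑ n ∈ W, sol F n (rowX v) *ᵥ v r) =
      ∑ j, ∑ k, pv a D (f j) * SM M (f j + f k) * XT j k * (z r j * z r k) := by
    intro r
    rw [← dot_transpose h2, hu]
    simp only [dotProduct, hcoords, Finset.mul_sum]
    refine Finset.sum_congr rfl fun j _ => Finset.sum_congr rfl fun k _ => by ring
  have hsum : ∑ r, (pm a D F *ᵥ v r) ⬝ᵥ (∑ n ∈ W, sol F n (rowX v) *ᵥ v r) =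
      ∑ j, ∑ k, pv a D (f j) * SM M (f j + f k) * XT j k ^ 2 := by
    simp only [hdot]
    rw [Finset.sum_comm]
    refine Finset.sum_congr rfl fun j _ => ?_
    rw [Finset.sum_comm]
    refine Finset.sum_congr rfl fun k _ => ?_
    rw [← Finset.mul_sum, ← rowX_apply z j k]
    ring
  have hsw : ∑ j, ∑ k, pv a D (f j) * SM M (f j + f k) * XT j k ^ 2 =
      ∑ j, ∑ k, pv a D (f k) * SM M (f j + f k) * XT j k ^ 2 := by
    rw [Finset.sum_comm]
    refine Finset.sum_congr rfl fun j _ => Finset.sum_congr rfl fun k _ => ?_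
    rw [hSsymm k j, hsymm k j]
  have hdp : hs (dpm a D F (rowX v)) (rowX v) = ∑ j, ∑ k, pd a D (f j) (f k) * XT j k ^ 2 := by
    rw [hs_dpm h1 h2 h3, hconjX]
  rw [hsum, hdp]
  have e3 : (2 : ℝ) * ∑ j, ∑ k, pv a D (f j) * SM M (f j + f k) * XT j k ^ 2 =
      ∑ j, ∑ k, (pv a D (f j) + pv a D (f k)) * SM M (f j + f k) * XT j k ^ 2 := by
    rw [two_mul]
    nth_rewrite 2 [hsw]
    rw [← Finset.sum_add_distrib]
    refine Finset.sum_congr rfl fun j _ => ?_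
    rw [← Finset.sum_add_distrib]
    refine Finset.sum_congr rfl fun k _ => by ring
  rw [e3, ← Finset.sum_add_distrib]
  refine Finset.sum_congr rfl fun j _ => ?_
  rw [← Finset.sum_add_distrib]
  refine Finset.sum_congr rfl fun k _ => by ring

/-- The pointwise inequality of the mixed calibrator. -/
theorem point_mix {ε δ κ₀ : ℝ} {F : Mat d} (hQ : QBound ε F) (hε : 0 < ε) (hδ : 0 ≤ δ) (M : ℕ)
    (hM : ∀ A B : ℝ, 2 * ε ≤ A → A ≤ 2 - 2 * ε → 2 * ε ≤ B → B ≤ 2 - 2 * ε →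
      |DM M A B - SM M A * SM M B - Real.pi ^ 2 / 4 *
        (1 + (Real.sinc (Real.pi * (A - B) / 2) - Real.cos (Real.pi * (A - B) / 2)) /
          (Real.sin (Real.pi * A / 2) * Real.sin (Real.pi * B / 2)))| ≤ δ)
    (a : ℕ → ℝ) (D : ℕ)
    (hq : ∀ s t : ℝ, ε ≤ s → s ≤ 1 - ε → ε ≤ t → t ≤ 1 - ε →
      pd a D s t + (pv a D s + pv a D t) * SM M (s + t) ≤ -κ₀)
    (v w : Fin p → Vec d) :
    let W := Finset.Icc (-(M : ℤ)) (M : ℤ)
    let b : ℤ → Fin p → Vec d := fun n r => sol F n (rowX v) *ᵥ v r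
    let u : Fin p → Vec d := fun r => pm a D F *ᵥ v r
    (∑ n ∈ W, ∑ r, (2 * (w r ⬝ᵥ b n r) - b n r ⬝ᵥ b n r)) +
        (∑ r, 2 * (w r ⬝ᵥ u r) + hs (dpm a D F (rowX v)) (rowX v))
      ≤ ∑ r, w r ⬝ᵥ w r + ∑ r, u r ⬝ᵥ u r -
        (Real.pi ^ 2 / 4 * (rowX v * rowX v * rowX v).trace - δ * d ^ 3 * (∑ r, v r ⬝ᵥ v r) ^ 3)
        - κ₀ * hs (rowX v) (rowX v) := by
  intro W b u
  obtain ⟨Q, f, h1, h2, h3, hf⟩ := eigen_data hQ
  have hL := lyap_ineqM hQ hε hδ M hM v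
  simp only at hL
  have hq4 := quartic_eq hQ hε M h1 h2 h3 hf a D v
  set z : Fin p → Vec d := fun r => Qᵀ *ᵥ v r with hz
  set XT : Mat d := rowX z with hXT
  have hXX : hs (rowX v) (rowX v) = ∑ j, ∑ k, XT j k ^ 2 := by
    rw [hs_conj h2, conj_rowX]
    unfold hs
    exact Finset.sum_congr rfl fun j _ => Finset.sum_congr rfl fun k _ => (sq _).symm
  have hq5 : ∑ j, ∑ k, (pd a D (f j) (f k) + (pv a D (f j) + pv a D (f k)) * SM M (f j + f k)) *
      XT j k ^ 2 ≤ -κ₀ * hs (rowX v) (rowX v) := by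
    rw [hXX, Finset.mul_sum]
    refine Finset.sum_le_sum fun j _ => ?_
    rw [Finset.mul_sum]
    refine Finset.sum_le_sum fun k _ => ?_
    exact mul_le_mul_of_nonneg_right (hq _ _ (hf j).1 (hf j).2 (hf k).1 (hf k).2) (sq_nonneg _)
  set s : Fin p → Vec d := fun r => ∑ n ∈ W, b n r with hs'
  have hq6 : 2 * (∑ r, u r ⬝ᵥ s r) + hs (dpm a D F (rowX v)) (rowX v) ≤
      -κ₀ * hs (rowX v) (rowX v) := by
    rw [show 2 * (∑ r, u r ⬝ᵥ s r) + hs (dpm a D F (rowX v)) (rowX v) = _ from hq4]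
    exact hq5
  have e1 : ∑ n ∈ W, ∑ r, 2 * (w r ⬝ᵥ b n r) = ∑ r, 2 * (w r ⬝ᵥ s r) := by
    rw [Finset.sum_comm]
    refine Finset.sum_congr rfl fun r _ => ?_
    rw [← Finset.mul_sum]
    simp only [hs', dotProduct_sum]
  have e2 : (∑ n ∈ W, ∑ r, (2 * (w r ⬝ᵥ b n r) - b n r ⬝ᵥ b n r))
      = ∑ r, 2 * (w r ⬝ᵥ s r) - ∑ n ∈ W, ∑ r, b n r ⬝ᵥ b n r := by
    simp only [Finset.sum_sub_distrib]
    rw [e1]
  have h7 : ∑ r, 2 * (w r ⬝ᵥ (s r + u r)) ≤ ∑ r, w r ⬝ᵥ w r +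
      ∑ r, (s r + u r) ⬝ᵥ (s r + u r) := by
    rw [← Finset.sum_add_distrib]
    exact Finset.sum_le_sum fun r _ => two_dot_le _ _
  have e3 : ∑ r, 2 * (w r ⬝ᵥ (s r + u r)) = ∑ r, 2 * (w r ⬝ᵥ s r) + ∑ r, 2 * (w r ⬝ᵥ u r) := by
    rw [← Finset.sum_add_distrib]
    refine Finset.sum_congr rfl fun r _ => ?_
    rw [dotProduct_add]
    ring
  have e4 : ∑ r, (s r + u r) ⬝ᵥ (s r + u r) =
      ∑ r, s r ⬝ᵥ s r + 2 * (∑ r, u r ⬝ᵥ s r) + ∑ r, u r ⬝ᵥ u r := by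
    rw [Finset.mul_sum, ← Finset.sum_add_distrib, ← Finset.sum_add_distrib]
    refine Finset.sum_congr rfl fun r _ => ?_
    rw [dotProduct_add, add_dotProduct, add_dotProduct, dotProduct_comm (s r) (u r)]
    ring
  have hL' : Real.pi ^ 2 / 4 * (rowX v * rowX v * rowX v).trace -
      δ * d ^ 3 * (∑ r, v r ⬝ᵥ v r) ^ 3 ≤
      (∑ n ∈ W, ∑ r, b n r ⬝ᵥ b n r) - ∑ r, s r ⬝ᵥ s r := hL
  rw [e2]
  linarith


section bounds

variable {ε : ℝ} {F : Mat d}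

lemma pm_vec_bound (hQ : QBound ε F) (hε : 0 < ε) (a : ℕ → ℝ) (D : ℕ) (v : Vec d) :
    (pm a D F *ᵥ v) ⬝ᵥ (pm a D F *ᵥ v) ≤ cA a D ^ 2 * (v ⬝ᵥ v) := by
  obtain ⟨Q, f, h1, h2, h3, hf⟩ := eigen_data hQ
  have e : Qᵀ *ᵥ (pm a D F *ᵥ v) = fun j => pv a D (f j) * (Qᵀ *ᵥ v) j := by
    have e : Qᵀ *ᵥ (pm a D F *ᵥ v) = (Qᵀ * pm a D F * Q) *ᵥ (Qᵀ *ᵥ v) := by
      simp only [Matrix.mulVec_mulVec]
      rw [Matrix.mul_assoc (Qᵀ * pm a D F), h2, Matrix.mul_one]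
    rw [e, conj_pm h1 h2 h3]
    ext j
    simp [Matrix.mulVec_diagonal]
  rw [← dot_transpose h2, e, ← dot_transpose h2 v v, dotProduct, dotProduct, Finset.mul_sum]
  refine Finset.sum_le_sum fun j _ => ?_
  have h0 : 0 ≤ f j := by linarith [(hf j).1]
  have h4 : f j ≤ 1 := by linarith [(hf j).2]
  have h5 := abs_pv_le a D h0 h4
  have h6 : pv a D (f j) ^ 2 ≤ cA a D ^ 2 := by
    rw [← sq_abs]
    exact pow_le_pow_left₀ (abs_nonneg _) h5 2
  nlinarith [mul_self_nonneg ((Qᵀ *ᵥ v) j)]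

lemma pm_quad_bound (hQ : QBound ε F) (hε : 0 < ε) (a : ℕ → ℝ) (D : ℕ) (v : Vec d) :
    |v ⬝ᵥ (pm a D F *ᵥ v)| ≤ cA a D * (v ⬝ᵥ v) := by
  obtain ⟨Q, f, h1, h2, h3, hf⟩ := eigen_data hQ
  have e : Qᵀ *ᵥ (pm a D F *ᵥ v) = fun j => pv a D (f j) * (Qᵀ *ᵥ v) j := by
    have e : Qᵀ *ᵥ (pm a D F *ᵥ v) = (Qᵀ * pm a D F * Q) *ᵥ (Qᵀ *ᵥ v) := by
      simp only [Matrix.mulVec_mulVec]
      rw [Matrix.mul_assoc (Qᵀ * pm a D F), h2, Matrix.mul_one]
    rw [e, conj_pm h1 h2 h3]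
    ext j
    simp [Matrix.mulVec_diagonal]
  rw [← dot_transpose h2, e, ← dot_transpose h2 v v, dotProduct, dotProduct, Finset.mul_sum]
  refine (Finset.abs_sum_le_sum_abs _ _).trans (Finset.sum_le_sum fun j _ => ?_)
  have h0 : 0 ≤ f j := by linarith [(hf j).1]
  have h4 : f j ≤ 1 := by linarith [(hf j).2]
  have h5 := abs_pv_le a D h0 h4
  rw [abs_mul, abs_mul]
  have h6 : |(Qᵀ *ᵥ v) j| * |(Qᵀ *ᵥ v) j| = (Qᵀ *ᵥ v) j * (Qᵀ *ᵥ v) j := abs_mul_abs_self _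
  calc |(Qᵀ *ᵥ v) j| * (|pv a D (f j)| * |(Qᵀ *ᵥ v) j|)
      = |pv a D (f j)| * (|(Qᵀ *ᵥ v) j| * |(Qᵀ *ᵥ v) j|) := by ring
    _ ≤ cA a D * ((Qᵀ *ᵥ v) j * (Qᵀ *ᵥ v) j) := by
        rw [h6]
        exact mul_le_mul_of_nonneg_right h5 (mul_self_nonneg _)

lemma hs_dpm_bound (hQ : QBound ε F) (hε : 0 < ε) (a : ℕ → ℝ) (D : ℕ) (X : Mat d) :
    |hs (dpm a D F X) X| ≤ cB a D * hs X X := by
  obtain ⟨Q, f, h1, h2, h3, hf⟩ := eigen_data hQ
  rw [hs_dpm h1 h2 h3, hs_conj h2 X X]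
  unfold hs
  rw [Finset.mul_sum]
  refine (Finset.abs_sum_le_sum_abs _ _).trans (Finset.sum_le_sum fun j _ => ?_)
  rw [Finset.mul_sum]
  refine (Finset.abs_sum_le_sum_abs _ _).trans (Finset.sum_le_sum fun k _ => ?_)
  have h0 : 0 ≤ f j := by linarith [(hf j).1]
  have h4 : f j ≤ 1 := by linarith [(hf j).2]
  have h0' : 0 ≤ f k := by linarith [(hf k).1]
  have h4' : f k ≤ 1 := by linarith [(hf k).2]
  have h5 := abs_pd_le a D h0 h4 h0' h4'
  rw [abs_mul, abs_sq, ← sq]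
  exact mul_le_mul_of_nonneg_right h5 (sq_nonneg _)

end bounds

section continuity

variable {α : Type*} [TopologicalSpace α]

lemma continuous_dPow {F X : α → Mat d} (hF : Continuous F) (hX : Continuous X) (k : ℕ) :
    Continuous fun x => dPow (F x) (X x) k := by
  induction k with
  | zero => simpa [dPow] using continuous_const
  | succ k ih =>
    simp only [dPow]
    exact (ih.matrix_mul hF).add ((hF.pow k).matrix_mul hX)

lemma continuous_pm {F : α → Mat d} (hF : Continuous F) (a : ℕ → ℝ) (D : ℕ) :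
    Continuous fun x => pm a D (F x) := by
  unfold pm
  exact continuous_finsetSum _ fun k _ => (hF.pow k).const_smul (a k)

lemma continuous_dpm {F X : α → Mat d} (hF : Continuous F) (hX : Continuous X) (a : ℕ → ℝ)
    (D : ℕ) : Continuous fun x => dpm a D (F x) (X x) := by
  unfold dpm
  exact continuous_finsetSum _ fun k _ => (continuous_dPow hF hX k).const_smul (a k)

lemma continuous_hs {A B : α → Mat d} (hA : Continuous A) (hB : Continuous B) :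
    Continuous fun x => hs (A x) (B x) := by
  unfold hs
  exact continuous_finsetSum _ fun i _ => continuous_finsetSum _ fun j _ =>
    (hA.matrix_elem i j).mul (hB.matrix_elem i j)

lemma continuous_trR (a : ℕ → ℝ) (D : ℕ) : Continuous fun G : Mat d => trR a D G := by
  unfold trR
  exact continuous_finsetSum _ fun k _ => continuous_finsetSum _ fun l _ =>
    continuous_const.mul (continuous_id.pow _).matrix_trace

end continuity

/-- The end point of the path. -/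
noncomputable def plusM (ε : ℝ) (ξ : ℝ → Fin p → Vec d) : Mat d :=
  Matrix.of fun i j => (if i = j then ε else 0) + ∫ y, rowX (ξ y) i j

/-- The starting point of the path. -/
noncomputable def minusM (ε : ℝ) : Mat d := ε • (1 : Mat d)

section limits

variable {ε : ℝ} {ξ : ℝ → Fin p → Vec d}

lemma tendsto_Iic_atTop {g : ℝ → ℝ} (hg : Integrable g) :
    Tendsto (fun x => ∫ y in Iic x, g y) atTop (𝓝 (∫ y, g y)) :=
  (aecover_Iic tendsto_id).integral_tendsto_of_countably_generated hg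

lemma tendsto_Iic_atBot {g : ℝ → ℝ} (hg : Integrable g) :
    Tendsto (fun x => ∫ y in Iic x, g y) atBot (𝓝 0) := by
  have h1 : Tendsto (fun x => ∫ y in Ioi x, g y) atBot (𝓝 (∫ y, g y)) :=
    (aecover_Ioi tendsto_id).integral_tendsto_of_countably_generated hg
  have h2 : ∀ x, ∫ y in Iic x, g y = (∫ y, g y) - ∫ y in Ioi x, g y := by
    intro x
    have := integral_add_compl (measurableSet_Iic (a := x)) hg
    rw [compl_Iic] at this
    linarith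
  simp only [h2]
  simpa using h1.const_sub (∫ y, g y)

lemma pathFM_tendsto_atTop (hi : ∀ i j, Integrable fun y => rowX (ξ y) i j) :
    Tendsto (pathFM ε ξ) atTop (𝓝 (plusM ε ξ)) := by
  refine tendsto_pi_nhds.2 fun i => tendsto_pi_nhds.2 fun j => ?_
  exact (tendsto_Iic_atTop (hi i j)).const_add _

lemma pathFM_tendsto_atBot (hi : ∀ i j, Integrable fun y => rowX (ξ y) i j) :
    Tendsto (pathFM ε ξ) atBot (𝓝 (minusM ε)) := by
  refine tendsto_pi_nhds.2 fun i => tendsto_pi_nhds.2 fun j => ?_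
  have := (tendsto_Iic_atBot (hi i j)).const_add (if i = j then ε else 0)
  simp only [add_zero] at this
  have e : (minusM ε : Mat d) i j = if i = j then ε else 0 := by
    simp [minusM, Matrix.one_apply]
  rw [e]
  exact this

end limits

/-- The core estimate of the mixed calibrator, at truncation `M`, for a polynomial `P`. -/
theorem core_mix {ε δ κ₀ : ℝ} (hε : 0 < ε) (hδ : 0 ≤ δ) {ξ ξ' : ℝ → Fin p → Vec d}
    (hξ : ∀ x r i, HasDerivAt (fun y => ξ y r i) (ξ' x r i) x) (hξ'c : Continuous ξ')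
    (hL2 : ∀ r i, Integrable fun x => ξ x r i ^ 2) (hL2' : ∀ r i, Integrable fun x => ξ' x r i ^ 2)
    (hbes : ∀ v : Vec d, ∑ r, ∫ x, (v ⬝ᵥ ξ x r) ^ 2 ≤ (1 - 2 * ε) * (v ⬝ᵥ v)) (M : ℕ)
    (hM : ∀ A B : ℝ, 2 * ε ≤ A → A ≤ 2 - 2 * ε → 2 * ε ≤ B → B ≤ 2 - 2 * ε →
      |DM M A B - SM M A * SM M B - Real.pi ^ 2 / 4 *
        (1 + (Real.sinc (Real.pi * (A - B) / 2) - Real.cos (Real.pi * (A - B) / 2)) /
          (Real.sin (Real.pi * A / 2) * Real.sin (Real.pi * B / 2)))| ≤ δ)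
    (a : ℕ → ℝ) (D : ℕ)
    (hq : ∀ s t : ℝ, ε ≤ s → s ≤ 1 - ε → ε ≤ t → t ≤ 1 - ε →
      pd a D s t + (pv a D s + pv a D t) * SM M (s + t) ≤ -κ₀) :
    Integrable (fun x => rhoM (ξ x) ^ 3) ∧
    Integrable (fun x => (rowX (ξ x) * rowX (ξ x) * rowX (ξ x)).trace) ∧
    Integrable (fun x => hs (rowX (ξ x)) (rowX (ξ x))) ∧
    Real.pi ^ 2 / 4 * (∫ x, (rowX (ξ x) * rowX (ξ x) * rowX (ξ x)).trace) +
        κ₀ * ∫ x, hs (rowX (ξ x)) (rowX (ξ x))
      ≤ (∑ r, ∫ x, ξ' x r ⬝ᵥ ξ' x r) + δ * d ^ 3 * (∫ x, rhoM (ξ x) ^ 3) +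
        (trR a D (plusM ε ξ) - trR a D (minusM ε : Mat d)) := by
  have hξc : Continuous ξ := xi_continuousM hξ
  have hξrc : ∀ r, Continuous fun x => ξ x r := fun r => (continuous_apply r).comp hξc
  have hξ'rc : ∀ r, Continuous fun x => ξ' x r := fun r => (continuous_apply r).comp hξ'c
  set ρ : ℝ → ℝ := fun x => rhoM (ξ x) with hρ
  have hρc : Continuous ρ := by
    simp only [hρ, rhoM]
    exact continuous_finsetSum _ fun r _ => Continuous.dotProduct (hξrc r) (hξrc r)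
  have hρ0 : ∀ x, 0 ≤ ρ x := fun x => rhoM_nonneg _
  have hdec : Tendsto ρ atTop (𝓝 0) ∧ Tendsto ρ atBot (𝓝 0) := by
    have hi := fun r i => tendsto_sq_zero (fun x => hξ x r i)
      ((continuous_apply i).comp (hξ'rc r)) (hL2 r i) (hL2' r i)
    simp only [hρ, rhoM, dotProduct, ← sq]
    constructor
    · simpa using tendsto_finsetSum Finset.univ fun r _ =>
        tendsto_finsetSum Finset.univ fun i _ => (hi r i).1
    · simpa using tendsto_finsetSum Finset.univ fun r _ =>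
        tendsto_finsetSum Finset.univ fun i _ => (hi r i).2
  obtain ⟨C, hC0, hC⟩ := bdd_of_tendsto hρc hdec.1 hdec.2
  have hI1 : Integrable ρ := by
    simp only [hρ, rhoM]
    exact integrable_finsetSum _ fun r _ => integrable_self_dot (hL2 r)
  have hI1' : ∀ r, Integrable fun x => ξ' x r ⬝ᵥ ξ' x r := fun r => integrable_self_dot (hL2' r)
  have hI1r : ∀ r, Integrable fun x => ξ x r ⬝ᵥ ξ x r := fun r => integrable_self_dot (hL2 r)
  have hI2 : Integrable fun x => ρ x ^ 2 := by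
    refine (hI1.const_mul C).mono' (hρc.pow 2).aestronglyMeasurable
      (Eventually.of_forall fun x => ?_)
    have h0 := hρ0 x
    have h1 := hC x
    rw [Real.norm_of_nonneg (by positivity)]
    nlinarith
  have hI3 : Integrable fun x => ρ x ^ 3 := by
    refine (hI1.const_mul (C ^ 2)).mono' (hρc.pow 3).aestronglyMeasurable
      (Eventually.of_forall fun x => ?_)
    have h0 := hρ0 x
    have h1 := hC x
    rw [Real.norm_of_nonneg (by positivity)]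
    calc ρ x ^ 3 = ρ x ^ 2 * ρ x := by ring
      _ ≤ C ^ 2 * ρ x := by
        apply mul_le_mul_of_nonneg_right _ h0
        exact pow_le_pow_left₀ h0 h1 2
  have hXc : Continuous fun x => rowX (ξ x) := continuous_rowX hξc
  have hTrc : Continuous fun x => (rowX (ξ x) * rowX (ξ x) * rowX (ξ x)).trace :=
    Continuous.matrix_trace ((hXc.matrix_mul hXc).matrix_mul hXc)
  have hIT : Integrable fun x => (rowX (ξ x) * rowX (ξ x) * rowX (ξ x)).trace := by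
    refine (hI3.const_mul ((d : ℝ) ^ 3)).mono' hTrc.aestronglyMeasurable
      (Eventually.of_forall fun x => ?_)
    rw [Real.norm_eq_abs]
    exact abs_trace_cube_le _
  have hXXc : Continuous fun x => hs (rowX (ξ x)) (rowX (ξ x)) := continuous_hs hXc hXc
  have hXX0 : ∀ x, 0 ≤ hs (rowX (ξ x)) (rowX (ξ x)) := fun x => hs_self_nonneg _
  have hXXle : ∀ x, hs (rowX (ξ x)) (rowX (ξ x)) ≤ ρ x ^ 2 := fun x => hs_rowX_self_le (ξ x)
  have hIXX : Integrable fun x => hs (rowX (ξ x)) (rowX (ξ x)) := by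
    refine hI2.mono' hXXc.aestronglyMeasurable (Eventually.of_forall fun x => ?_)
    rw [Real.norm_of_nonneg (hXX0 x)]
    exact hXXle x
  refine ⟨hI3, hIT, hIXX, ?_⟩
  set F : ℝ → Mat d := pathFM ε ξ with hFdef
  have hQ : ∀ x, QBound ε (F x) := pathFM_qbound hξc hL2 hbes
  have hFc : Continuous F := pathFM_continuous hξc hL2
  have hFd : ∀ x i j, HasDerivAt (fun y => F y i j) (rowX (ξ x) i j) x :=
    pathFM_hasDerivAt hξc hL2
  have hi : ∀ i j, Integrable fun y => rowX (ξ y) i j := rowX_entry_integrable hξc hL2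
  set b : ℤ → Fin p → ℝ → Vec d := fun n r x => sol (F x) n (rowX (ξ x)) *ᵥ ξ x r with hb
  have hbc : ∀ n r, Continuous (b n r) := fun n r =>
    Continuous.matrix_mulVec (continuous_solM hε n hξc hFc hQ) (hξrc r)
  have hbb : ∀ n r x, b n r x ⬝ᵥ b n r x ≤ ρ x ^ 3 / (4 * ε ^ 2) := fun n r x =>
    vec_boundM (hQ x) hε n (ξ x) r
  have hbbI : ∀ n r, Integrable fun x => b n r x ⬝ᵥ b n r x := fun n r =>
    (hI3.div_const (4 * ε ^ 2)).mono'
      (Continuous.dotProduct (hbc n r) (hbc n r)).aestronglyMeasurable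
      (Eventually.of_forall fun x => by
        rw [Real.norm_of_nonneg (dot_self_nonneg _)]
        exact hbb n r x)
  have hmixI : ∀ n r, Integrable fun x => ξ' x r ⬝ᵥ b n r x := fun n r =>
    ((hI1' r).add (hbbI n r)).mono' (Continuous.dotProduct (hξ'rc r) (hbc n r)).aestronglyMeasurable
      (Eventually.of_forall fun x => by
        rw [Real.norm_eq_abs]
        simp only [Pi.add_apply]
        have := two_abs_dot_le (ξ' x r) (b n r x)
        have h2 := abs_nonneg (ξ' x r ⬝ᵥ b n r x)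
        linarith)
  have hterm : ∀ n, Integrable (fun x => ∑ r, (2 * (ξ' x r ⬝ᵥ b n r x) - b n r x ⬝ᵥ b n r x)) ∧
      ∫ x, ∑ r, (2 * (ξ' x r ⬝ᵥ b n r x) - b n r x ⬝ᵥ b n r x) = 0 := by
    intro n
    have hI : Integrable fun x => ∑ r, (2 * (ξ' x r ⬝ᵥ b n r x) - b n r x ⬝ᵥ b n r x) :=
      integrable_finsetSum _ fun r _ => ((hmixI n r).const_mul 2).sub (hbbI n r)
    refine ⟨hI, ?_⟩
    have hbound : ∀ x, |(1 / 2 : ℝ) * ∑ r, (ξ x r ⬝ᵥ b n r x)| ≤ (1 / 2) * (ρ x ^ 2 / (2 * ε)) := by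
      intro x
      rw [abs_mul, abs_of_pos (by norm_num : (0 : ℝ) < 1 / 2)]
      exact mul_le_mul_of_nonneg_left (quad_boundM (hQ x) hε n (ξ x)) (by norm_num)
    have hlim : ∀ l : Filter ℝ, Tendsto ρ l (𝓝 0) →
        Tendsto (fun x => (1 / 2 : ℝ) * ∑ r, (ξ x r ⬝ᵥ b n r x)) l (𝓝 0) := by
      intro l hl
      have h1 : Tendsto (fun x => (1 / 2 : ℝ) * (ρ x ^ 2 / (2 * ε))) l (𝓝 0) := by
        simpa using ((hl.pow 2).div_const (2 * ε)).const_mul (1 / 2 : ℝ)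
      exact squeeze_zero_norm (fun x => by
        rw [Real.norm_eq_abs]
        exact hbound x) h1
    have := integral_of_hasDerivAt_of_tendsto
      (f := fun x => (1 / 2 : ℝ) * ∑ r, (ξ x r ⬝ᵥ b n r x))
      (f' := fun x => ∑ r, (2 * (ξ' x r ⬝ᵥ b n r x) - b n r x ⬝ᵥ b n r x))
      (fun x => hasDerivAt_bM hε n hξ hFd hQ x) hI (hlim _ hdec.2) (hlim _ hdec.1)
    simpa using this
  -- the degree one term
  set u : Fin p → ℝ → Vec d := fun r x => pm a D (F x) *ᵥ ξ x r with hu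
  have huc : ∀ r, Continuous (u r) := fun r =>
    Continuous.matrix_mulVec (continuous_pm hFc a D) (hξrc r)
  have huuI : ∀ r, Integrable fun x => u r x ⬝ᵥ u r x := fun r =>
    ((hI1r r).const_mul (cA a D ^ 2)).mono'
      (Continuous.dotProduct (huc r) (huc r)).aestronglyMeasurable
      (Eventually.of_forall fun x => by
        rw [Real.norm_of_nonneg (dot_self_nonneg _)]
        exact pm_vec_bound (hQ x) hε a D (ξ x r))
  have hmuI : ∀ r, Integrable fun x => ξ' x r ⬝ᵥ u r x := fun r =>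
    ((hI1' r).add (huuI r)).mono' (Continuous.dotProduct (hξ'rc r) (huc r)).aestronglyMeasurable
      (Eventually.of_forall fun x => by
        rw [Real.norm_eq_abs]
        simp only [Pi.add_apply]
        have := two_abs_dot_le (ξ' x r) (u r x)
        have h2 := abs_nonneg (ξ' x r ⬝ᵥ u r x)
        linarith)
  have hdXc : Continuous fun x => hs (dpm a D (F x) (rowX (ξ x))) (rowX (ξ x)) :=
    continuous_hs (continuous_dpm hFc hXc a D) hXc
  have hdXI : Integrable fun x => hs (dpm a D (F x) (rowX (ξ x))) (rowX (ξ x)) := by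
    refine (hIXX.const_mul (cB a D)).mono' hdXc.aestronglyMeasurable
      (Eventually.of_forall fun x => ?_)
    rw [Real.norm_eq_abs]
    exact hs_dpm_bound (hQ x) hε a D _
  have hc1I : Integrable fun x => ∑ r, 2 * (ξ' x r ⬝ᵥ u r x) +
      hs (dpm a D (F x) (rowX (ξ x))) (rowX (ξ x)) :=
    (integrable_finsetSum _ fun r _ => (hmuI r).const_mul 2).add hdXI
  have hc1 : ∫ x, (∑ r, 2 * (ξ' x r ⬝ᵥ u r x) +
      hs (dpm a D (F x) (rowX (ξ x))) (rowX (ξ x))) = 0 := by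
    have hbound : ∀ x, |∑ r, ξ x r ⬝ᵥ (pm a D (F x) *ᵥ ξ x r)| ≤ cA a D * ρ x := by
      intro x
      simp only [hρ, rhoM, Finset.mul_sum]
      refine (Finset.abs_sum_le_sum_abs _ _).trans (Finset.sum_le_sum fun r _ => ?_)
      exact pm_quad_bound (hQ x) hε a D (ξ x r)
    have hlim : ∀ l : Filter ℝ, Tendsto ρ l (𝓝 0) →
        Tendsto (fun x => ∑ r, ξ x r ⬝ᵥ (pm a D (F x) *ᵥ ξ x r)) l (𝓝 0) := by
      intro l hl
      have h1 : Tendsto (fun x => cA a D * ρ x) l (𝓝 0) := by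
        simpa using hl.const_mul (cA a D)
      exact squeeze_zero_norm (fun x => by
        rw [Real.norm_eq_abs]
        exact hbound x) h1
    have := integral_of_hasDerivAt_of_tendsto
      (f := fun x => ∑ r, ξ x r ⬝ᵥ (pm a D (F x) *ᵥ ξ x r))
      (f' := fun x => ∑ r, 2 * (ξ' x r ⬝ᵥ u r x) + hs (dpm a D (F x) (rowX (ξ x))) (rowX (ξ x)))
      (fun x => hasDerivAt_c1 a D hξ hFd (fun x => (hQ x).1) x) hc1I (hlim _ hdec.2) (hlim _ hdec.1)
    simpa using this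
  -- the cost
  have hcost : ∫ x, ∑ r, u r x ⬝ᵥ u r x = trR a D (plusM ε ξ) - trR a D (minusM ε : Mat d) := by
    have h1 : Tendsto (fun x => trR a D (F x)) atTop (𝓝 (trR a D (plusM ε ξ))) :=
      ((continuous_trR a D).tendsto _).comp (pathFM_tendsto_atTop hi)
    have h2 : Tendsto (fun x => trR a D (F x)) atBot (𝓝 (trR a D (minusM ε : Mat d))) :=
      ((continuous_trR a D).tendsto _).comp (pathFM_tendsto_atBot hi)
    exact integral_of_hasDerivAt_of_tendsto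
      (f := fun x => trR a D (F x)) (f' := fun x => ∑ r, u r x ⬝ᵥ u r x)
      (fun x => hasDerivAt_trR a D hFd hQ x) (integrable_finsetSum _ fun r _ => huuI r) h2 h1
  -- sum over the window
  set W := Finset.Icc (-(M : ℤ)) (M : ℤ) with hW
  have hsumI : Integrable fun x => ∑ n ∈ W, ∑ r, (2 * (ξ' x r ⬝ᵥ b n r x) - b n r x ⬝ᵥ b n r x) :=
    integrable_finsetSum _ fun n _ => (hterm n).1
  have hsum0 : ∫ x, ∑ n ∈ W, ∑ r, (2 * (ξ' x r ⬝ᵥ b n r x) - b n r x ⬝ᵥ b n r x) = 0 := by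
    rw [integral_finsetSum _ fun n _ => (hterm n).1]
    exact Finset.sum_eq_zero fun n _ => (hterm n).2
  have hpt : ∀ x, (∑ n ∈ W, ∑ r, (2 * (ξ' x r ⬝ᵥ b n r x) - b n r x ⬝ᵥ b n r x)) +
      (∑ r, 2 * (ξ' x r ⬝ᵥ u r x) + hs (dpm a D (F x) (rowX (ξ x))) (rowX (ξ x)))
      ≤ ∑ r, ξ' x r ⬝ᵥ ξ' x r + ∑ r, u r x ⬝ᵥ u r x -
        (Real.pi ^ 2 / 4 * (rowX (ξ x) * rowX (ξ x) * rowX (ξ x)).trace - δ * d ^ 3 * ρ x ^ 3)
        - κ₀ * hs (rowX (ξ x)) (rowX (ξ x)) := fun x =>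
    point_mix (hQ x) hε hδ M hM a D hq (ξ x) (ξ' x)
  have i1 : Integrable fun x => ∑ r, ξ' x r ⬝ᵥ ξ' x r :=
    integrable_finsetSum _ fun r _ => hI1' r
  have i1' : Integrable fun x => ∑ r, u r x ⬝ᵥ u r x :=
    integrable_finsetSum _ fun r _ => huuI r
  have i2 : Integrable fun x => Real.pi ^ 2 / 4 * (rowX (ξ x) * rowX (ξ x) * rowX (ξ x)).trace :=
    hIT.const_mul _
  have i3 : Integrable fun x => δ * d ^ 3 * ρ x ^ 3 := hI3.const_mul _
  have i4 : Integrable fun x => κ₀ * hs (rowX (ξ x)) (rowX (ξ x)) := hIXX.const_mul _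
  have i23 : Integrable fun x => Real.pi ^ 2 / 4 * (rowX (ξ x) * rowX (ξ x) * rowX (ξ x)).trace
      - δ * d ^ 3 * ρ x ^ 3 := i2.sub i3
  have hfinal : ∫ x, ((∑ n ∈ W, ∑ r, (2 * (ξ' x r ⬝ᵥ b n r x) - b n r x ⬝ᵥ b n r x)) +
      (∑ r, 2 * (ξ' x r ⬝ᵥ u r x) + hs (dpm a D (F x) (rowX (ξ x))) (rowX (ξ x))))
      ≤ ∫ x, (∑ r, ξ' x r ⬝ᵥ ξ' x r + ∑ r, u r x ⬝ᵥ u r x -
        (Real.pi ^ 2 / 4 * (rowX (ξ x) * rowX (ξ x) * rowX (ξ x)).trace - δ * d ^ 3 * ρ x ^ 3)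
        - κ₀ * hs (rowX (ξ x)) (rowX (ξ x))) :=
    integral_mono (hsumI.add hc1I) (((i1.add i1').sub i23).sub i4) hpt
  have e1 : ∫ x, (∑ r, ξ' x r ⬝ᵥ ξ' x r + ∑ r, u r x ⬝ᵥ u r x -
        (Real.pi ^ 2 / 4 * (rowX (ξ x) * rowX (ξ x) * rowX (ξ x)).trace - δ * d ^ 3 * ρ x ^ 3)
        - κ₀ * hs (rowX (ξ x)) (rowX (ξ x))) =
      (∫ x, (∑ r, ξ' x r ⬝ᵥ ξ' x r + ∑ r, u r x ⬝ᵥ u r x -
        (Real.pi ^ 2 / 4 * (rowX (ξ x) * rowX (ξ x) * rowX (ξ x)).trace - δ * d ^ 3 * ρ x ^ 3)))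
        - ∫ x, κ₀ * hs (rowX (ξ x)) (rowX (ξ x)) :=
    integral_sub ((i1.add i1').sub i23) i4
  have e2 : ∫ x, (∑ r, ξ' x r ⬝ᵥ ξ' x r + ∑ r, u r x ⬝ᵥ u r x -
        (Real.pi ^ 2 / 4 * (rowX (ξ x) * rowX (ξ x) * rowX (ξ x)).trace - δ * d ^ 3 * ρ x ^ 3)) =
      (∫ x, (∑ r, ξ' x r ⬝ᵥ ξ' x r + ∑ r, u r x ⬝ᵥ u r x))
        - ∫ x, (Real.pi ^ 2 / 4 * (rowX (ξ x) * rowX (ξ x) * rowX (ξ x)).trace
          - δ * d ^ 3 * ρ x ^ 3) :=
    integral_sub (i1.add i1') i23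
  have e3 : ∫ x, (∑ r, ξ' x r ⬝ᵥ ξ' x r + ∑ r, u r x ⬝ᵥ u r x) =
      (∫ x, (∑ r, ξ' x r ⬝ᵥ ξ' x r)) + ∫ x, ∑ r, u r x ⬝ᵥ u r x := integral_add i1 i1'
  have e4 : ∫ x, (Real.pi ^ 2 / 4 * (rowX (ξ x) * rowX (ξ x) * rowX (ξ x)).trace
        - δ * d ^ 3 * ρ x ^ 3) =
      (∫ x, (Real.pi ^ 2 / 4 * (rowX (ξ x) * rowX (ξ x) * rowX (ξ x)).trace))
        - ∫ x, δ * d ^ 3 * ρ x ^ 3 := integral_sub i2 i3
  have e5 : ∫ x, ((∑ n ∈ W, ∑ r, (2 * (ξ' x r ⬝ᵥ b n r x) - b n r x ⬝ᵥ b n r x)) +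
      (∑ r, 2 * (ξ' x r ⬝ᵥ u r x) + hs (dpm a D (F x) (rowX (ξ x))) (rowX (ξ x)))) =
      (∫ x, (∑ n ∈ W, ∑ r, (2 * (ξ' x r ⬝ᵥ b n r x) - b n r x ⬝ᵥ b n r x))) +
      ∫ x, (∑ r, 2 * (ξ' x r ⬝ᵥ u r x) + hs (dpm a D (F x) (rowX (ξ x))) (rowX (ξ x))) :=
    integral_add hsumI hc1I
  rw [e5, hsum0, hc1, e1, e2, e3, e4, hcost, integral_const_mul, integral_const_mul,
    integral_const_mul, integral_finsetSum _ fun r _ => hI1' r] at hfinal
  linarith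

end Vale.Agent.Lib.P371.Mix
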