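import Vale.Agent.Lib.P371.Mix.Poly
import Vale.Agent.Lib.P371.Sharp.Trig2

/-!
# The function `ψ(f) = -b tan(π f / 2)` and its polynomial approximations.

`ψ` satisfies the exact kernel inequality `ψ[s,t] + (ψ(s) + ψ(t)) S((s+t)/2) ≤ -b π`, and the
polynomials of `Poly.lean` approximate `ψ`, `ψ[s,t]` uniformly on `[ε, 1-ε]`.
-/

open Set Filter Topology

namespace Vale.Agent.Lib.P371.Mix

open Vale.Agent.Lib.P371.Sharp

/-- The function `ψ`. -/
noncomputable def psiB (b f : ℝ) : ℝ := -b * Real.tan (Real.pi * f / 2)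

/-- The derivative of `ψ`. -/
noncomputable def dpsiB (b f : ℝ) : ℝ := -b * (Real.pi / 2) / Real.cos (Real.pi * f / 2) ^ 2

lemma angle_mem {f : ℝ} (h0 : 0 < f) (h1 : f < 1) :
    0 < Real.pi * f / 2 ∧ Real.pi * f / 2 < Real.pi / 2 := by
  have hpi := Real.pi_pos
  constructor
  · positivity
  · nlinarith

lemma cos_angle_pos {f : ℝ} (h0 : 0 < f) (h1 : f < 1) : 0 < Real.cos (Real.pi * f / 2) := by
  have := angle_mem h0 h1
  exact Real.cos_pos_of_mem_Ioo ⟨by linarith [Real.pi_pos], this.2⟩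

lemma hasDerivAt_psiB (b : ℝ) {f : ℝ} (h0 : 0 < f) (h1 : f < 1) :
    HasDerivAt (psiB b) (dpsiB b f) f := by
  have hc := cos_angle_pos h0 h1
  have h2 : HasDerivAt (fun x : ℝ => Real.pi * x / 2) (Real.pi / 2) f := by
    have := (hasDerivAt_id' f).const_mul (Real.pi / 2)
    have e : (fun x : ℝ => Real.pi * x / 2) = fun x => Real.pi / 2 * x := by
      ext x
      ring
    rw [e]
    simpa using this
  have h3' := (Real.hasDerivAt_tan hc.ne').comp f h2
  have h3 : HasDerivAt (fun x : ℝ => Real.tan (Real.pi * x / 2))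
      (1 / Real.cos (Real.pi * f / 2) ^ 2 * (Real.pi / 2)) f := h3'
  have h4 := h3.const_mul (-b)
  have e : dpsiB b f = -b * (1 / Real.cos (Real.pi * f / 2) ^ 2 * (Real.pi / 2)) := by
    unfold dpsiB
    field_simp
  rw [e]
  exact h4

lemma psiB_kernel_ne {b s t : ℝ} (hb : 0 ≤ b) (hs0 : 0 < s) (hs1 : s < 1) (ht0 : 0 < t)
    (ht1 : t < 1) (hne : s ≠ t) :
    (psiB b s - psiB b t) / (s - t) + (psiB b s + psiB b t) * SS ((s + t) / 2) ≤ -(b * Real.pi) := by
  have hpi := Real.pi_pos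
  set α := Real.pi * s / 2 with hα
  set β := Real.pi * t / 2 with hβ
  have hcα : 0 < Real.cos α := cos_angle_pos hs0 hs1
  have hcβ : 0 < Real.cos β := cos_angle_pos ht0 ht1
  have hα0 := angle_mem hs0 hs1
  have hβ0 := angle_mem ht0 ht1
  set u := α - β with hu
  have hst : s - t ≠ 0 := sub_ne_zero.2 hne
  have hu0 : u ≠ 0 := by
    rw [hu, hα, hβ]
    have : Real.pi * s / 2 - Real.pi * t / 2 = Real.pi / 2 * (s - t) := by ring
    rw [this]
    positivity
  have hu1 : |u| < Real.pi := by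
    rw [abs_lt]
    constructor <;> linarith [hα0.1, hα0.2, hβ0.1, hβ0.2]
  have hsinc := cos_le_sinc hu0 hu1
  have hsu : s - t = 2 * u / Real.pi := by
    rw [hu, hα, hβ]
    field_simp
  have htan : psiB b s - psiB b t = -b * (Real.sin u / (Real.cos α * Real.cos β)) := by
    unfold psiB
    rw [← hα, ← hβ, Real.tan_eq_sin_div_cos, Real.tan_eq_sin_div_cos, hu, Real.sin_sub]
    field_simp
    ring
  have htan2 : psiB b s + psiB b t = -b * (Real.sin (α + β) / (Real.cos α * Real.cos β)) := by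
    unfold psiB
    rw [← hα, ← hβ, Real.tan_eq_sin_div_cos, Real.tan_eq_sin_div_cos, Real.sin_add]
    field_simp
    ring
  have hab : Real.pi * ((s + t) / 2) = α + β := by
    rw [hα, hβ]
    ring
  have hsin : 0 < Real.sin (α + β) :=
    Real.sin_pos_of_pos_of_lt_pi (by linarith [hα0.1, hβ0.1]) (by linarith [hα0.2, hβ0.2])
  have hSS : SS ((s + t) / 2) = Real.pi / 2 * (Real.cos (α + β) / Real.sin (α + β)) := by
    unfold SS
    rw [hab]
  have hprod : 0 < Real.cos α * Real.cos β := mul_pos hcα hcβ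
  have e : (psiB b s - psiB b t) / (s - t) + (psiB b s + psiB b t) * SS ((s + t) / 2) =
      -b * (Real.pi / 2) * ((Real.sin u / u + Real.cos (α + β)) / (Real.cos α * Real.cos β)) := by
    rw [htan, htan2, hSS, hsu]
    field_simp
    ring
  rw [e]
  have hcos : Real.cos u + Real.cos (α + β) = 2 * (Real.cos α * Real.cos β) := by
    rw [hu, Real.cos_sub, Real.cos_add]
    ring
  have h2 : 2 ≤ (Real.sin u / u + Real.cos (α + β)) / (Real.cos α * Real.cos β) := by
    rw [le_div_iff₀ hprod]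
    linarith
  have h3 : 0 ≤ b * (Real.pi / 2) := by positivity
  nlinarith

lemma psiB_kernel_eq {b s : ℝ} (hs0 : 0 < s) (hs1 : s < 1) :
    dpsiB b s + (psiB b s + psiB b s) * SS ((s + s) / 2) = -(b * Real.pi) := by
  have hpi := Real.pi_pos
  set α := Real.pi * s / 2 with hα
  have hcα : 0 < Real.cos α := cos_angle_pos hs0 hs1
  have hα0 := angle_mem hs0 hs1
  have hab : Real.pi * ((s + s) / 2) = 2 * α := by
    rw [hα]
    ring
  have hsin : 0 < Real.sin α := Real.sin_pos_of_pos_of_lt_pi hα0.1 (by linarith [hα0.2])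
  have hsin2 : Real.sin (2 * α) = 2 * Real.sin α * Real.cos α := Real.sin_two_mul α
  have hcos2 : Real.cos (2 * α) = 2 * Real.cos α ^ 2 - 1 := Real.cos_two_mul α
  unfold dpsiB psiB SS
  rw [← hα, hab, hsin2, hcos2, Real.tan_eq_sin_div_cos]
  field_simp
  ring

/-- The divided difference of `ψ`. -/
noncomputable def ddPsi (b s t : ℝ) : ℝ :=
  if s = t then dpsiB b s else (psiB b s - psiB b t) / (s - t)

lemma psiB_kernel {b s t : ℝ} (hb : 0 ≤ b) (hs0 : 0 < s) (hs1 : s < 1) (ht0 : 0 < t)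
    (ht1 : t < 1) :
    ddPsi b s t + (psiB b s + psiB b t) * SS ((s + t) / 2) ≤ -(b * Real.pi) := by
  unfold ddPsi
  split_ifs with h
  · subst h
    exact (psiB_kernel_eq hs0 hs1).le
  · exact psiB_kernel_ne hb hs0 hs1 ht0 ht1 h

/-- Derivative of `pv`. -/
lemma hasDerivAt_pv_shift (c : ℕ → ℝ) (a₀ : ℝ) (n : ℕ) (x : ℝ) :
    HasDerivAt (pv (fun k => Nat.casesOn k a₀ fun k => c k / ((k : ℝ) + 1)) (n + 1))
      (∑ k ∈ Finset.range n, c k * x ^ k) x := by
  have e : pv (fun k => Nat.casesOn k a₀ fun k => c k / ((k : ℝ) + 1)) (n + 1) =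
      fun x => a₀ + ∑ k ∈ Finset.range n, c k / ((k : ℝ) + 1) * x ^ (k + 1) := by
    ext y
    unfold pv
    rw [Finset.sum_range_succ', pow_zero, mul_one, add_comm]
    rfl
  rw [e]
  have hk : ∀ k ∈ Finset.range n, HasDerivAt (fun y : ℝ => c k / ((k : ℝ) + 1) * y ^ (k + 1))
      (c k * x ^ k) x := by
    intro k _
    have h := (hasDerivAt_pow (k + 1) x).const_mul (c k / ((k : ℝ) + 1))
    have hne : ((k : ℝ) + 1) ≠ 0 := by positivity
    have e2 : c k * x ^ k = c k / ((k : ℝ) + 1) * (((k + 1 : ℕ) : ℝ) * x ^ (k + 1 - 1)) := by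
      rw [Nat.add_sub_cancel]
      push_cast
      field_simp
    rw [e2]
    exact h
  have := HasDerivAt.fun_sum hk
  simpa using (this.const_add a₀)

lemma pd_mul_sub (a : ℕ → ℝ) (D : ℕ) (s t : ℝ) :
    pd a D s t * (s - t) = pv a D s - pv a D t := by
  unfold pd pv
  rw [Finset.sum_mul, ← Finset.sum_sub_distrib]
  refine Finset.sum_congr rfl fun k _ => ?_
  rw [mul_assoc, dd_mul_sub]
  ring

lemma pd_self_shift (c : ℕ → ℝ) (a₀ : ℝ) (n : ℕ) (s : ℝ) :
    pd (fun k => Nat.casesOn k a₀ fun k => c k / ((k : ℝ) + 1)) (n + 1) s s =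
      ∑ k ∈ Finset.range n, c k * s ^ k := by
  unfold pd
  rw [Finset.sum_range_succ']
  have e0 : dd 0 s s = 0 := rfl
  rw [e0, mul_zero, add_zero]
  refine Finset.sum_congr rfl fun k _ => ?_
  rw [dd_self k s]
  have : ((k : ℝ) + 1) ≠ 0 := by positivity
  field_simp

lemma pv_shift (a a₁ : ℕ → ℝ) (n : ℕ) (h : ∀ k, a (k + 1) = a₁ (k + 1)) (h0 : a₁ 0 = 0) (x : ℝ) :
    pv a (n + 1) x = a 0 + pv a₁ (n + 1) x := by
  unfold pv
  rw [Finset.sum_range_succ' (fun k => a k * x ^ k) n,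
    Finset.sum_range_succ' (fun k => a₁ k * x ^ k) n]
  simp only [h, h0, pow_zero, mul_one]
  ring

/-- Polynomial approximation of `ψ` and of its divided differences. -/
theorem poly_approx {ε : ℝ} (hε : 0 < ε) (hε2 : ε < 1 / 2) (b : ℝ) {δ : ℝ} (hδ : 0 < δ) :
    ∃ (a : ℕ → ℝ) (D : ℕ), ∀ s ∈ Icc ε (1 - ε),
      |pv a D s - psiB b s| ≤ δ ∧ ∀ t ∈ Icc ε (1 - ε), |pd a D s t - ddPsi b s t| ≤ δ := by
  have hmem : ∀ s ∈ Icc ε (1 - ε), 0 < s ∧ s < 1 := fun s hs =>
    ⟨by linarith [hs.1], by linarith [hs.2]⟩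
  have hcont : ContinuousOn (dpsiB b) (Icc ε (1 - ε)) := by
    unfold dpsiB
    refine continuousOn_const.div ?_ ?_
    · refine Continuous.continuousOn ?_
      exact (Real.continuous_cos.comp (by fun_prop)).pow 2
    · intro s hs
      have := cos_angle_pos (hmem s hs).1 (hmem s hs).2
      positivity
  obtain ⟨P, hP⟩ := exists_polynomial_near_of_continuousOn ε (1 - ε) (dpsiB b) hcont δ hδ
  set n := P.natDegree + 1 with hn
  set c : ℕ → ℝ := fun k => P.coeff k with hc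
  have hev : ∀ x, P.eval x = ∑ k ∈ Finset.range n, c k * x ^ k := fun x =>
    Polynomial.eval_eq_sum_range x
  -- choose the constant so that `P₁(ε) = ψ(ε)`
  set a₁ : ℕ → ℝ := fun k => Nat.casesOn k 0 fun k => c k / ((k : ℝ) + 1) with ha₁
  set a₀ : ℝ := psiB b ε - pv a₁ (n + 1) ε with ha₀
  set a : ℕ → ℝ := fun k => Nat.casesOn k a₀ fun k => c k / ((k : ℝ) + 1) with ha
  have hshift : ∀ x, pv a (n + 1) x = a₀ + pv a₁ (n + 1) x := by
    intro x
    exact pv_shift a a₁ n (fun k => rfl) rfl x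
  have hPε : pv a (n + 1) ε = psiB b ε := by
    rw [hshift, ha₀]
    ring
  have hdP : ∀ x, HasDerivAt (pv a (n + 1)) (P.eval x) x := by
    intro x
    rw [hev]
    exact hasDerivAt_pv_shift c a₀ n x
  have hdE : ∀ x ∈ Icc ε (1 - ε), HasDerivAt (fun y => pv a (n + 1) y - psiB b y)
      (P.eval x - dpsiB b x) x := fun x hx =>
    (hdP x).sub (hasDerivAt_psiB b (hmem x hx).1 (hmem x hx).2)
  have hbound : ∀ x ∈ Icc ε (1 - ε), ‖P.eval x - dpsiB b x‖ ≤ δ := fun x hx => by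
    rw [Real.norm_eq_abs]
    exact (hP x hx).le
  have hconv : Convex ℝ (Icc ε (1 - ε)) := convex_Icc _ _
  have hLip : ∀ x ∈ Icc ε (1 - ε), ∀ y ∈ Icc ε (1 - ε),
      ‖(pv a (n + 1) y - psiB b y) - (pv a (n + 1) x - psiB b x)‖ ≤ δ * ‖y - x‖ := by
    intro x hx y hy
    exact hconv.norm_image_sub_le_of_norm_hasDerivWithin_le
      (fun z hz => (hdE z hz).hasDerivWithinAt) hbound hx hy
  refine ⟨a, n + 1, fun s hs => ⟨?_, fun t ht => ?_⟩⟩
  · have hε' : ε ∈ Icc ε (1 - ε) := ⟨le_rfl, by linarith⟩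
    have h := hLip ε hε' s hs
    rw [hPε, sub_self, sub_zero, Real.norm_eq_abs, Real.norm_eq_abs] at h
    refine h.trans ?_
    have h1 : |s - ε| ≤ 1 := by
      rw [abs_le]
      constructor <;> linarith [hs.1, hs.2]
    nlinarith
  · unfold ddPsi
    split_ifs with hst
    · subst hst
      rw [show pd a (n + 1) s s = _ from pd_self_shift c a₀ n s, ← hev]
      exact (hP s hs).le
    · have hst' : s - t ≠ 0 := sub_ne_zero.2 hst
      have h := hLip t ht s hs
      rw [Real.norm_eq_abs, Real.norm_eq_abs] at h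
      have hpd : pd a (n + 1) s t = (pv a (n + 1) s - pv a (n + 1) t) / (s - t) := by
        rw [eq_div_iff hst', pd_mul_sub]
      have e : pd a (n + 1) s t - (psiB b s - psiB b t) / (s - t) =
          ((pv a (n + 1) s - psiB b s) - (pv a (n + 1) t - psiB b t)) / (s - t) := by
        rw [hpd]
        field_simp
        ring
      rw [e, abs_div, div_le_iff₀ (abs_pos.2 hst')]
      exact h

/-- Uniform control: the approximate kernel inequality and the approximate square. -/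
theorem hq_exists {ε : ℝ} (hε : 0 < ε) (hε2 : ε < 1 / 2) {b : ℝ} (hb : 0 ≤ b) {η : ℝ} (hη : 0 < η)
    (M₀ : ℕ) :
    ∃ (M : ℕ) (a : ℕ → ℝ) (D : ℕ), M₀ ≤ M ∧
      (∀ s t : ℝ, ε ≤ s → s ≤ 1 - ε → ε ≤ t → t ≤ 1 - ε →
        pd a D s t + (pv a D s + pv a D t) * SM M (s + t) ≤ -(b * Real.pi - η)) ∧
      (∀ s ∈ Icc ε (1 - ε), |pv a D s ^ 2 - psiB b s ^ 2| ≤ η) := by
  have hmem : ∀ s ∈ Icc ε (1 - ε), 0 < s ∧ s < 1 := fun s hs =>
    ⟨by linarith [hs.1], by linarith [hs.2]⟩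
  have hcomp : IsCompact (Icc ε (1 - ε)) := isCompact_Icc
  -- bound for `ψ`
  have hψc : ContinuousOn (psiB b) (Icc ε (1 - ε)) := fun s hs =>
    (hasDerivAt_psiB b (hmem s hs).1 (hmem s hs).2).continuousAt.continuousWithinAt
  obtain ⟨Cψ, hCψ⟩ := hcomp.exists_bound_of_continuousOn hψc
  -- bound for `S`
  have hSc : ContinuousOn SS (Icc ε (1 - ε)) := by
    unfold SS
    refine continuousOn_const.mul (ContinuousOn.div ?_ ?_ ?_)
    · exact (Real.continuous_cos.comp (by fun_prop)).continuousOn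
    · exact (Real.continuous_sin.comp (by fun_prop)).continuousOn
    · intro s hs
      have h1 := hmem s hs
      have hpi := Real.pi_pos
      exact (Real.sin_pos_of_pos_of_lt_pi (mul_pos hpi h1.1) (by nlinarith)).ne'
  obtain ⟨CS, hCS⟩ := hcomp.exists_bound_of_continuousOn hSc
  set Cψ' := |Cψ| + 1 with hCψ'
  set CS' := |CS| + 1 with hCS'
  have hCψ'1 : 1 ≤ Cψ' := by rw [hCψ']; linarith [abs_nonneg Cψ]
  have hCS'1 : 1 ≤ CS' := by rw [hCS']; linarith [abs_nonneg CS]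
  have hCψ'0 : 0 < Cψ' := by linarith
  have hCS'0 : 0 < CS' := by linarith
  have hψb : ∀ s ∈ Icc ε (1 - ε), |psiB b s| ≤ Cψ' := fun s hs => by
    have := hCψ s hs
    rw [Real.norm_eq_abs] at this
    rw [hCψ']
    linarith [le_abs_self Cψ]
  have hSb : ∀ s ∈ Icc ε (1 - ε), |SS s| ≤ CS' := fun s hs => by
    have := hCS s hs
    rw [Real.norm_eq_abs] at this
    rw [hCS']
    linarith [le_abs_self CS]
  -- the errors
  set η₁ : ℝ := min 1 (η / (6 * Cψ')) with hη₁
  have hη₁0 : 0 < η₁ := lt_min one_pos (by positivity)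
  obtain ⟨M₁, hM₁⟩ := exists_nat_gt (1 / η₁)
  set M := max (max M₀ M₁) 1 with hMdef
  have hM1 : 1 ≤ M := le_max_right _ _
  have hMM₀ : M₀ ≤ M := (le_max_left _ _).trans (le_max_left _ _)
  have hMM₁ : M₁ ≤ M := (le_max_right _ _).trans (le_max_left _ _)
  have hMpos : (0 : ℝ) < M := by exact_mod_cast hM1
  have hMinv : 1 / (M : ℝ) ≤ η₁ := by
    rw [div_le_iff₀ hMpos]
    have h1 : (M₁ : ℝ) ≤ M := by exact_mod_cast hMM₁
    have h2 : 1 < η₁ * M₁ := by
      rw [div_lt_iff₀ hη₁0] at hM₁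
      linarith
    have h3 : η₁ * M₁ ≤ η₁ * M := mul_le_mul_of_nonneg_left h1 hη₁0.le
    linarith
  set δ : ℝ := min 1 (min (η / (6 * (1 + 2 * (CS' + 1)))) (η / (3 * (2 * Cψ' + 1)))) with hδdef
  have hδ0 : 0 < δ := by
    refine lt_min one_pos (lt_min ?_ ?_) <;> positivity
  obtain ⟨a, D, hA⟩ := poly_approx hε hε2 b hδ0
  refine ⟨M, a, D, hMM₀, ?_, ?_⟩
  · intro s t hs0 hs1 ht0 ht1
    have hs : s ∈ Icc ε (1 - ε) := ⟨hs0, hs1⟩
    have ht : t ∈ Icc ε (1 - ε) := ⟨ht0, ht1⟩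
    have hx : (s + t) / 2 ∈ Icc ε (1 - ε) := ⟨by linarith, by linarith⟩
    have hker := psiB_kernel hb (hmem s hs).1 (hmem s hs).2 (hmem t ht).1 (hmem t ht).2
    have h1 := (hA s hs).2 t ht
    have h2 := (hA s hs).1
    have h3 := (hA t ht).1
    have h4 := SM_sub_SS (x := (s + t) / 2) (hmem _ hx).1 (hmem _ hx).2 M hM1
    rw [show 2 * ((s + t) / 2) = s + t by ring] at h4
    have h5 := hSb _ hx
    have h6 := hψb s hs
    have h7 := hψb t ht
    set S₁ := SM M (s + t) with hS₁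
    set S₂ := SS ((s + t) / 2) with hS₂
    have h8 : |S₁ - S₂| ≤ η₁ := h4.trans hMinv
    have hη₁1 : η₁ ≤ 1 := min_le_left _ _
    have hη₁2 : η₁ ≤ η / (6 * Cψ') := min_le_right _ _
    have h9 : |S₁| ≤ CS' + 1 := by
      have := abs_sub_abs_le_abs_sub S₁ S₂
      linarith
    -- the decomposition
    have e : pd a D s t + (pv a D s + pv a D t) * S₁ =
        (ddPsi b s t + (psiB b s + psiB b t) * S₂) + (pd a D s t - ddPsi b s t) +
          ((pv a D s - psiB b s) + (pv a D t - psiB b t)) * S₁ +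
          (psiB b s + psiB b t) * (S₁ - S₂) := by ring
    rw [e]
    have hδ1 : δ ≤ η / (6 * (1 + 2 * (CS' + 1))) :=
      (min_le_right _ _).trans (min_le_left _ _)
    have hpos : 0 < 1 + 2 * (CS' + 1) := by positivity
    have hbd : δ * (1 + 2 * (CS' + 1)) ≤ η / 6 := by
      calc δ * (1 + 2 * (CS' + 1)) ≤ η / (6 * (1 + 2 * (CS' + 1))) * (1 + 2 * (CS' + 1)) :=
            mul_le_mul_of_nonneg_right hδ1 hpos.le
        _ = η / 6 := by field_simp
    have t1 : pd a D s t - ddPsi b s t ≤ δ := (abs_le.1 h1).2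
    have t2 : ((pv a D s - psiB b s) + (pv a D t - psiB b t)) * S₁ ≤ 2 * δ * (CS' + 1) := by
      have h10 : |(pv a D s - psiB b s) + (pv a D t - psiB b t)| ≤ 2 * δ := by
        refine (abs_add_le _ _).trans ?_
        linarith
      calc _ ≤ |((pv a D s - psiB b s) + (pv a D t - psiB b t)) * S₁| := le_abs_self _
        _ = |(pv a D s - psiB b s) + (pv a D t - psiB b t)| * |S₁| := abs_mul _ _
        _ ≤ 2 * δ * (CS' + 1) := mul_le_mul h10 h9 (abs_nonneg _) (by positivity)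
    have t3 : (psiB b s + psiB b t) * (S₁ - S₂) ≤ η / 3 := by
      have h10 : |psiB b s + psiB b t| ≤ 2 * Cψ' := by
        refine (abs_add_le _ _).trans ?_
        linarith
      calc _ ≤ |(psiB b s + psiB b t) * (S₁ - S₂)| := le_abs_self _
        _ = |psiB b s + psiB b t| * |S₁ - S₂| := abs_mul _ _
        _ ≤ 2 * Cψ' * (η / (6 * Cψ')) :=
            mul_le_mul h10 (h8.trans hη₁2) (abs_nonneg _) (by positivity)
        _ = η / 3 := by
            field_simp
            ring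
    have t4 : δ + 2 * δ * (CS' + 1) ≤ η / 6 := by
      calc δ + 2 * δ * (CS' + 1) = δ * (1 + 2 * (CS' + 1)) := by ring
        _ ≤ η / 6 := hbd
    linarith
  · intro s hs
    have h2 := (hA s hs).1
    have h6 := hψb s hs
    have hδ1 : δ ≤ 1 := min_le_left _ _
    have hδ2 : δ ≤ η / (3 * (2 * Cψ' + 1)) :=
      (min_le_right _ _).trans (min_le_right _ _)
    have e : pv a D s ^ 2 - psiB b s ^ 2 = (pv a D s - psiB b s) * (pv a D s + psiB b s) := by ring
    rw [e, abs_mul]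
    have h10 : |pv a D s + psiB b s| ≤ 2 * Cψ' + 1 := by
      have : pv a D s + psiB b s = (pv a D s - psiB b s) + 2 * psiB b s := by ring
      rw [this]
      refine (abs_add_le _ _).trans ?_
      rw [abs_mul, abs_of_pos (by norm_num : (0 : ℝ) < 2)]
      linarith
    calc |pv a D s - psiB b s| * |pv a D s + psiB b s| ≤ δ * (2 * Cψ' + 1) :=
          mul_le_mul h2 h10 (abs_nonneg _) hδ0.le
      _ ≤ η / (3 * (2 * Cψ' + 1)) * (2 * Cψ' + 1) :=
          mul_le_mul_of_nonneg_right hδ2 (by positivity)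
      _ = η / 3 := by field_simp
      _ ≤ η := by linarith

end Vale.Agent.Lib.P371.Mix
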