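import Vale.Agent.Lib.P371.Mix.Core
import Vale.Agent.Lib.P371.Mix.Kernel

/-!
# The cost of the mixed calibrator and the estimate in coordinates with weights.

`Θ_b(f) = b² ((2/π) tan(π f/2) - f)` is the primitive of `ψ²`.  The cost `tr R(F₊)` is controlled by
`∑_k Θ_b(ν_k + ε)` when `F₊ - ε` is dominated by the diagonal form with weights `ν_k`, by the
Klein-type tangent argument.
-/

open Matrix MeasureTheory Filter Topology Set

namespace Vale.Agent.Lib.P371.Mix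

open Vale.Agent.Lib.P371.Sharp Vale.Agent.Lib.P371.SharpM

variable {d p : ℕ}

/-- The cost function: `Θ_b' = ψ²`. -/
noncomputable def thetaB (b f : ℝ) : ℝ :=
  b ^ 2 * (2 / Real.pi * Real.tan (Real.pi * f / 2) - f)

lemma hasDerivAt_thetaB (b : ℝ) {f : ℝ} (h0 : 0 < f) (h1 : f < 1) :
    HasDerivAt (thetaB b) (psiB b f ^ 2) f := by
  have hc := cos_angle_pos h0 h1
  have hpi := Real.pi_pos
  have h2 : HasDerivAt (fun x : ℝ => Real.pi * x / 2) (Real.pi / 2) f := by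
    have := (hasDerivAt_id' f).const_mul (Real.pi / 2)
    have e : (fun x : ℝ => Real.pi * x / 2) = fun x => Real.pi / 2 * x := by
      ext x
      ring
    rw [e]
    simpa using this
  have h3' := (Real.hasDerivAt_tan hc.ne').comp f h2
  have h3 : HasDerivAt (fun x : ℝ => Real.tan (Real.pi * x / 2))
      (1 / Real.cos (Real.pi * f / 2) ^ 2 * (Real.pi / 2)) f := h3'
  have h4 := ((h3.const_mul (2 / Real.pi)).sub (hasDerivAt_id' f)).const_mul (b ^ 2)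
  have e : psiB b f ^ 2 =
      b ^ 2 * (2 / Real.pi * (1 / Real.cos (Real.pi * f / 2) ^ 2 * (Real.pi / 2)) - 1) := by
    unfold psiB
    have hs := Real.sin_sq_add_cos_sq (Real.pi * f / 2)
    rw [Real.tan_eq_sin_div_cos]
    have hs2 : Real.sin (Real.pi * f / 2) ^ 2 = 1 - Real.cos (Real.pi * f / 2) ^ 2 := by linarith
    field_simp
    rw [hs2]
  rw [e]
  exact h4

lemma thetaB_nonneg (b : ℝ) {f : ℝ} (h0 : 0 < f) (h1 : f < 1) : 0 ≤ thetaB b f := by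
  unfold thetaB
  have hm := angle_mem h0 h1
  have h2 := Real.lt_tan hm.1 hm.2
  have hpi := Real.pi_pos
  have h3 : f < 2 / Real.pi * Real.tan (Real.pi * f / 2) := by
    have : 2 / Real.pi * (Real.pi * f / 2) = f := by
      field_simp
    calc f = 2 / Real.pi * (Real.pi * f / 2) := this.symm
      _ < _ := mul_lt_mul_of_pos_left h2 (by positivity)
  have h4 : 0 ≤ b ^ 2 := sq_nonneg b
  exact mul_nonneg h4 (by linarith)

lemma psiB_sq_mono (b : ℝ) {x y : ℝ} (hx0 : 0 < x) (hxy : x ≤ y) (hy1 : y < 1) :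
    psiB b x ^ 2 ≤ psiB b y ^ 2 := by
  unfold psiB
  have hy0 : 0 < y := by linarith
  have hx1 : x < 1 := by linarith
  have hmx := angle_mem hx0 hx1
  have hmy := angle_mem hy0 hy1
  have hpi := Real.pi_pos
  have hle : Real.pi * x / 2 ≤ Real.pi * y / 2 := by nlinarith
  have h1 : Real.tan (Real.pi * x / 2) ≤ Real.tan (Real.pi * y / 2) := by
    rcases hle.lt_or_eq with h | h
    · exact (Real.tan_lt_tan_of_lt_of_lt_pi_div_two (by linarith [hmx.1]) hmy.2 h).le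
    · rw [h]
  have h2 : 0 ≤ Real.tan (Real.pi * x / 2) := (Real.lt_tan hmx.1 hmx.2).le.trans' hmx.1.le
  have h3 : Real.tan (Real.pi * x / 2) ^ 2 ≤ Real.tan (Real.pi * y / 2) ^ 2 :=
    pow_le_pow_left₀ h2 h1 2
  have e : ∀ z, (-b * z) ^ 2 = b ^ 2 * z ^ 2 := fun z => by ring
  rw [e, e]
  exact mul_le_mul_of_nonneg_left h3 (sq_nonneg b)

/-- The tangent inequality of `Θ`. -/
lemma thetaB_tangent (b : ℝ) {x y : ℝ} (hx0 : 0 < x) (hx1 : x < 1) (hy0 : 0 < y) (hy1 : y < 1) :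
    thetaB b x + psiB b x ^ 2 * (y - x) ≤ thetaB b y := by
  rcases lt_trichotomy x y with h | h | h
  · obtain ⟨c, hc, hc2⟩ := exists_hasDerivAt_eq_slope (thetaB b) (fun z => psiB b z ^ 2) h
      (fun z hz => (hasDerivAt_thetaB b (by linarith [hz.1]) (by linarith [hz.2])).continuousAt.continuousWithinAt)
      (fun z hz => hasDerivAt_thetaB b (by linarith [hz.1]) (by linarith [hz.2]))
    have h1 := psiB_sq_mono b hx0 hc.1.le (by linarith [hc.2])
    have h2 : y - x > 0 := by linarith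
    rw [eq_div_iff h2.ne'] at hc2
    nlinarith
  · subst h
    simp
  · obtain ⟨c, hc, hc2⟩ := exists_hasDerivAt_eq_slope (thetaB b) (fun z => psiB b z ^ 2) h
      (fun z hz => (hasDerivAt_thetaB b (by linarith [hz.1]) (by linarith [hz.2])).continuousAt.continuousWithinAt)
      (fun z hz => hasDerivAt_thetaB b (by linarith [hz.1]) (by linarith [hz.2]))
    have h1 := psiB_sq_mono b (by linarith [hc.1] : 0 < c) hc.2.le hx1
    have h2 : x - y > 0 := by linarith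
    rw [eq_div_iff h2.ne'] at hc2
    nlinarith

/-- The derivative of `rv`: `R' = P²`. -/
lemma hasDerivAt_rv (a : ℕ → ℝ) (D : ℕ) (x : ℝ) : HasDerivAt (rv a D) (pv a D x ^ 2) x := by
  have hk : ∀ k l : ℕ, HasDerivAt (fun t : ℝ => a k * a l / ((k : ℝ) + l + 1) * t ^ (k + l + 1))
      (a k * x ^ k * (a l * x ^ l)) x := by
    intro k l
    have h := (hasDerivAt_pow (k + l + 1) x).const_mul (a k * a l / ((k : ℝ) + l + 1))
    have hne : ((k : ℝ) + l + 1) ≠ 0 := by positivity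
    have e : a k * x ^ k * (a l * x ^ l) = a k * a l / ((k : ℝ) + l + 1) *
        (((k + l + 1 : ℕ) : ℝ) * x ^ (k + l + 1 - 1)) := by
      rw [Nat.add_sub_cancel, pow_add]
      push_cast
      field_simp
    rw [e]
    exact h
  have h := HasDerivAt.fun_sum (u := Finset.range D) fun k _ =>
    HasDerivAt.fun_sum (u := Finset.range D) fun l _ => hk k l
  have e : pv a D x ^ 2 = ∑ k ∈ Finset.range D, ∑ l ∈ Finset.range D,
      a k * x ^ k * (a l * x ^ l) := by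
    rw [sq, pv, Finset.sum_mul_sum]
  rw [e]
  exact h

/-- Comparison of `R` with `Θ`. -/
lemma rv_le {ε η b : ℝ} (hε : 0 < ε) {a : ℕ → ℝ} {D : ℕ}
    (hη : ∀ s ∈ Icc ε (1 - ε), |pv a D s ^ 2 - psiB b s ^ 2| ≤ η) (hη0 : 0 ≤ η) {s : ℝ}
    (hs : s ∈ Icc ε (1 - ε)) :
    rv a D s - rv a D ε ≤ thetaB b s + η := by
  have hmem : ∀ z ∈ Icc ε (1 - ε), 0 < z ∧ z < 1 := fun z hz =>
    ⟨by linarith [hz.1], by linarith [hz.2]⟩
  have hd : ∀ z ∈ Icc ε (1 - ε), HasDerivAt (fun y => rv a D y - thetaB b y)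
      (pv a D z ^ 2 - psiB b z ^ 2) z := fun z hz =>
    (hasDerivAt_rv a D z).sub (hasDerivAt_thetaB b (hmem z hz).1 (hmem z hz).2)
  have hconv : Convex ℝ (Icc ε (1 - ε)) := convex_Icc _ _
  have hε' : ε ∈ Icc ε (1 - ε) := ⟨le_rfl, hs.1.trans hs.2⟩
  have h := hconv.norm_image_sub_le_of_norm_hasDerivWithin_le
    (fun z hz => (hd z hz).hasDerivWithinAt)
    (fun z hz => by
      rw [Real.norm_eq_abs]
      exact hη z hz) hε' hs
  rw [Real.norm_eq_abs, Real.norm_eq_abs] at h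
  have h1 := (le_abs_self _).trans h
  have h2 : |s - ε| ≤ 1 := by
    rw [abs_le]
    constructor <;> linarith [hs.1, hs.2, hmem s hs]
  have h3 : η * |s - ε| ≤ η := by nlinarith
  have h4 := thetaB_nonneg b (hmem ε hε').1 (hmem ε hε').2
  linarith

/-- The combinatorial part of the Klein-type argument. -/
lemma klein_bound {κ : Type*} [Fintype κ] {f : Fin d → ℝ} {c : κ → ℝ} (w : Fin d → κ → ℝ)
    (hw0 : ∀ i k, 0 ≤ w i k) (hw1 : ∀ i, ∑ k, w i k = 1) (hw2 : ∀ k, ∑ i, w i k = 1)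
    (hfa : ∀ i, f i ≤ ∑ k, w i k * c k) (Θ Θ' : ℝ → ℝ) (hΘ' : ∀ i, 0 ≤ Θ' (f i))
    (htan : ∀ i k, Θ (f i) + Θ' (f i) * (c k - f i) ≤ Θ (c k)) :
    ∑ i, Θ (f i) ≤ ∑ k, Θ (c k) := by
  have e1 : ∑ k, Θ (c k) = ∑ i, ∑ k, w i k * Θ (c k) := by
    rw [Finset.sum_comm]
    refine Finset.sum_congr rfl fun k _ => ?_
    rw [← Finset.sum_mul, hw2, one_mul]
  rw [e1]
  refine Finset.sum_le_sum fun i _ => ?_
  have h1 : ∑ k, w i k * (Θ (f i) + Θ' (f i) * (c k - f i)) ≤ ∑ k, w i k * Θ (c k) :=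
    Finset.sum_le_sum fun k _ => mul_le_mul_of_nonneg_left (htan i k) (hw0 i k)
  have h2 : ∑ k, w i k * (Θ (f i) + Θ' (f i) * (c k - f i)) =
      Θ (f i) + Θ' (f i) * (∑ k, w i k * c k - f i) := by
    have : ∀ k, w i k * (Θ (f i) + Θ' (f i) * (c k - f i)) =
        w i k * (Θ (f i) - Θ' (f i) * f i) + Θ' (f i) * (w i k * c k) := fun k => by ring
    simp only [this]
    rw [Finset.sum_add_distrib, ← Finset.sum_mul, hw1, ← Finset.mul_sum]
    ring
  have h3 : 0 ≤ Θ' (f i) * (∑ k, w i k * c k - f i) :=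
    mul_nonneg (hΘ' i) (by linarith [hfa i])
  linarith

section plus

variable {ε : ℝ} {ξ : ℝ → Fin p → Vec d}

lemma plusM_qform (hξc : Continuous ξ) (hL2 : ∀ r i, Integrable fun x => ξ x r i ^ 2) (v : Vec d) :
    v ⬝ᵥ (plusM ε ξ *ᵥ v) = ε * (v ⬝ᵥ v) + ∑ r, ∫ y, (v ⬝ᵥ ξ y r) ^ 2 := by
  have hI : ∀ i j, Integrable (fun y => rowX (ξ y) i j) := fun i j =>
    rowX_entry_integrable hξc hL2 i j
  have h1 : (∑ r, ∫ y, (v ⬝ᵥ ξ y r) ^ 2)
      = ∑ i, ∑ j, v i * v j * ∫ y, rowX (ξ y) i j := by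
    rw [← integral_finsetSum _ fun r _ => integrable_dot_sqM hξc hL2 v r]
    have e : ∀ y, ∑ r, (v ⬝ᵥ ξ y r) ^ 2 = ∑ i, ∑ j, v i * v j * rowX (ξ y) i j := by
      intro y
      rw [← dot_rowX]
      simp only [dotProduct, mulVec, Finset.mul_sum]
      refine Finset.sum_congr rfl fun i _ => Finset.sum_congr rfl fun j _ => by ring
    simp only [e]
    rw [integral_finsetSum _ fun i _ => integrable_finsetSum _ fun j _ => (hI i j).const_mul _]
    refine Finset.sum_congr rfl fun i _ => ?_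
    rw [integral_finsetSum _ fun j _ => (hI i j).const_mul _]
    refine Finset.sum_congr rfl fun j _ => ?_
    rw [integral_const_mul]
  rw [h1]
  simp only [dotProduct, mulVec, plusM, Matrix.of_apply, Finset.mul_sum]
  rw [← Finset.sum_add_distrib]
  refine Finset.sum_congr rfl fun i _ => ?_
  have : ε * (v i * v i) = ∑ j, v i * (if i = j then ε else 0) * v j := by
    simp [Finset.sum_ite_eq]
    ring
  rw [this, ← Finset.sum_add_distrib]
  refine Finset.sum_congr rfl fun j _ => ?_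
  ring

lemma plusM_symm : (plusM ε ξ).IsSymm := by
  refine Matrix.IsSymm.ext fun i j => ?_
  simp only [plusM, Matrix.of_apply]
  congr 1
  · simp only [eq_comm]
  · congr 1
    ext y
    exact (rowX_symm (ξ y)).apply i j

end plus

/-- The value of `tr R` at the starting point. -/
lemma trR_minus (a : ℕ → ℝ) (D : ℕ) (ε : ℝ) :
    trR a D (minusM ε : Mat d) = ∑ _i : Fin d, rv a D ε := by
  have h3 : (minusM ε : Mat d) = (1 : Mat d) * Matrix.diagonal (fun _ => ε) * (1 : Mat d)ᵀ := by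
    rw [Matrix.transpose_one, Matrix.mul_one, Matrix.one_mul]
    ext i j
    simp [minusM, Matrix.one_apply, Matrix.diagonal_apply]
  exact trR_eq (by rw [Matrix.transpose_one, Matrix.mul_one])
    (by rw [Matrix.transpose_one, Matrix.mul_one]) h3 a D

/-- The cost bound. -/
theorem cost_bound {ε η b : ℝ} (hε : 0 < ε) (hη0 : 0 ≤ η) {ξ : ℝ → Fin p → Vec d}
    (hξc : Continuous ξ) (hL2 : ∀ r i, Integrable fun x => ξ x r i ^ 2) {a : ℕ → ℝ} {D : ℕ}
    (hη : ∀ s ∈ Icc ε (1 - ε), |pv a D s ^ 2 - psiB b s ^ 2| ≤ η)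
    {κ : Type*} [Fintype κ] (β : κ → Vec d) (ν : κ → ℝ) (hβ1 : ∀ k, β k ⬝ᵥ β k = 1)
    (hβ2 : ∀ v : Vec d, ∑ k, (v ⬝ᵥ β k) ^ 2 = v ⬝ᵥ v) (hν0 : ∀ k, 0 ≤ ν k)
    (hν1 : ∀ k, ν k ≤ 1 - 2 * ε)
    (hbes : ∀ v : Vec d, ∑ r, ∫ x, (v ⬝ᵥ ξ x r) ^ 2 ≤ ∑ k, ν k * (v ⬝ᵥ β k) ^ 2) :
    trR a D (plusM ε ξ) - trR a D (minusM ε : Mat d) ≤ ∑ k, thetaB b (ν k + ε) + d * η := by
  have hqf := fun v : Vec d => plusM_qform (ε := ε) hξc hL2 v
  have hdom : ∀ v : Vec d, ∑ k, ν k * (v ⬝ᵥ β k) ^ 2 ≤ (1 - 2 * ε) * (v ⬝ᵥ v) := by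
    intro v
    rw [← hβ2 v, Finset.mul_sum]
    exact Finset.sum_le_sum fun k _ => mul_le_mul_of_nonneg_right (hν1 k) (sq_nonneg _)
  have hQ : QBound ε (plusM ε ξ) := by
    refine ⟨plusM_symm, fun v => ?_⟩
    rw [hqf]
    have h0 : 0 ≤ ∑ r, ∫ y, (v ⬝ᵥ ξ y r) ^ 2 :=
      Finset.sum_nonneg fun r _ => integral_nonneg fun y => sq_nonneg _
    have h1 := hbes v
    have h2 := hdom v
    constructor <;> linarith
  obtain ⟨Q, f, h1, h2, h3, hf⟩ := eigen_data hQ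
  rw [trR_eq h1 h2 h3, trR_minus, ← Finset.sum_sub_distrib]
  -- the eigenvalue bounds
  have hrv : ∀ i, rv a D (f i) - rv a D ε ≤ thetaB b (f i) + η := fun i =>
    rv_le hε hη hη0 ⟨(hf i).1, (hf i).2⟩
  have hsum : ∑ i, (rv a D (f i) - rv a D ε) ≤ ∑ i, thetaB b (f i) + d * η := by
    calc _ ≤ ∑ i, (thetaB b (f i) + η) := Finset.sum_le_sum fun i _ => hrv i
      _ = _ := by
        rw [Finset.sum_add_distrib]
        simp
  -- Klein
  set q : Fin d → Vec d := fun i l => Q l i with hq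
  set w : Fin d → κ → ℝ := fun i k => (q i ⬝ᵥ β k) ^ 2 with hw
  have hqq : ∀ i, q i ⬝ᵥ q i = 1 := by
    intro i
    have := congrFun (congrFun h1 i) i
    simpa [Matrix.mul_apply, dotProduct, hq] using this
  have hqt : ∀ (v : Vec d) (i : Fin d), q i ⬝ᵥ v = (Qᵀ *ᵥ v) i := by
    intro v i
    simp [dotProduct, mulVec, hq]
  have hw1 : ∀ i, ∑ k, w i k = 1 := fun i => by
    rw [hβ2]
    exact hqq i
  have hw2 : ∀ k, ∑ i, w i k = 1 := fun k => by
    have := dot_transpose h2 (β k) (β k)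
    rw [hβ1] at this
    rw [← this]
    calc ∑ i, w i k = ∑ i, (Qᵀ *ᵥ β k) i ^ 2 := Finset.sum_congr rfl fun i _ => by
          simp only [hw]
          rw [hqt]
      _ = _ := by simp only [dotProduct, sq]
  have hFq : ∀ i, q i ⬝ᵥ (plusM ε ξ *ᵥ q i) = f i := by
    intro i
    have e : Qᵀ *ᵥ (plusM ε ξ *ᵥ q i) = fun l => (Qᵀ * plusM ε ξ * Q) l i := by
      ext l
      simp only [mulVec, dotProduct, Matrix.mul_apply, hq]
      simp only [Finset.mul_sum, Finset.sum_mul]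
      rw [Finset.sum_comm]
      refine Finset.sum_congr rfl fun x _ => Finset.sum_congr rfl fun y _ => by ring
    rw [hqt, e, conj_F h1 h3]
    simp
  have hfa : ∀ i, f i ≤ ∑ k, w i k * (ν k + ε) := by
    intro i
    have h4 := hqf (q i)
    rw [hFq, hqq, mul_one] at h4
    have h5 := hbes (q i)
    have e : ∑ k, w i k * (ν k + ε) = ∑ k, ν k * (q i ⬝ᵥ β k) ^ 2 + ε := by
      have : ∀ k, w i k * (ν k + ε) = ν k * (q i ⬝ᵥ β k) ^ 2 + ε * w i k := fun k => by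
        simp only [hw]
        ring
      simp only [this]
      rw [Finset.sum_add_distrib, ← Finset.mul_sum, hw1, mul_one]
    rw [e]
    linarith
  have hmem : ∀ i, 0 < f i ∧ f i < 1 := fun i =>
    ⟨by linarith [(hf i).1], by linarith [(hf i).2]⟩
  have hK := klein_bound w (fun i k => sq_nonneg _) hw1 hw2 hfa (thetaB b)
    (fun z => psiB b z ^ 2) (fun i => sq_nonneg _)
    (fun i k => thetaB_tangent b (hmem i).1 (hmem i).2 (by linarith [hν0 k])
      (by linarith [hν1 k]))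
  linarith

/-- The estimate in coordinates, at fixed `ε`. -/
theorem mix_coord {ε b : ℝ} (hε : 0 < ε) (hε2 : ε < 1 / 2) (hb : 0 ≤ b) {ξ ξ' : ℝ → Fin p → Vec d}
    (hξ : ∀ x r i, HasDerivAt (fun y => ξ y r i) (ξ' x r i) x) (hξ'c : Continuous ξ')
    (hL2 : ∀ r i, Integrable fun x => ξ x r i ^ 2) (hL2' : ∀ r i, Integrable fun x => ξ' x r i ^ 2)
    {κ : Type*} [Fintype κ] (β : κ → Vec d) (ν : κ → ℝ) (hβ1 : ∀ k, β k ⬝ᵥ β k = 1)
    (hβ2 : ∀ v : Vec d, ∑ k, (v ⬝ᵥ β k) ^ 2 = v ⬝ᵥ v) (hν0 : ∀ k, 0 ≤ ν k)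
    (hν1 : ∀ k, ν k ≤ 1 - 2 * ε)
    (hbes : ∀ v : Vec d, ∑ r, ∫ x, (v ⬝ᵥ ξ x r) ^ 2 ≤ ∑ k, ν k * (v ⬝ᵥ β k) ^ 2) :
    Integrable (fun x => (rowX (ξ x) * rowX (ξ x) * rowX (ξ x)).trace) ∧
    Integrable (fun x => hs (rowX (ξ x)) (rowX (ξ x))) ∧
    Real.pi ^ 2 / 4 * (∫ x, (rowX (ξ x) * rowX (ξ x) * rowX (ξ x)).trace) +
        b * Real.pi * ∫ x, hs (rowX (ξ x)) (rowX (ξ x))
      ≤ (∑ r, ∫ x, ξ' x r ⬝ᵥ ξ' x r) + ∑ k, thetaB b (ν k + ε) := by
  have hξc : Continuous ξ := xi_continuousM hξ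
  have hdom : ∀ v : Vec d, ∑ k, ν k * (v ⬝ᵥ β k) ^ 2 ≤ (1 - 2 * ε) * (v ⬝ᵥ v) := by
    intro v
    rw [← hβ2 v, Finset.mul_sum]
    exact Finset.sum_le_sum fun k _ => mul_le_mul_of_nonneg_right (hν1 k) (sq_nonneg _)
  have hbes1 : ∀ v : Vec d, ∑ r, ∫ x, (v ⬝ᵥ ξ x r) ^ 2 ≤ (1 - 2 * ε) * (v ⬝ᵥ v) := fun v =>
    (hbes v).trans (hdom v)
  have hkey : ∀ η : ℝ, 0 < η → Integrable (fun x => rhoM (ξ x) ^ 3) ∧
      Integrable (fun x => (rowX (ξ x) * rowX (ξ x) * rowX (ξ x)).trace) ∧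
      Integrable (fun x => hs (rowX (ξ x)) (rowX (ξ x))) ∧
      Real.pi ^ 2 / 4 * (∫ x, (rowX (ξ x) * rowX (ξ x) * rowX (ξ x)).trace) +
        (b * Real.pi - η) * ∫ x, hs (rowX (ξ x)) (rowX (ξ x))
      ≤ (∑ r, ∫ x, ξ' x r ⬝ᵥ ξ' x r) + η * d ^ 3 * (∫ x, rhoM (ξ x) ^ 3) +
        (∑ k, thetaB b (ν k + ε) + d * η) := by
    intro η hη
    obtain ⟨M₀, hM₀⟩ := kernel_limit hε hη
    obtain ⟨M, a, D, hM, hq, hsq⟩ := hq_exists hε hε2 hb hη M₀
    obtain ⟨h1, h2, h3, h4⟩ := core_mix hε hη.le hξ hξ'c hL2 hL2' hbes1 M (hM₀ M hM) a D hq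
    refine ⟨h1, h2, h3, ?_⟩
    have hc := cost_bound hε hη.le hξc hL2 hsq β ν hβ1 hβ2 hν0 hν1 hbes
    linarith
  obtain ⟨h1, h2, h3, -⟩ := hkey 1 one_pos
  refine ⟨h2, h3, ?_⟩
  set A := ∫ x, (rowX (ξ x) * rowX (ξ x) * rowX (ξ x)).trace with hA
  set H := ∫ x, hs (rowX (ξ x)) (rowX (ξ x)) with hH
  set R := ∫ x, rhoM (ξ x) ^ 3 with hR
  have hH0 : 0 ≤ H := integral_nonneg fun x => hs_self_nonneg _
  have hR0 : 0 ≤ R := integral_nonneg fun x => pow_nonneg (rhoM_nonneg _) 3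
  refine le_of_forall_pos_le_add fun η hη => ?_
  set C : ℝ := H + (d : ℝ) ^ 3 * R + d + 1 with hC
  have hC0 : 0 < C := by positivity
  have h := (hkey (η / C) (by positivity)).2.2.2
  have e : η / C * C = η := by field_simp
  have e2 : η / C * (H + (d : ℝ) ^ 3 * R + d) ≤ η := by
    calc η / C * (H + (d : ℝ) ^ 3 * R + d) ≤ η / C * C := by
          apply mul_le_mul_of_nonneg_left _ (by positivity)
          rw [hC]
          linarith
      _ = η := e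
  nlinarith

end Vale.Agent.Lib.P371.Mix
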