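import Vale.Agent.Lib.P371.Mix.Gen

/-!
# The weighted estimate for a family with diagonal Gram matrix, and the dual form.

For an orthonormal family `ψ_j` in `H¹(ℝ; ℂ^m)`, weights `0 ≤ n_j < 1` and `b ≥ 0`:
`∑_j (n_j e_j - Θ_b(n_j)) ≤ ∫ (∑_j n_j ⟨ψ_j, W ψ_j⟩ - (1/2) Q_b) ≤ ∫ ∑_a h_b(λ_a(x))`.
-/

open MeasureTheory Set Filter Topology Matrix
open scoped ENNReal ComplexOrder

namespace Vale.Agent.Lib.P371.Mix

open Vale.Agent.Lib.P371.Sharp Vale.Agent.Lib.P371.SharpM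
open Vale.Agent.Lib.P371.S (integrable_norm_sq')

/-- The Legendre transform `h_b(w) = sup_S (w S - b π S² - (π²/4) S³)`. -/
noncomputable def hB (b w : ℝ) : ℝ :=
  2 / (27 * Real.pi) * (Real.sqrt (4 * b ^ 2 + 3 * w) - 2 * b) ^ 2 *
    (2 * Real.sqrt (4 * b ^ 2 + 3 * w) + 2 * b)

lemma hB_nonneg {b w : ℝ} (hb : 0 ≤ b) (hw : 0 ≤ w) : 0 ≤ hB b w := by
  unfold hB
  have h := Real.sqrt_nonneg (4 * b ^ 2 + 3 * w)
  have hpi := Real.pi_pos
  positivity

/-- The Young inequality of the mixed calibrator. -/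
lemma young_mix {b w S : ℝ} (hb : 0 ≤ b) (hw : 0 ≤ w) (hS : 0 ≤ S) :
    w * S ≤ Real.pi ^ 2 / 4 * S ^ 3 + b * Real.pi * S ^ 2 + hB b w := by
  have hpi := Real.pi_pos
  set s := Real.sqrt (4 * b ^ 2 + 3 * w) with hs
  have hs2 : s ^ 2 = 4 * b ^ 2 + 3 * w := Real.sq_sqrt (by positivity)
  have hs0 : 0 ≤ s := Real.sqrt_nonneg _
  have hsb : 2 * b ≤ s := by
    rw [hs]
    apply Real.le_sqrt_of_sq_le
    nlinarith
  set S₀ := 2 / (3 * Real.pi) * (s - 2 * b) with hS₀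
  have hS₀0 : 0 ≤ S₀ := mul_nonneg (by positivity) (by linarith)
  have e1 : w = 2 * (b * Real.pi) * S₀ + 3 * (Real.pi ^ 2 / 4) * S₀ ^ 2 := by
    have : 2 * (b * Real.pi) * S₀ + 3 * (Real.pi ^ 2 / 4) * S₀ ^ 2 =
        (s ^ 2 - 4 * b ^ 2) / 3 := by
      rw [hS₀]
      field_simp
      ring
    rw [this, hs2]
    ring
  have e2 : hB b w = b * Real.pi * S₀ ^ 2 + 2 * (Real.pi ^ 2 / 4) * S₀ ^ 3 := by
    unfold hB
    rw [← hs, hS₀]
    field_simp
    ring
  have key : 0 ≤ b * Real.pi * (S - S₀) ^ 2 + Real.pi ^ 2 / 4 * ((S - S₀) ^ 2 * (S + 2 * S₀)) := by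
    positivity
  rw [e2]
  nlinarith [e1]

section rows

variable {m N : ℕ}

/-- The pointwise inequality of the mixed calibrator, with a general Young function. -/
theorem pointwise_gen {b : ℝ} (hb : 0 ≤ b) (H : ℝ → ℝ)
    (hH : ∀ w S : ℝ, 0 ≤ w → 0 ≤ S → w * S ≤ Real.pi ^ 2 / 4 * S ^ 3 + b * Real.pi * S ^ 2 + H w)
    (W : Matrix (Fin m) (Fin m) ℂ) (hW : W.PosSemidef)
    (f₀ : OrthonormalBasis (Fin m) ℂ (EuclideanSpace ℂ (Fin m)))
    (z : Fin N → EuclideanSpace ℂ (Fin m)) :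
    ∑ j, (star (z j).ofLp ⬝ᵥ (W *ᵥ (z j).ofLp)).re ≤
      1 / 2 * QQ b (rows f₀ z) + ∑ a, H (hW.isHermitian.eigenvalues a) := by
  set f := hW.isHermitian.eigenvectorBasis with hf
  set S : Fin m → ℝ := fun a => ∑ j, ‖inner ℂ (f a) (z j)‖ ^ 2 with hS
  have hS0 : ∀ a, 0 ≤ S a := fun a => Finset.sum_nonneg fun j _ => by positivity
  have h1 : ∑ j, (star (z j).ofLp ⬝ᵥ (W *ᵥ (z j).ofLp)).re =
      ∑ a, hW.isHermitian.eigenvalues a * S a := by
    simp only [Vale.Agent.Lib.P371.re_quadratic_eq hW.isHermitian]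
    rw [Finset.sum_comm]
    simp only [hS, Finset.mul_sum]
    rfl
  have h2 : ∀ a, hW.isHermitian.eigenvalues a * S a ≤ Real.pi ^ 2 / 4 * S a ^ 3 +
      b * Real.pi * S a ^ 2 + H (hW.isHermitian.eigenvalues a) :=
    fun a => hH _ _ (hW.eigenvalues_nonneg a) (hS0 a)
  have e6 : ∀ a (σ : Fin 2), ‖rows f z (a, σ)‖ ^ 6 = S a ^ 3 := by
    intro a σ
    have := norm_rows_sq f z (a, σ)
    calc ‖rows f z (a, σ)‖ ^ 6 = (‖rows f z (a, σ)‖ ^ 2) ^ 3 := by ring
      _ = S a ^ 3 := by rw [this]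
  have e4 : ∀ a (σ : Fin 2), ‖rows f z (a, σ)‖ ^ 4 = S a ^ 2 := by
    intro a σ
    have := norm_rows_sq f z (a, σ)
    calc ‖rows f z (a, σ)‖ ^ 4 = (‖rows f z (a, σ)‖ ^ 2) ^ 2 := by ring
      _ = S a ^ 2 := by rw [this]
  have h3 : 2 * ∑ a, S a ^ 3 ≤ cubeTr (rows f z) := by
    have h := sum_norm_six_le (rows f z)
    rw [Fintype.sum_prod_type] at h
    simp only [e6, Finset.sum_const, Finset.card_univ, Fintype.card_fin, nsmul_eq_mul] at h
    rw [← Finset.mul_sum] at h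
    exact_mod_cast h
  have h3' : 2 * ∑ a, S a ^ 2 ≤ sqTr (rows f z) := by
    have h := sum_norm_four_le (rows f z)
    rw [Fintype.sum_prod_type] at h
    simp only [e4, Finset.sum_const, Finset.card_univ, Fintype.card_fin, nsmul_eq_mul] at h
    rw [← Finset.mul_sum] at h
    exact_mod_cast h
  have h4 : cubeTr (rows f z) = cubeTr (rows f₀ z) :=
    cubeTr_congr fun u v => by rw [bform_rows, bform_rows]
  have h4' : sqTr (rows f z) = sqTr (rows f₀ z) :=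
    sqTr_congr fun u v => by rw [bform_rows, bform_rows]
  rw [h1]
  have hpi := Real.pi_pos
  calc ∑ a, hW.isHermitian.eigenvalues a * S a
      ≤ ∑ a, (Real.pi ^ 2 / 4 * S a ^ 3 + b * Real.pi * S a ^ 2 +
          H (hW.isHermitian.eigenvalues a)) :=
        Finset.sum_le_sum fun a _ => h2 a
    _ = 1 / 2 * (Real.pi ^ 2 / 4 * (2 * ∑ a, S a ^ 3) + b * Real.pi * (2 * ∑ a, S a ^ 2)) +
          ∑ a, H (hW.isHermitian.eigenvalues a) := by
        rw [Finset.sum_add_distrib, Finset.sum_add_distrib, ← Finset.mul_sum, ← Finset.mul_sum]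
        ring
    _ ≤ _ := by
        unfold QQ
        rw [← h4, ← h4']
        gcongr

/-- The integral of `‖∑_j conj(e_j) φ_j‖²` for a family with diagonal Gram matrix. -/
lemma integral_zz_weighted {φ : Fin N → ℝ → EuclideanSpace ℂ (Fin m)}
    (hφ : ∀ j, MemLp (φ j) 2 volume) (n : Fin N → ℝ)
    (orth : ∀ i j, ∫ x, inner ℂ (φ i x) (φ j x) = if i = j then (n j : ℂ) else 0)
    (e : EuclideanSpace ℂ (Fin N)) :
    ∫ x, ‖zz (fun j => φ j x) e‖ ^ 2 = ∑ j, n j * ‖e.ofLp j‖ ^ 2 := by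
  have hint : ∀ i j, Integrable fun x => inner ℂ (φ i x) (φ j x) := by
    intro i j
    refine ((hφ i).norm.integrable_mul (hφ j).norm).mono'
      ((hφ i).1.inner (hφ j).1) (Eventually.of_forall fun x => ?_)
    exact norm_inner_le_norm _ _
  have hexp : ∀ x, ((‖zz (fun j => φ j x) e‖ ^ 2 : ℝ) : ℂ) =
      ∑ i, ∑ j, (e.ofLp i * (starRingEnd ℂ) (e.ofLp j)) * inner ℂ (φ i x) (φ j x) := by
    intro x
    have hself : ∀ w : EuclideanSpace ℂ (Fin m), ((‖w‖ ^ 2 : ℝ) : ℂ) = inner ℂ w w := by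
      intro w
      rw [inner_self_eq_norm_sq_to_K]
      simp
    rw [hself]
    simp only [zz, inner_sum, sum_inner, inner_smul_left, inner_smul_right, Complex.conj_conj]
    rw [Finset.sum_comm]
    refine Finset.sum_congr rfl fun i _ => ?_
    rw [Finset.mul_sum]
    refine Finset.sum_congr rfl fun j _ => ?_
    ring
  have hc : (∫ x, ((‖zz (fun j => φ j x) e‖ ^ 2 : ℝ) : ℂ)) = ((∑ j, n j * ‖e.ofLp j‖ ^ 2 : ℝ) : ℂ) := by
    simp only [hexp]
    rw [integral_finsetSum _ fun i _ => integrable_finsetSum _ fun j _ => (hint i j).const_mul _]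
    simp only [integral_finsetSum _ fun j _ => (hint _ j).const_mul _, integral_const_mul, orth]
    have : ∀ i, ∑ j, (e.ofLp i * (starRingEnd ℂ) (e.ofLp j)) * (if i = j then (n j : ℂ) else 0)
        = ((n i * ‖e.ofLp i‖ ^ 2 : ℝ) : ℂ) := by
      intro i
      simp only [mul_ite, mul_zero, Finset.sum_ite_eq, Finset.mem_univ, if_true]
      push_cast
      rw [Complex.mul_conj']
      ring
    simp only [this]
    rw [← Complex.ofReal_sum]
  have := integral_ofReal (μ := volume) (𝕜 := ℂ) (f := fun x => ‖zz (fun j => φ j x) e‖ ^ 2)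
  have h2 : ((∫ x, ‖zz (fun j => φ j x) e‖ ^ 2 : ℝ) : ℂ) = ((∑ j, n j * ‖e.ofLp j‖ ^ 2 : ℝ) : ℂ) := by
    rw [← hc]
    exact this.symm
  exact_mod_cast h2

/-- The coordinate directions of `ℂ^N` over `ℝ`. -/
noncomputable def dirB (k : Fin N × Fin 2) : EuclideanSpace ℂ (Fin N) :=
  chi k.2 • EuclideanSpace.single k.1 (1 : ℂ)

lemma norm_dirB (k : Fin N × Fin 2) : ‖dirB k‖ ^ 2 = 1 := by
  rw [dirB, norm_smul, norm_chi, one_mul, PiLp.norm_single]
  simp

lemma inner_dirB (e : EuclideanSpace ℂ (Fin N)) (k : Fin N × Fin 2) :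
    (inner ℝ e (dirB k) : ℝ) = ((starRingEnd ℂ) (e.ofLp k.1) * chi k.2).re := by
  rw [PiLp.inner_apply]
  rw [Finset.sum_eq_single k.1]
  · rw [Complex.inner]
    simp [dirB]
    ring
  · intro j _ hj
    simp [dirB, hj]
  · simp

lemma sum_inner_dirB (e : EuclideanSpace ℂ (Fin N)) (j : Fin N) :
    ∑ σ : Fin 2, (inner ℝ e (dirB (j, σ)) : ℝ) ^ 2 = ‖e.ofLp j‖ ^ 2 := by
  simp only [inner_dirB]
  rw [Fin.sum_univ_two, Complex.sq_norm, Complex.normSq_apply]
  simp [chi]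
  ring

lemma sum_dirB (e : EuclideanSpace ℂ (Fin N)) :
    ∑ k, (inner ℝ e (dirB k) : ℝ) ^ 2 = ‖e‖ ^ 2 := by
  rw [Fintype.sum_prod_type, EuclideanSpace.norm_sq_eq]
  exact Finset.sum_congr rfl fun j _ => sum_inner_dirB e j

/-- The weighted core: a family with diagonal Gram matrix. -/
theorem weighted_core {b : ℝ} (hb : 0 ≤ b) (φ φ' : Fin N → ℝ → EuclideanSpace ℂ (Fin m))
    (hφ : ∀ j, MemLp (φ j) 2 volume) (hφ' : ∀ j, MemLp (φ' j) 2 volume)
    (hftc : ∀ j, ∀ a b : ℝ, ∫ t in a..b, φ' j t = φ j b - φ j a)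
    (n : Fin N → ℝ) (hn0 : ∀ j, 0 ≤ n j) (hn1 : ∀ j, n j < 1)
    (orth : ∀ i j, ∫ x, inner ℂ (φ i x) (φ j x) = if i = j then (n j : ℂ) else 0) :
    (∀ j, Continuous (φ j)) ∧
    Integrable (fun x => QQ b (rows (EuclideanSpace.basisFun (Fin m) ℂ) fun j => φ j x)) ∧
    ∫ x, QQ b (rows (EuclideanSpace.basisFun (Fin m) ℂ) fun j => φ j x) ≤
      2 * (∑ j, ∫ x, ‖φ' j x‖ ^ 2) + 2 * ∑ j, thetaB b (n j) := by
  set f₀ := EuclideanSpace.basisFun (Fin m) ℂ with hf₀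
  set Φ : Fin m × Fin 2 → ℝ → EuclideanSpace ℂ (Fin N) :=
    fun r x => rows f₀ (fun j => φ j x) r with hΦdef
  set Φ' : Fin m × Fin 2 → ℝ → EuclideanSpace ℂ (Fin N) :=
    fun r x => rows f₀ (fun j => φ' j x) r with hΦ'def
  have hii : ∀ j a b, IntervalIntegrable (φ' j) volume a b := fun j a b => ii_of_memLpE (hφ' j) a b
  have hcont : ∀ j, Continuous (φ j) := by
    intro j
    have e : φ j = fun x => φ j 0 + ∫ t in (0 : ℝ)..x, φ' j t := by
      ext x
      rw [hftc]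
      simp
    rw [e]
    exact continuous_const.add (intervalIntegral.continuous_primitive (hii j) 0)
  have hΦc : ∀ r, Continuous (Φ r) := by
    intro r
    simp only [hΦdef, rows_eq_sum]
    exact continuous_finsetSum _ fun j _ => (rowL f₀ r j).continuous.comp (hcont j)
  have hftcΦ : ∀ r, ∀ a b : ℝ, IntervalIntegrable (Φ' r) volume a b ∧
      ∫ t in a..b, Φ' r t = Φ r b - Φ r a := by
    intro r a b
    have hpiece : ∀ j, IntervalIntegrable (fun x => rowL f₀ r j (φ' j x)) volume a b := fun j =>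
      ⟨(rowL f₀ r j).integrable_comp (hii j a b).1, (rowL f₀ r j).integrable_comp (hii j a b).2⟩
    have e1 : Φ' r = ∑ j, fun x => rowL f₀ r j (φ' j x) := by
      ext1 x
      simp only [hΦ'def, rows_eq_sum, Finset.sum_apply]
    constructor
    · rw [e1]
      exact IntervalIntegrable.sum _ fun j _ => hpiece j
    · simp only [hΦ'def, hΦdef, rows_eq_sum]
      rw [intervalIntegral.integral_finsetSum fun j _ => hpiece j, ← Finset.sum_sub_distrib]
      refine Finset.sum_congr rfl fun j _ => ?_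
      rw [ContinuousLinearMap.intervalIntegral_comp_comm _ (hii j a b), hftc, map_sub]
  have hnorm : ∀ r x, ‖Φ r x‖ ^ 2 = ∑ j, ‖inner ℂ (f₀ r.1) (φ j x)‖ ^ 2 := fun r x =>
    norm_rows_sq _ _ _
  have hnorm' : ∀ r x, ‖Φ' r x‖ ^ 2 = ∑ j, ‖inner ℂ (f₀ r.1) (φ' j x)‖ ^ 2 := fun r x =>
    norm_rows_sq _ _ _
  have hcomp : ∀ a j, Integrable fun x => ‖inner ℂ (f₀ a) (φ j x)‖ ^ 2 := fun a j =>
    integrable_norm_sq' ((hφ j).const_inner _)
  have hcomp' : ∀ a j, Integrable fun x => ‖inner ℂ (f₀ a) (φ' j x)‖ ^ 2 := fun a j =>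
    integrable_norm_sq' ((hφ' j).const_inner _)
  have hL2 : ∀ r, Integrable fun x => ‖Φ r x‖ ^ 2 := by
    intro r
    simp only [hnorm]
    exact integrable_finsetSum _ fun j _ => hcomp _ j
  have hL2' : ∀ r, Integrable fun x => ‖Φ' r x‖ ^ 2 := by
    intro r
    simp only [hnorm']
    exact integrable_finsetSum _ fun j _ => hcomp' _ j
  have hbes : ∀ e : EuclideanSpace ℂ (Fin N), ∑ r, ∫ x, (inner ℝ e (Φ r x)) ^ 2 ≤
      ∑ k : Fin N × Fin 2, n k.1 * (inner ℝ e (dirB k)) ^ 2 := by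
    intro e
    have hi : ∀ r, Integrable fun x => (inner ℝ e (Φ r x) : ℝ) ^ 2 := by
      intro r
      refine ((hL2 r).const_mul (‖e‖ ^ 2)).mono'
        (((continuous_const.inner (hΦc r)).pow 2).aestronglyMeasurable)
        (Eventually.of_forall fun x => ?_)
      rw [Real.norm_of_nonneg (sq_nonneg _), ← mul_pow, ← sq_abs]
      exact pow_le_pow_left₀ (abs_nonneg _) (abs_real_inner_le_norm e (Φ r x)) 2
    rw [← integral_finsetSum _ fun r _ => hi r]
    simp only [hΦdef, sum_row_sq]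
    rw [integral_zz_weighted hφ n orth e, Fintype.sum_prod_type]
    refine (Finset.sum_congr rfl fun j _ => ?_).le
    have e2 : ∑ y : Fin 2, n (j, y).1 * (inner ℝ e (dirB (j, y)) : ℝ) ^ 2 =
        n j * ∑ y : Fin 2, (inner ℝ e (dirB (j, y)) : ℝ) ^ 2 := by
      rw [Finset.mul_sum]
    rw [e2, sum_inner_dirB]
  have hcore := mix_H1 hb hΦc hftcΦ hL2 hL2' dirB (fun k : Fin N × Fin 2 => n k.1) norm_dirB
    sum_dirB (fun k => hn0 k.1) (fun k => hn1 k.1) hbes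
  have hT : ∑ r, ∫ x, ‖Φ' r x‖ ^ 2 = 2 * ∑ j, ∫ x, ‖φ' j x‖ ^ 2 := by
    have e1 : ∀ r, ∫ x, ‖Φ' r x‖ ^ 2 = ∑ j, ∫ x, ‖inner ℂ (f₀ r.1) (φ' j x)‖ ^ 2 := by
      intro r
      simp only [hnorm']
      exact integral_finsetSum _ fun j _ => hcomp' _ j
    simp only [e1]
    rw [Fintype.sum_prod_type]
    simp only [Finset.sum_const, Finset.card_univ, Fintype.card_fin, nsmul_eq_mul]
    push_cast
    rw [← Finset.mul_sum, Finset.sum_comm]
    congr 1
    refine Finset.sum_congr rfl fun j _ => ?_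
    rw [← integral_finsetSum _ fun a _ => hcomp' a j]
    congr 1
    ext x
    exact f₀.sum_sq_norm_inner_right _
  have hΘ : ∑ k : Fin N × Fin 2, thetaB b (n k.1) = 2 * ∑ j, thetaB b (n j) := by
    rw [Fintype.sum_prod_type]
    simp only [Finset.sum_const, Finset.card_univ, Fintype.card_fin, nsmul_eq_mul]
    push_cast
    rw [Finset.mul_sum]
  rw [hT, hΘ] at hcore
  have hQc : Continuous fun x => QQ b fun r => Φ r x := continuous_QQ b hΦc
  have hQ0 : ∀ x, 0 ≤ QQ b fun r => Φ r x := fun x => QQ_nonneg hb _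
  have hQi : Integrable fun x => QQ b fun r => Φ r x := by
    refine ⟨hQc.aestronglyMeasurable, ?_⟩
    rw [hasFiniteIntegral_iff_ofReal (Eventually.of_forall hQ0)]
    exact hcore.trans_lt ENNReal.ofReal_lt_top
  refine ⟨hcont, ?_, ?_⟩
  · exact hQi
  · rw [← ofReal_integral_eq_lintegral_ofReal hQi (Eventually.of_forall hQ0)] at hcore
    by_cases hnn : 0 ≤ 2 * (∑ j, ∫ x, ‖φ' j x‖ ^ 2) + 2 * ∑ j, thetaB b (n j)
    · exact (ENNReal.ofReal_le_ofReal_iff hnn).1 hcore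
    · -- the right side is nonnegative in fact
      exfalso
      apply hnn
      have h1 : 0 ≤ ∑ j, ∫ x, ‖φ' j x‖ ^ 2 :=
        Finset.sum_nonneg fun j _ => integral_nonneg fun x => by positivity
      have h2 : 0 ≤ ∑ j, thetaB b (n j) := by
        refine Finset.sum_nonneg fun j _ => ?_
        rcases (hn0 j).eq_or_lt with h | h
        · rw [← h]
          simp [thetaB]
        · exact thetaB_nonneg b h (hn1 j)
      positivity

/-- The quantity `P_j = ⟨ψ_j, W ψ_j⟩`. -/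
noncomputable def PP (W : Matrix (Fin m) (Fin m) ℂ) (y : EuclideanSpace ℂ (Fin m)) : ℝ :=
  (star y.ofLp ⬝ᵥ (W *ᵥ y.ofLp)).re

/-- The weighted family. -/
noncomputable def wfam (n : Fin N → ℝ) (ψ : Fin N → ℝ → EuclideanSpace ℂ (Fin m)) (j : Fin N)
    (x : ℝ) : EuclideanSpace ℂ (Fin m) :=
  ((Real.sqrt (n j) : ℝ) : ℂ) • ψ j x

lemma PP_smul (W : Matrix (Fin m) (Fin m) ℂ) (y : EuclideanSpace ℂ (Fin m)) {r : ℝ} (hr : 0 ≤ r) :
    PP W (((Real.sqrt r : ℝ) : ℂ) • y) = r * PP W y := by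
  unfold PP
  have h1 : (((Real.sqrt r : ℝ) : ℂ) • y).ofLp = ((Real.sqrt r : ℝ) : ℂ) • y.ofLp := rfl
  rw [h1, Matrix.mulVec_smul, star_smul, dotProduct_smul, smul_dotProduct]
  have h2 : star ((Real.sqrt r : ℝ) : ℂ) = ((Real.sqrt r : ℝ) : ℂ) := by simp
  rw [h2]
  simp only [smul_eq_mul]
  rw [← mul_assoc]
  have h3 : ((Real.sqrt r : ℝ) : ℂ) * ((Real.sqrt r : ℝ) : ℂ) = (r : ℂ) := by
    rw [← Complex.ofReal_mul, Real.mul_self_sqrt hr]
  rw [h3, Complex.re_ofReal_mul]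

/-- The result at fixed weights. -/
theorem dual_weighted {b : ℝ} (hb : 0 ≤ b) (ψ ψ' : Fin N → ℝ → EuclideanSpace ℂ (Fin m))
    (hψ : ∀ j, MemLp (ψ j) 2 volume) (hψ' : ∀ j, MemLp (ψ' j) 2 volume)
    (hftc : ∀ j, ∀ a b : ℝ, ∫ t in a..b, ψ' j t = ψ j b - ψ j a)
    (orth : ∀ i j, ∫ x, inner ℂ (ψ i x) (ψ j x) = if i = j then (1 : ℂ) else 0)
    (n : Fin N → ℝ) (hn0 : ∀ j, 0 ≤ n j) (hn1 : ∀ j, n j < 1) :
    (∀ j, Continuous (ψ j)) ∧
    Integrable (fun x => QQ b (rows (EuclideanSpace.basisFun (Fin m) ℂ) fun j => wfam n ψ j x)) ∧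
    1 / 2 * ∫ x, QQ b (rows (EuclideanSpace.basisFun (Fin m) ℂ) fun j => wfam n ψ j x) ≤
      (∑ j, n j * ∫ x, ‖ψ' j x‖ ^ 2) + ∑ j, thetaB b (n j) := by
  have hcont : ∀ j, Continuous (ψ j) := by
    intro j
    have e : ψ j = fun x => ψ j 0 + ∫ t in (0 : ℝ)..x, ψ' j t := by
      ext x
      rw [hftc]
      simp
    rw [e]
    exact continuous_const.add (intervalIntegral.continuous_primitive
      (fun a b => ii_of_memLpE (hψ' j) a b) 0)
  have hii : ∀ j a b, IntervalIntegrable (ψ' j) volume a b := fun j a b => ii_of_memLpE (hψ' j) a b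
  have h := weighted_core hb (wfam n ψ) (wfam n ψ')
    (fun j => (hψ j).const_smul ((Real.sqrt (n j) : ℝ) : ℂ))
    (fun j => (hψ' j).const_smul ((Real.sqrt (n j) : ℝ) : ℂ))
    (fun j a b => by
      simp only [wfam]
      rw [intervalIntegral.integral_smul, hftc, smul_sub])
    n hn0 hn1
    (fun i j => by
      have hint : Integrable fun x => inner ℂ (ψ i x) (ψ j x) := by
        refine ((hψ i).norm.integrable_mul (hψ j).norm).mono'
          ((hψ i).1.inner (hψ j).1) (Eventually.of_forall fun x => ?_)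
        exact norm_inner_le_norm _ _
      simp only [wfam, inner_smul_left, inner_smul_right, Complex.conj_ofReal]
      rw [integral_const_mul, integral_const_mul, orth]
      split_ifs with hij
      · subst hij
        rw [mul_one, ← Complex.ofReal_mul, Real.mul_self_sqrt (hn0 i)]
      · simp)
  refine ⟨hcont, h.2.1, ?_⟩
  have hT : ∀ j, ∫ x, ‖wfam n ψ' j x‖ ^ 2 = n j * ∫ x, ‖ψ' j x‖ ^ 2 := by
    intro j
    rw [← integral_const_mul]
    congr 1
    ext x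
    simp only [wfam]
    rw [norm_smul, mul_pow, Complex.norm_real, Real.norm_eq_abs, sq_abs, Real.sq_sqrt (hn0 j)]
  simp only [hT] at h
  linarith [h.2.2]

/-- The pointwise inequality for the weighted family. -/
lemma pointwise_weighted {b : ℝ} (hb : 0 ≤ b) (H : ℝ → ℝ)
    (hH : ∀ w S : ℝ, 0 ≤ w → 0 ≤ S → w * S ≤ Real.pi ^ 2 / 4 * S ^ 3 + b * Real.pi * S ^ 2 + H w)
    (W : Matrix (Fin m) (Fin m) ℂ) (hW : W.PosSemidef)
    (n : Fin N → ℝ) (hn0 : ∀ j, 0 ≤ n j) (ψ : Fin N → ℝ → EuclideanSpace ℂ (Fin m)) (x : ℝ) :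
    ∑ j, n j * PP W (ψ j x) ≤
      1 / 2 * QQ b (rows (EuclideanSpace.basisFun (Fin m) ℂ) fun j => wfam n ψ j x) +
        ∑ a, H (hW.isHermitian.eigenvalues a) := by
  have h := pointwise_gen hb H hH W hW (EuclideanSpace.basisFun (Fin m) ℂ) (fun j => wfam n ψ j x)
  have e : ∀ j, (star (wfam n ψ j x).ofLp ⬝ᵥ (W *ᵥ (wfam n ψ j x).ofLp)).re =
      n j * PP W (ψ j x) := fun j => PP_smul W (ψ j x) (hn0 j)
  simp only [e] at h
  exact h

end rows

end Vale.Agent.Lib.P371.Mix
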