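import Vale.Agent.Lib.P371.Mix.Cost
import Vale.Agent.Lib.P371.SharpM.FinalM

/-!
# The weighted estimate in a finite dimensional real inner product space, and in `H¹`.
-/

open MeasureTheory Set Filter Topology Matrix
open scoped ENNReal ComplexOrder

namespace Vale.Agent.Lib.P371.Mix

open Vale.Agent.Lib.P371.Sharp Vale.Agent.Lib.P371.SharpM
open Vale.Agent.Lib.P371.S (boxAvg boxAvg_hasDerivAt boxAvg_tendsto avg_sq_lint ii_of_memLp
  integrable_norm_sq')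

section general

variable {E : Type*} [NormedAddCommGroup E] [InnerProductSpace ℝ E] [FiniteDimensional ℝ E]
variable {ι : Type*} [Fintype ι]

/-- The trace of the square of `∑ z_r z_rᵀ`. -/
noncomputable def sqTr (z : ι → E) : ℝ := (gramE z * gramE z).trace

lemma sqTr_congr {κ : Type*} [Fintype κ] {z : ι → E} {η : κ → E}
    (h : ∀ u v, bform z u v = bform η u v) : sqTr z = sqTr η := by
  have : gramE z = gramE η := by
    ext i k
    exact h _ _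
  rw [sqTr, sqTr, this]

lemma gramE_symm (z : ι → E) : (gramE z).IsSymm := by
  refine Matrix.IsSymm.ext fun i k => ?_
  simp only [gramE, Matrix.of_apply, bform]
  exact Finset.sum_congr rfl fun r _ => by ring

lemma trace_self_mul_eq_hs {d : ℕ} {X : Mat d} (hX : X.IsSymm) : (X * X).trace = hs X X := by
  simp only [Matrix.trace, Matrix.diag, Matrix.mul_apply, hs]
  refine Finset.sum_congr rfl fun i _ => Finset.sum_congr rfl fun j _ => ?_
  rw [hX.apply i j]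

lemma sum4 {α β γ δ : Type*} [Fintype α] [Fintype β] [Fintype γ] [Fintype δ]
    (f : α → β → γ → δ → ℝ) :
    ∑ a, ∑ b, ∑ c, ∑ e, f a b c e = ∑ c, ∑ e, ∑ a, ∑ b, f a b c e := by
  calc _ = ∑ a, ∑ c, ∑ b, ∑ e, f a b c e := Finset.sum_congr rfl fun a _ => Finset.sum_comm
    _ = ∑ c, ∑ a, ∑ b, ∑ e, f a b c e := Finset.sum_comm
    _ = ∑ c, ∑ a, ∑ e, ∑ b, f a b c e :=
        Finset.sum_congr rfl fun c _ => Finset.sum_congr rfl fun a _ => Finset.sum_comm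
    _ = _ := Finset.sum_congr rfl fun c _ => Finset.sum_comm

lemma sum_dot_sq_le {d : ℕ} (y : ι → Vec d) (X : Mat d) (hX : X = ∑ r, vecMulVec (y r) (y r)) :
    ∑ r, (y r ⬝ᵥ y r) ^ 2 ≤ hs X X := by
  have e : hs X X = ∑ r, ∑ s, (y r ⬝ᵥ y s) ^ 2 := by
    have h1 : ∀ i j, X i j * X i j = ∑ r, ∑ s, (y r i * y r j) * (y s i * y s j) := by
      intro i j
      have h0 : X i j = ∑ r, y r i * y r j := by
        rw [hX]
        simp [Matrix.sum_apply, vecMulVec_apply]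
      rw [h0, Finset.sum_mul_sum]
    have h2 : ∀ r s, (y r ⬝ᵥ y s) ^ 2 = ∑ i, ∑ j, (y r i * y r j) * (y s i * y s j) := by
      intro r s
      rw [sq]
      simp only [dotProduct]
      rw [Finset.sum_mul_sum]
      exact Finset.sum_congr rfl fun i _ => Finset.sum_congr rfl fun j _ => by ring
    simp only [hs, h1, h2]
    exact sum4 _
  rw [e]
  refine Finset.sum_le_sum fun r _ => ?_
  exact Finset.single_le_sum (f := fun s => (y r ⬝ᵥ y s) ^ 2) (fun s _ => sq_nonneg _)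
    (Finset.mem_univ r)

/-- The pointwise inequality `∑ ‖z_r‖⁴ ≤ tr X²`. -/
lemma sum_norm_four_le (z : ι → E) : ∑ r, ‖z r‖ ^ 4 ≤ sqTr z := by
  have h := sum_dot_sq_le (fun r i => inner ℝ (stdOrthonormalBasis ℝ E i) (z r)) (gramE z)
    (gramE_eq_sum z)
  have hy : ∀ r, (fun i => inner ℝ (stdOrthonormalBasis ℝ E i) (z r)) ⬝ᵥ
      (fun i => inner ℝ (stdOrthonormalBasis ℝ E i) (z r)) = ‖z r‖ ^ 2 := by
    intro r
    rw [← (stdOrthonormalBasis ℝ E).sum_sq_inner_right (z r)]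
    simp [dotProduct, sq]
  simp only [hy] at h
  rw [sqTr, trace_self_mul_eq_hs (gramE_symm z)]
  calc ∑ r, ‖z r‖ ^ 4 = ∑ r, (‖z r‖ ^ 2) ^ 2 := Finset.sum_congr rfl fun r _ => by ring
    _ ≤ _ := h

lemma sqTr_nonneg (z : ι → E) : 0 ≤ sqTr z :=
  (Finset.sum_nonneg fun r _ => by positivity).trans (sum_norm_four_le z)

lemma continuous_sqTr {α : Type*} [TopologicalSpace α] {Φ : ι → α → E}
    (hΦ : ∀ r, Continuous (Φ r)) : Continuous fun x => sqTr fun r => Φ r x := by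
  have hG : Continuous fun x => gramE fun r => Φ r x :=
    continuous_matrix fun i k => continuous_finsetSum _ fun r _ =>
      (continuous_const.inner (hΦ r)).mul (continuous_const.inner (hΦ r))
  exact (hG.matrix_mul hG).matrix_trace

/-- The quantity controlled by the mixed calibrator. -/
noncomputable def QQ (b : ℝ) (z : ι → E) : ℝ :=
  Real.pi ^ 2 / 4 * cubeTr z + b * Real.pi * sqTr z

lemma QQ_nonneg {b : ℝ} (hb : 0 ≤ b) (z : ι → E) : 0 ≤ QQ b z := by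
  unfold QQ
  have h1 := cubeTr_nonneg z
  have h2 := sqTr_nonneg z
  positivity

lemma continuous_QQ {α : Type*} [TopologicalSpace α] (b : ℝ) {Φ : ι → α → E}
    (hΦ : ∀ r, Continuous (Φ r)) : Continuous fun x => QQ b fun r => Φ r x :=
  ((continuous_cubeTr hΦ).const_mul _).add ((continuous_sqTr hΦ).const_mul _)

lemma continuous_thetaB_at (b : ℝ) {f : ℝ} (h0 : 0 ≤ f) (h1 : f < 1) :
    ContinuousAt (thetaB b) f := by
  unfold thetaB
  have hc : Real.cos (Real.pi * f / 2) ≠ 0 := by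
    have hpi := Real.pi_pos
    refine (Real.cos_pos_of_mem_Ioo ⟨?_, ?_⟩).ne' <;> nlinarith
  have h2 : ContinuousAt (fun x : ℝ => Real.tan (Real.pi * x / 2)) f :=
    ContinuousAt.comp (g := Real.tan) (f := fun x : ℝ => Real.pi * x / 2)
      (Real.continuousAt_tan.2 hc) (by fun_prop)
  exact continuousAt_const.mul ((continuousAt_const.mul h2).sub continuousAt_id)

/-- The weighted estimate for `C¹` curves at fixed `ε`. -/
theorem mix_E_eps {b ε : ℝ} (hb : 0 ≤ b) (hε : 0 < ε) (hε2 : ε < 1 / 2)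
    {Φ Φ' : ι → ℝ → E} (hΦ : ∀ r x, HasDerivAt (Φ r) (Φ' r x) x)
    (hΦ'c : ∀ r, Continuous (Φ' r))
    (hL2 : ∀ r, Integrable fun x => ‖Φ r x‖ ^ 2) (hL2' : ∀ r, Integrable fun x => ‖Φ' r x‖ ^ 2)
    {κ : Type*} [Fintype κ] (B : κ → E) (ν : κ → ℝ) (hB1 : ∀ k, ‖B k‖ ^ 2 = 1)
    (hB2 : ∀ e : E, ∑ k, (inner ℝ e (B k)) ^ 2 = ‖e‖ ^ 2) (hν0 : ∀ k, 0 ≤ ν k)
    (hν1 : ∀ k, ν k ≤ 1 - 2 * ε)
    (hbes : ∀ e : E, ∑ r, ∫ x, (inner ℝ e (Φ r x)) ^ 2 ≤ ∑ k, ν k * (inner ℝ e (B k)) ^ 2) :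
    Integrable (fun x => cubeTr fun r => Φ r x) ∧ Integrable (fun x => sqTr fun r => Φ r x) ∧
    Real.pi ^ 2 / 4 * (∫ x, cubeTr (fun r => Φ r x)) +
        b * Real.pi * ∫ x, sqTr (fun r => Φ r x)
      ≤ (∑ r, ∫ x, ‖Φ' r x‖ ^ 2) + ∑ k, thetaB b (ν k + ε) := by
  have hΦc : ∀ r, Continuous (Φ r) := fun r =>
    continuous_iff_continuousAt.2 fun x => (hΦ r x).continuousAt
  set bb := stdOrthonormalBasis ℝ E with hbb
  set e₀ := Fintype.equivFin ι with he₀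
  set ξ : ℝ → Fin (Fintype.card ι) → Vec (Module.finrank ℝ E) :=
    fun x r i => inner ℝ (bb i) (Φ (e₀.symm r) x) with hξdef
  set ξ' : ℝ → Fin (Fintype.card ι) → Vec (Module.finrank ℝ E) :=
    fun x r i => inner ℝ (bb i) (Φ' (e₀.symm r) x) with hξ'def
  have hξ : ∀ x r i, HasDerivAt (fun y => ξ y r i) (ξ' x r i) x := fun x r i =>
    ((innerSL ℝ (bb i)).hasFDerivAt.comp_hasDerivAt x (hΦ _ x))
  have hξ'c : Continuous ξ' :=
    continuous_pi fun r => continuous_pi fun i => continuous_const.inner (hΦ'c _)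
  have hsq : ∀ (u : E), ∑ i, (inner ℝ (bb i) u : ℝ) * (inner ℝ (bb i) u) = ‖u‖ ^ 2 := by
    intro u
    rw [← bb.sum_sq_inner_right u]
    exact Finset.sum_congr rfl fun i _ => by ring
  have hdot' : ∀ x r, ξ' x r ⬝ᵥ ξ' x r = ‖Φ' (e₀.symm r) x‖ ^ 2 := fun x r => hsq _
  have hinner_dom : ∀ {e : E} {Ψ : ℝ → E}, Continuous Ψ → Integrable (fun x => ‖Ψ x‖ ^ 2) →
      Integrable fun x => (inner ℝ e (Ψ x) : ℝ) ^ 2 := by
    intro e Ψ hΨc hΨ
    refine (hΨ.const_mul (‖e‖ ^ 2)).mono' (((continuous_const.inner hΨc).pow 2).aestronglyMeasurable)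
      (Eventually.of_forall fun x => ?_)
    rw [Real.norm_of_nonneg (sq_nonneg _), ← mul_pow, ← sq_abs]
    exact pow_le_pow_left₀ (abs_nonneg _) (abs_real_inner_le_norm e (Ψ x)) 2
  have hL2c : ∀ r i, Integrable fun x => ξ x r i ^ 2 := fun r i =>
    hinner_dom (e := bb i) (hΦc _) (hL2 (e₀.symm r))
  have hL2c' : ∀ r i, Integrable fun x => ξ' x r i ^ 2 := fun r i =>
    hinner_dom (e := bb i) (hΦ'c _) (hL2' (e₀.symm r))
  -- the vector of a coordinate vector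
  have hEv : ∀ v : Vec (Module.finrank ℝ E), ‖∑ i, v i • bb i‖ ^ 2 = v ⬝ᵥ v := by
    intro v
    rw [← real_inner_self_eq_norm_sq, bb.orthonormal.inner_sum v v Finset.univ]
    simp [dotProduct]
  have hin : ∀ (v : Vec (Module.finrank ℝ E)) (u : E),
      v ⬝ᵥ (fun i => inner ℝ (bb i) u) = inner ℝ (∑ i, v i • bb i) u := by
    intro v u
    rw [sum_inner]
    refine Finset.sum_congr rfl fun i _ => ?_
    rw [real_inner_smul_left]
  set β : κ → Vec (Module.finrank ℝ E) := fun k i => inner ℝ (bb i) (B k) with hβdef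
  have hβ1 : ∀ k, β k ⬝ᵥ β k = 1 := fun k => by
    have := hsq (B k)
    rw [hB1] at this
    exact this
  have hβ2 : ∀ v : Vec (Module.finrank ℝ E), ∑ k, (v ⬝ᵥ β k) ^ 2 = v ⬝ᵥ v := by
    intro v
    rw [← hEv v, ← hB2]
    exact Finset.sum_congr rfl fun k _ => by rw [hin v (B k)]
  have hbes' : ∀ v : Vec (Module.finrank ℝ E),
      ∑ r, ∫ x, (v ⬝ᵥ ξ x r) ^ 2 ≤ ∑ k, ν k * (v ⬝ᵥ β k) ^ 2 := by
    intro v
    have e1 : ∀ x r, (v ⬝ᵥ ξ x r) = inner ℝ (∑ i, v i • bb i) (Φ (e₀.symm r) x) := fun x r =>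
      hin v _
    have e2 : ∀ k, v ⬝ᵥ β k = inner ℝ (∑ i, v i • bb i) (B k) := fun k => hin v _
    simp only [e1, e2]
    have h2 := hbes (∑ i, v i • bb i)
    rwa [← Equiv.sum_comp e₀.symm] at h2
  obtain ⟨hint, hint2, hineq⟩ := mix_coord hε hε2 hb hξ hξ'c hL2c hL2c' β ν hβ1 hβ2 hν0 hν1 hbes'
  have hX : ∀ x, rowX (ξ x) = gramE fun r => Φ r x := by
    intro x
    ext i k
    simp only [rowX, Matrix.sum_apply, vecMulVec_apply, hξdef, gramE, Matrix.of_apply, bform]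
    rw [← Equiv.sum_comp e₀.symm (fun r => inner ℝ (stdOrthonormalBasis ℝ E i) (Φ r x) *
      inner ℝ (stdOrthonormalBasis ℝ E k) (Φ r x))]
  have hcube : ∀ x, (rowX (ξ x) * rowX (ξ x) * rowX (ξ x)).trace = cubeTr fun r => Φ r x := by
    intro x
    rw [hX, cubeTr]
  have hsqr : ∀ x, hs (rowX (ξ x)) (rowX (ξ x)) = sqTr fun r => Φ r x := by
    intro x
    rw [hX, sqTr, trace_self_mul_eq_hs (gramE_symm _)]
  simp only [hcube, hsqr, hdot'] at hint hint2 hineq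
  refine ⟨hint, hint2, ?_⟩
  rwa [Equiv.sum_comp e₀.symm (fun r => ∫ x, ‖Φ' r x‖ ^ 2)] at hineq

/-- The weighted estimate for `C¹` curves. -/
theorem mix_E {b : ℝ} (hb : 0 ≤ b)
    {Φ Φ' : ι → ℝ → E} (hΦ : ∀ r x, HasDerivAt (Φ r) (Φ' r x) x)
    (hΦ'c : ∀ r, Continuous (Φ' r))
    (hL2 : ∀ r, Integrable fun x => ‖Φ r x‖ ^ 2) (hL2' : ∀ r, Integrable fun x => ‖Φ' r x‖ ^ 2)
    {κ : Type*} [Fintype κ] (B : κ → E) (ν : κ → ℝ) (hB1 : ∀ k, ‖B k‖ ^ 2 = 1)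
    (hB2 : ∀ e : E, ∑ k, (inner ℝ e (B k)) ^ 2 = ‖e‖ ^ 2) (hν0 : ∀ k, 0 ≤ ν k)
    (hν1 : ∀ k, ν k < 1)
    (hbes : ∀ e : E, ∑ r, ∫ x, (inner ℝ e (Φ r x)) ^ 2 ≤ ∑ k, ν k * (inner ℝ e (B k)) ^ 2) :
    ∫⁻ x, ENNReal.ofReal (QQ b fun r => Φ r x) ≤
      ENNReal.ofReal ((∑ r, ∫ x, ‖Φ' r x‖ ^ 2) + ∑ k, thetaB b (ν k)) := by
  have hev1 : ∀ᶠ ε : ℝ in 𝓝[>] 0, ∀ k, ν k ≤ 1 - 2 * ε := by
    rw [Filter.eventually_all]
    intro k
    have hc : ContinuousAt (fun ε : ℝ => 1 - 2 * ε) 0 := by fun_prop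
    have h1 : ν k < (fun ε : ℝ => 1 - 2 * ε) 0 := by simpa using hν1 k
    exact (nhdsWithin_le_nhds (s := Ioi 0)) ((hc.eventually (lt_mem_nhds h1)).mono fun ε h => h.le)
  have hev2 : ∀ᶠ ε : ℝ in 𝓝[>] 0, ε ∈ Ioo (0 : ℝ) (1 / 2) := Ioo_mem_nhdsGT (by norm_num)
  obtain ⟨ε₀, hε₀, hε₀'⟩ := (hev1.and hev2).exists
  obtain ⟨hI3, hI2, -⟩ := mix_E_eps hb hε₀'.1 hε₀'.2 hΦ hΦ'c hL2 hL2' B ν hB1 hB2 hν0 hε₀ hbes
  have hQi : Integrable fun x => QQ b fun r => Φ r x :=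
    (hI3.const_mul _).add (hI2.const_mul _)
  rw [← ofReal_integral_eq_lintegral_ofReal hQi (Eventually.of_forall fun x => QQ_nonneg hb _)]
  apply ENNReal.ofReal_le_ofReal
  have e : ∫ x, QQ b (fun r => Φ r x) = Real.pi ^ 2 / 4 * (∫ x, cubeTr (fun r => Φ r x)) +
        b * Real.pi * ∫ x, sqTr (fun r => Φ r x) := by
    unfold QQ
    rw [integral_add (hI3.const_mul _) (hI2.const_mul _), integral_const_mul, integral_const_mul]
  rw [e]
  have hlim : Tendsto (fun ε : ℝ => (∑ r, ∫ x, ‖Φ' r x‖ ^ 2) + ∑ k, thetaB b (ν k + ε)) (𝓝[>] 0)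
      (𝓝 ((∑ r, ∫ x, ‖Φ' r x‖ ^ 2) + ∑ k, thetaB b (ν k))) := by
    refine tendsto_const_nhds.add (tendsto_finsetSum _ fun k _ => ?_)
    have h1 : ContinuousAt (fun ε : ℝ => thetaB b (ν k + ε)) 0 := by
      have h2 : ContinuousAt (thetaB b) (ν k + 0) := by
        rw [add_zero]
        exact continuous_thetaB_at b (hν0 k) (hν1 k)
      exact ContinuousAt.comp (f := fun ε : ℝ => ν k + ε) h2 (by fun_prop)
    have h3 := h1.tendsto
    simp only [add_zero] at h3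
    exact h3.mono_left (nhdsWithin_le_nhds (s := Ioi 0))
  refine ge_of_tendsto hlim ?_
  filter_upwards [hev1, hev2] with ε h1 h2
  exact (mix_E_eps hb h2.1 h2.2 hΦ hΦ'c hL2 hL2' B ν hB1 hB2 hν0 h1 hbes).2.2

/-- The weighted estimate in `H¹`: box mollifier. -/
theorem mix_H1 [CompleteSpace E] {b : ℝ} (hb : 0 ≤ b) {Φ Φ' : ι → ℝ → E}
    (hΦc : ∀ r, Continuous (Φ r))
    (hftc : ∀ r, ∀ a b : ℝ, IntervalIntegrable (Φ' r) volume a b ∧
      ∫ t in a..b, Φ' r t = Φ r b - Φ r a)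
    (hL2 : ∀ r, Integrable fun x => ‖Φ r x‖ ^ 2) (hL2' : ∀ r, Integrable fun x => ‖Φ' r x‖ ^ 2)
    {κ : Type*} [Fintype κ] (B : κ → E) (ν : κ → ℝ) (hB1 : ∀ k, ‖B k‖ ^ 2 = 1)
    (hB2 : ∀ e : E, ∑ k, (inner ℝ e (B k)) ^ 2 = ‖e‖ ^ 2) (hν0 : ∀ k, 0 ≤ ν k)
    (hν1 : ∀ k, ν k < 1)
    (hbes : ∀ e : E, ∑ r, ∫ x, (inner ℝ e (Φ r x)) ^ 2 ≤ ∑ k, ν k * (inner ℝ e (B k)) ^ 2) :
    ∫⁻ x, ENNReal.ofReal (QQ b fun r => Φ r x) ≤
      ENNReal.ofReal ((∑ r, ∫ x, ‖Φ' r x‖ ^ 2) + ∑ k, thetaB b (ν k)) := by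
  have hstep : ∀ d : ℝ, 0 < d → ∫⁻ x, ENNReal.ofReal (QQ b fun r => boxAvg (Φ r) d x)
      ≤ ENNReal.ofReal ((∑ r, ∫ x, ‖Φ' r x‖ ^ 2) + ∑ k, thetaB b (ν k)) := by
    intro d hd
    have hderiv := fun r => boxAvg_hasDerivAt (hΦc r) d
    have hcΨ : ∀ r, Continuous (boxAvg (Φ r) d) := fun r =>
      continuous_iff_continuousAt.2 fun x => (hderiv r x).continuousAt
    have hcΨ' : ∀ r, Continuous fun x => d⁻¹ • (Φ r (x + d) - Φ r x) := fun r =>
      (((hΦc r).comp (continuous_id.add continuous_const)).sub (hΦc r)).const_smul _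
    have e' : ∀ r x, d⁻¹ • (Φ r (x + d) - Φ r x) = d⁻¹ • ∫ t in x..x + d, Φ' r t := by
      intro r x
      rw [(hftc r x (x + d)).2]
    have hb1 : ∀ r, ∫⁻ x, ENNReal.ofReal (‖boxAvg (Φ r) d x‖ ^ 2)
        ≤ ∫⁻ x, ENNReal.ofReal (‖Φ r x‖ ^ 2) := fun r =>
      avg_sq_lint (fun a b => (hΦc r).intervalIntegrable a b) (hL2 r) hd
    have hb2 : ∀ r, ∫⁻ x, ENNReal.ofReal (‖d⁻¹ • (Φ r (x + d) - Φ r x)‖ ^ 2)
        ≤ ∫⁻ x, ENNReal.ofReal (‖Φ' r x‖ ^ 2) := by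
      intro r
      simp_rw [e']
      exact avg_sq_lint (fun a b => (hftc r a b).1) (hL2' r) hd
    have c1 : ∀ r, Integrable (fun x => ‖boxAvg (Φ r) d x‖ ^ 2) := fun r =>
      (int_le_of_lint ((hcΨ r).norm.pow 2) (fun x => pow_nonneg (norm_nonneg _) 2) (hL2 r)
        (fun x => pow_nonneg (norm_nonneg _) 2) (hb1 r)).1
    have c2 : ∀ r, Integrable (fun x => ‖d⁻¹ • (Φ r (x + d) - Φ r x)‖ ^ 2) ∧
        ∫ x, ‖d⁻¹ • (Φ r (x + d) - Φ r x)‖ ^ 2 ≤ ∫ x, ‖Φ' r x‖ ^ 2 := fun r =>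
      int_le_of_lint ((hcΨ' r).norm.pow 2) (fun x => pow_nonneg (norm_nonneg _) 2) (hL2' r)
        (fun x => pow_nonneg (norm_nonneg _) 2) (hb2 r)
    have hbes' : ∀ e : E, ∑ r, ∫ x, (inner ℝ e (boxAvg (Φ r) d x)) ^ 2 ≤
        ∑ k, ν k * (inner ℝ e (B k)) ^ 2 := by
      intro e
      refine le_trans (Finset.sum_le_sum fun r _ => ?_) (hbes e)
      have hfc : Continuous fun x => inner ℝ e (Φ r x) := continuous_const.inner (hΦc r)
      have hsq : ∀ x, ‖inner ℝ e (Φ r x)‖ ^ 2 = (inner ℝ e (Φ r x)) ^ 2 := fun x => by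
        rw [Real.norm_eq_abs, sq_abs]
      have hdom : Integrable fun x => ‖inner ℝ e (Φ r x)‖ ^ 2 := by
        refine ((hL2 r).const_mul (‖e‖ ^ 2)).mono' ((hfc.norm.pow 2).aestronglyMeasurable)
          (Eventually.of_forall fun x => ?_)
        rw [Real.norm_of_nonneg (by positivity), ← mul_pow]
        exact pow_le_pow_left₀ (norm_nonneg _) (norm_inner_le_norm (𝕜 := ℝ) e (Φ r x)) 2
      have h2 := avg_sq_lint (fun a b => hfc.intervalIntegrable a b) hdom hd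
      have e3 : ∀ x, inner ℝ e (boxAvg (Φ r) d x) = d⁻¹ • ∫ t in x..x + d, inner ℝ e (Φ r t) := by
        intro x
        rw [boxAvg, real_inner_smul_right, smul_eq_mul]
        congr 1
        exact (ContinuousLinearMap.intervalIntegral_comp_comm (innerSL ℝ e)
          ((hΦc r).intervalIntegrable _ _)).symm
      have e4 : ∀ x, (inner ℝ e (boxAvg (Φ r) d x)) ^ 2
          = ‖d⁻¹ • ∫ t in x..x + d, inner ℝ e (Φ r t)‖ ^ 2 := by
        intro x
        rw [e3, Real.norm_eq_abs, sq_abs]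
      simp_rw [← e4, hsq] at h2
      have hcont : Continuous fun x => (inner ℝ e (boxAvg (Φ r) d x)) ^ 2 :=
        (continuous_const.inner (hcΨ r)).pow 2
      exact (int_le_of_lint hcont (fun x => sq_nonneg _)
        (hdom.congr (Eventually.of_forall hsq)) (fun x => sq_nonneg _) h2).2
    have hcore := mix_E hb hderiv hcΨ' c1 (fun r => (c2 r).1) B ν hB1 hB2 hν0 hν1 hbes'
    refine hcore.trans (ENNReal.ofReal_le_ofReal ?_)
    have hT : ∑ r, ∫ x, ‖d⁻¹ • (Φ r (x + d) - Φ r x)‖ ^ 2 ≤ ∑ r, ∫ x, ‖Φ' r x‖ ^ 2 :=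
      Finset.sum_le_sum fun r _ => (c2 r).2
    linarith
  have hlim : ∀ x, Tendsto (fun k : ℕ => ENNReal.ofReal
      (QQ b fun r => boxAvg (Φ r) (1 / ((k : ℝ) + 1)) x))
      atTop (𝓝 (ENNReal.ofReal (QQ b fun r => Φ r x))) := by
    intro x
    apply ENNReal.tendsto_ofReal
    have hc : Continuous fun z : ι → E => QQ b z :=
      continuous_QQ (Φ := fun r (z : ι → E) => z r) b fun r => continuous_apply r
    exact hc.continuousAt.tendsto.comp (tendsto_pi_nhds.2 fun r => boxAvg_tendsto (hΦc r) x)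
  have hmeas : ∀ k : ℕ, Measurable fun x =>
      ENNReal.ofReal (QQ b fun r => boxAvg (Φ r) (1 / ((k : ℝ) + 1)) x) := by
    intro k
    have hc : ∀ r, Continuous (boxAvg (Φ r) (1 / ((k : ℝ) + 1))) := fun r =>
      continuous_iff_continuousAt.2 fun x => (boxAvg_hasDerivAt (hΦc r) _ x).continuousAt
    exact (continuous_QQ b hc).measurable.ennreal_ofReal
  calc ∫⁻ x, ENNReal.ofReal (QQ b fun r => Φ r x)
      = ∫⁻ x, liminf (fun k : ℕ => ENNReal.ofReal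
          (QQ b fun r => boxAvg (Φ r) (1 / ((k : ℝ) + 1)) x)) atTop := by
        refine lintegral_congr fun x => ?_
        exact (hlim x).liminf_eq.symm
    _ ≤ liminf (fun k : ℕ => ∫⁻ x, ENNReal.ofReal
          (QQ b fun r => boxAvg (Φ r) (1 / ((k : ℝ) + 1)) x)) atTop :=
        lintegral_liminf_le hmeas
    _ ≤ _ := by
        refine Filter.liminf_le_of_frequently_le' (Frequently.of_forall fun k => ?_)
        exact hstep _ (by positivity)

end general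

end Vale.Agent.Lib.P371.Mix
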