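import Mathlib

open MeasureTheory Set Filter Topology

namespace Vale.Agent.Lib.P371.Mix

noncomputable def gOne (b : ℝ) : ℝ := (2 / Real.pi) * (Real.arctan (1 / b) * (1 + b ^ 2) - b)

/-- A nonnegative function with positive set integral has the obvious `lintegral`. -/
lemma lintegral_ofReal_of_integral_pos {f : ℝ → ℝ} {s : Set ℝ} (hs : MeasurableSet s)
    (hf : ∀ x ∈ s, 0 ≤ f x) (hI : 0 < ∫ x in s, f x) :
    ∫⁻ x in s, ENNReal.ofReal (f x) = ENNReal.ofReal (∫ x in s, f x) := by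
  have hint : IntegrableOn f s := by
    by_contra h
    have := integral_undef h
    rw [this] at hI
    exact lt_irrefl _ hI
  rw [ofReal_integral_eq_lintegral_ofReal hint]
  exact (ae_restrict_iff' hs).2 (Eventually.of_forall hf)

/-- Step A: change of variables `b = exp t`. -/
lemma lintegral_exp_change (q : ℝ) (g : ℝ → ℝ) :
    ∫⁻ t : ℝ, ENNReal.ofReal (Real.exp (q * t) * g (Real.exp t)) =
      ∫⁻ b in Ioi (0 : ℝ), ENNReal.ofReal (b ^ (q - 1) * g b) := by
  have h := lintegral_image_eq_lintegral_abs_deriv_mul (s := univ) (f := Real.exp)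
    (f' := Real.exp) MeasurableSet.univ
    (fun x _ => (Real.hasDerivAt_exp x).hasDerivWithinAt)
    (Real.exp_injective.injOn)
    (fun b => ENNReal.ofReal (b ^ (q - 1) * g b))
  rw [image_univ, Real.range_exp, Measure.restrict_univ] at h
  rw [h]
  apply lintegral_congr
  intro t
  rw [abs_of_pos (Real.exp_pos t), ← ENNReal.ofReal_mul (Real.exp_pos t).le, ← mul_assoc]
  congr 2
  rw [← Real.exp_mul, ← Real.exp_add]
  congr 1
  ring

lemma tendsto_aux (b : ℝ) :
    Tendsto (fun t : ℝ => (b ^ 2 * t - t + 2 * b) / (1 + t ^ 2)) atTop (𝓝 0) := by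
  have h1 : Tendsto (fun t : ℝ => 1 / (1 + t ^ 2)) atTop (𝓝 0) := by
    have : Tendsto (fun t : ℝ => 1 + t ^ 2) atTop atTop :=
      tendsto_atTop_add_const_left _ _ (tendsto_pow_atTop (by norm_num))
    have h := this.inv_tendsto_atTop
    refine h.congr (fun t => ?_)
    simp
  have h2 : Tendsto (fun t : ℝ => t / (1 + t ^ 2)) atTop (𝓝 0) := by
    refine squeeze_zero' ?_ ?_ tendsto_inv_atTop_zero
    · filter_upwards [eventually_gt_atTop 0] with t ht
      positivity
    · filter_upwards [eventually_gt_atTop 0] with t ht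
      rw [div_le_iff₀ (by positivity), inv_eq_one_div, div_mul_eq_mul_div, le_div_iff₀ ht]
      nlinarith
  have h3 := (h2.const_mul (b ^ 2 - 1)).add (h1.const_mul (2 * b))
  simp only [mul_zero, add_zero] at h3
  refine h3.congr (fun t => ?_)
  field_simp

/-- The primitive of `2 (t-b)^2 / (1+t^2)^2`. -/
noncomputable def gPrim (b t : ℝ) : ℝ :=
  (1 + b ^ 2) * Real.arctan t + (b ^ 2 * t - t + 2 * b) / (1 + t ^ 2)

lemma hasDerivAt_gPrim (b t : ℝ) :
    HasDerivAt (gPrim b) (2 * (t - b) ^ 2 / (1 + t ^ 2) ^ 2) t := by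
  have hne : (1 + t ^ 2) ≠ 0 := by positivity
  have h1 : HasDerivAt (fun t : ℝ => (1 + b ^ 2) * Real.arctan t)
      ((1 + b ^ 2) * (1 / (1 + t ^ 2))) t := (Real.hasDerivAt_arctan t).const_mul _
  have h2n : HasDerivAt (fun t : ℝ => b ^ 2 * t - t + 2 * b) (b ^ 2 * 1 - 1 + 0) t :=
    (((hasDerivAt_id t).const_mul (b ^ 2)).sub (hasDerivAt_id t)).add (hasDerivAt_const t _)
  have h2d : HasDerivAt (fun t : ℝ => 1 + t ^ 2) (0 + (2 : ℕ) * t ^ (2 - 1) * 1) t :=
    (hasDerivAt_const t _).add ((hasDerivAt_id t).pow 2)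
  have h2 := h2n.div h2d hne
  refine HasDerivAt.congr_deriv (h1.add h2) ?_
  simp only [Nat.cast_ofNat, Nat.add_one_sub_one, pow_one, mul_one, add_zero, zero_add]
  field_simp
  ring

lemma tendsto_gPrim (b : ℝ) :
    Tendsto (gPrim b) atTop (𝓝 ((1 + b ^ 2) * (Real.pi / 2) + 0)) := by
  refine Tendsto.add (Tendsto.const_mul _ ?_) (tendsto_aux b)
  exact Real.tendsto_arctan_atTop.mono_right nhdsWithin_le_nhds

/-- Step B: the integral representation of `arctan (1/b) * (1+b^2) - b`. -/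
lemma G_rep {b : ℝ} (hb : 0 < b) :
    (∫ t in Ioi b, 2 * (t - b) ^ 2 / (1 + t ^ 2) ^ 2) =
      Real.arctan (1 / b) * (1 + b ^ 2) - b := by
  rw [integral_Ioi_of_hasDerivAt_of_nonneg' (fun t _ => hasDerivAt_gPrim b t)
    (fun t _ => by positivity) (tendsto_gPrim b)]
  rw [one_div, Real.arctan_inv_of_pos hb]
  simp only [gPrim]
  have hne : (1 + b ^ 2) ≠ 0 := by positivity
  field_simp
  ring

lemma G_rep_integrable (b : ℝ) :
    IntegrableOn (fun t : ℝ => 2 * (t - b) ^ 2 / (1 + t ^ 2) ^ 2) (Ioi b) :=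
  integrableOn_Ioi_deriv_of_nonneg' (fun t _ => hasDerivAt_gPrim b t)
    (fun t _ => by positivity) (tendsto_gPrim b)

/-- The pointwise `lintegral` form of the representation. -/
lemma ofReal_gOne {q b : ℝ} (hb : 0 < b) :
    ENNReal.ofReal (b ^ (q - 1) * gOne b) =
      ∫⁻ t in Ioi b, ENNReal.ofReal
        (b ^ (q - 1) * (2 / Real.pi) * (2 * (t - b) ^ 2 / (1 + t ^ 2) ^ 2)) := by
  have hc : 0 ≤ b ^ (q - 1) * (2 / Real.pi) := by positivity
  rw [← ofReal_integral_eq_lintegral_ofReal ((G_rep_integrable b).const_mul _)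
    ((ae_restrict_iff' measurableSet_Ioi).2 (Eventually.of_forall (fun t _ => by positivity)))]
  rw [integral_const_mul, G_rep hb]
  congr 1
  simp only [gOne]
  ring

/-- Tonelli on the triangle `0 < b < t`. -/
lemma tonelli_triangle (F : ℝ → ℝ → ENNReal) (hF : Measurable (Function.uncurry F)) :
    ∫⁻ b in Ioi (0 : ℝ), ∫⁻ t in Ioi b, F b t = ∫⁻ t in Ioi (0 : ℝ), ∫⁻ b in Ioo 0 t, F b t := by
  classical
  have hS : MeasurableSet {p : ℝ × ℝ | 0 < p.1 ∧ p.1 < p.2} :=
    (measurableSet_lt measurable_const measurable_fst).inter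
      (measurableSet_lt measurable_fst measurable_snd)
  set H : ℝ → ℝ → ENNReal := fun b t => if 0 < b ∧ b < t then F b t else 0 with hH
  have hHm : Measurable (Function.uncurry H) := by
    have : Function.uncurry H = fun p : ℝ × ℝ =>
        if p ∈ {p : ℝ × ℝ | 0 < p.1 ∧ p.1 < p.2} then Function.uncurry F p else 0 := by
      funext p
      simp [hH, Function.uncurry]
    rw [this]
    exact Measurable.ite hS hF measurable_const
  have hL : ∫⁻ b in Ioi (0 : ℝ), ∫⁻ t in Ioi b, F b t = ∫⁻ b, ∫⁻ t, H b t := by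
    rw [← lintegral_indicator measurableSet_Ioi]
    apply lintegral_congr
    intro b
    by_cases hb : 0 < b
    · rw [indicator_of_mem (mem_Ioi.2 hb), ← lintegral_indicator measurableSet_Ioi]
      apply lintegral_congr
      intro t
      by_cases ht : b < t
      · simp [indicator, hH, hb, ht]
      · simp [indicator, hH, ht]
    · rw [indicator_of_notMem (by simpa using hb)]
      simp [hH, hb]
  have hR : ∫⁻ t in Ioi (0 : ℝ), ∫⁻ b in Ioo 0 t, F b t = ∫⁻ t, ∫⁻ b, H b t := by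
    rw [← lintegral_indicator measurableSet_Ioi]
    apply lintegral_congr
    intro t
    by_cases ht : 0 < t
    · rw [indicator_of_mem (mem_Ioi.2 ht), ← lintegral_indicator measurableSet_Ioo]
      apply lintegral_congr
      intro b
      by_cases hb : 0 < b ∧ b < t
      · simp [indicator, hH, hb]
      · have : b ∉ Ioo 0 t := fun h => hb h
        simp [hH, hb]
    · rw [indicator_of_notMem (by simpa using ht)]
      symm
      have : ∀ b, H b t = 0 := by
        intro b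
        simp only [hH]
        rw [if_neg]
        rintro ⟨h1, h2⟩
        exact ht (h1.trans h2)
      simp [this]
  rw [hL, hR]
  exact lintegral_lintegral_swap hHm.aemeasurable

/-- Step D: the beta integral `B(q,3)`. -/
lemma integral_beta_three {q t : ℝ} (hq : 0 < q) (ht : 0 < t) :
    ∫ b in Ioo 0 t, b ^ (q - 1) * (t - b) ^ 2 =
      t ^ q * t ^ 2 * (2 / (q * (q + 1) * (q + 2))) := by
  have h1 : ∫ b in Ioo 0 t, b ^ (q - 1) * (t - b) ^ 2 =
      ∫ b in Ioo 0 t, (t ^ 2 * b ^ (q - 1) - 2 * t * b ^ q + b ^ (q + 1)) := by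
    apply setIntegral_congr_fun measurableSet_Ioo
    intro b hb
    have hb0 : 0 < b := hb.1
    have e1 : b ^ q = b ^ (q - 1) * b := by
      rw [← Real.rpow_add_one hb0.ne']; congr 1; ring
    have e2 : b ^ (q + 1) = b ^ (q - 1) * b ^ 2 := by
      rw [Real.rpow_add_one hb0.ne' q, e1]; ring
    simp only [e1, e2]
    ring
  have hi0 : IntervalIntegrable (fun b : ℝ => b ^ (q - 1)) volume 0 t :=
    intervalIntegral.intervalIntegrable_rpow' (by linarith)
  have hi1 : IntervalIntegrable (fun b : ℝ => b ^ q) volume 0 t :=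
    intervalIntegral.intervalIntegrable_rpow' (by linarith)
  have hi2 : IntervalIntegrable (fun b : ℝ => b ^ (q + 1)) volume 0 t :=
    intervalIntegral.intervalIntegrable_rpow' (by linarith)
  rw [h1, ← integral_Ioc_eq_integral_Ioo, ← intervalIntegral.integral_of_le ht.le,
    intervalIntegral.integral_add ((hi0.const_mul _).sub (hi1.const_mul _)) hi2,
    intervalIntegral.integral_sub (hi0.const_mul _) (hi1.const_mul _),
    intervalIntegral.integral_const_mul, intervalIntegral.integral_const_mul,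
    integral_rpow (Or.inl (by linarith)), integral_rpow (Or.inl (by linarith)),
    integral_rpow (Or.inl (by linarith))]
  have z1 : (0 : ℝ) ^ (q - 1 + 1) = 0 := Real.zero_rpow (by ring_nf; exact hq.ne')
  have z2 : (0 : ℝ) ^ (q + 1) = 0 := Real.zero_rpow (by linarith)
  have z3 : (0 : ℝ) ^ (q + 1 + 1) = 0 := Real.zero_rpow (by linarith)
  have e1 : t ^ (q - 1 + 1) = t ^ q := by congr 1; ring
  have e2 : t ^ (q + 1) = t ^ q * t := Real.rpow_add_one ht.ne' q
  have e3 : t ^ (q + 1 + 1) = t ^ q * t ^ 2 := by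
    rw [Real.rpow_add_one ht.ne', e2]; ring
  rw [z1, z2, z3, e1, e2, e3]
  have h2 : q + 1 ≠ 0 := by linarith
  have h3 : q + 2 ≠ 0 := by linarith
  have h3' : q + 1 + 1 ≠ 0 := by linarith
  have h4 : q - 1 + 1 ≠ 0 := by ring_nf; exact hq.ne'
  rw [show q - 1 + 1 = q by ring, show q + 1 + 1 = q + 2 by ring]
  field_simp
  ring

/-- Step E1: the Gamma representation of `1/(1+t^2)^2`. -/
lemma ofReal_kernel {c t : ℝ} (hc : 0 < c) :
    ENNReal.ofReal (c / (1 + t ^ 2) ^ 2) =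
      ∫⁻ u in Ioi (0 : ℝ), ENNReal.ofReal (c * (u ^ ((2 : ℝ) - 1) * Real.exp (-((1 + t ^ 2) * u)))) := by
  have hr : 0 < 1 + t ^ 2 := by positivity
  have hv : ∫ u in Ioi (0 : ℝ), c * (u ^ ((2 : ℝ) - 1) * Real.exp (-((1 + t ^ 2) * u))) =
      c / (1 + t ^ 2) ^ 2 := by
    rw [integral_const_mul, Real.integral_rpow_mul_exp_neg_mul_Ioi (by norm_num) hr,
      Real.Gamma_two, Real.rpow_two]
    field_simp
  rw [lintegral_ofReal_of_integral_pos measurableSet_Ioi
    (fun u hu => by have : 0 < u := hu; positivity) (by rw [hv]; positivity), hv]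

/-- Step E3. -/
lemma inner_t {q u : ℝ} (h0 : 0 < q) (hu : 0 < u) :
    ∫⁻ t in Ioi (0 : ℝ), ENNReal.ofReal
        (t ^ q * t ^ 2 * (u ^ ((2 : ℝ) - 1) * Real.exp (-((1 + t ^ 2) * u)))) =
      ENNReal.ofReal (u ^ ((2 : ℝ) - 1) * Real.exp (-u) *
        (u ^ (-(q + 2 + 1) / 2) * (1 / 2) * Real.Gamma ((q + 2 + 1) / 2))) := by
  have hG : 0 < Real.Gamma ((q + 2 + 1) / 2) := Real.Gamma_pos_of_pos (by linarith)
  have hv : ∫ t in Ioi (0 : ℝ),
        t ^ q * t ^ 2 * (u ^ ((2 : ℝ) - 1) * Real.exp (-((1 + t ^ 2) * u))) =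
      u ^ ((2 : ℝ) - 1) * Real.exp (-u) *
        (u ^ (-(q + 2 + 1) / 2) * (1 / 2) * Real.Gamma ((q + 2 + 1) / 2)) := by
    rw [← integral_rpow_mul_exp_neg_mul_rpow (p := 2) (q := q + 2) (b := u) (by norm_num)
      (by linarith) hu, ← integral_const_mul]
    apply setIntegral_congr_fun measurableSet_Ioi
    intro t ht
    have ht0 : 0 < t := ht
    have e1 : t ^ (q + 2) = t ^ q * t ^ 2 := by
      rw [Real.rpow_add ht0, Real.rpow_two]
    have e2 : Real.exp (-((1 + t ^ 2) * u)) = Real.exp (-u) * Real.exp (-u * t ^ (2 : ℝ)) := by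
      rw [← Real.exp_add, Real.rpow_two]
      congr 1
      ring
    simp only [e1, e2]
    ring
  rw [lintegral_ofReal_of_integral_pos measurableSet_Ioi
    (fun t ht => by have : 0 < t := ht; positivity) (by rw [hv]; positivity), hv]

/-- Step E: the moment of the kernel. -/
lemma J_eval {q : ℝ} (h0 : 0 < q) (h1 : q < 1) :
    ∫⁻ t in Ioi (0 : ℝ), ENNReal.ofReal (t ^ q * t ^ 2 / (1 + t ^ 2) ^ 2) =
      ENNReal.ofReal ((1 / 2) * Real.Gamma ((q + 3) / 2) * Real.Gamma ((1 - q) / 2)) := by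
  have step1 : ∫⁻ t in Ioi (0 : ℝ), ENNReal.ofReal (t ^ q * t ^ 2 / (1 + t ^ 2) ^ 2) =
      ∫⁻ t in Ioi (0 : ℝ), ∫⁻ u in Ioi (0 : ℝ), ENNReal.ofReal
        (t ^ q * t ^ 2 * (u ^ ((2 : ℝ) - 1) * Real.exp (-((1 + t ^ 2) * u)))) := by
    apply setLIntegral_congr_fun measurableSet_Ioi
    intro t ht
    have ht0 : 0 < t := ht
    exact ofReal_kernel (by positivity)
  have hmeas : Measurable (fun p : ℝ × ℝ => ENNReal.ofReal
      (p.1 ^ q * p.1 ^ 2 * (p.2 ^ ((2 : ℝ) - 1) * Real.exp (-((1 + p.1 ^ 2) * p.2))))) := by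
    fun_prop
  have step2 := lintegral_lintegral_swap
    (μ := (volume : Measure ℝ).restrict (Ioi 0)) (ν := (volume : Measure ℝ).restrict (Ioi 0))
    (f := fun t u => ENNReal.ofReal
      (t ^ q * t ^ 2 * (u ^ ((2 : ℝ) - 1) * Real.exp (-((1 + t ^ 2) * u)))))
    hmeas.aemeasurable
  rw [step1, step2]
  have step3 : ∫⁻ u in Ioi (0 : ℝ), ∫⁻ t in Ioi (0 : ℝ), ENNReal.ofReal
        (t ^ q * t ^ 2 * (u ^ ((2 : ℝ) - 1) * Real.exp (-((1 + t ^ 2) * u)))) =
      ∫⁻ u in Ioi (0 : ℝ), ENNReal.ofReal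
        ((1 / 2) * Real.Gamma ((q + 3) / 2) * (Real.exp (-u) * u ^ ((1 - q) / 2 - 1))) := by
    apply setLIntegral_congr_fun measurableSet_Ioi
    intro u hu
    have hu0 : 0 < u := hu
    simp only
    rw [inner_t h0 hu0]
    congr 1
    have e1 : u ^ ((1 - q) / 2 - 1) = u ^ ((2 : ℝ) - 1) * u ^ (-(q + 2 + 1) / 2) := by
      rw [← Real.rpow_add hu0]
      congr 1
      ring
    rw [e1, show (q + 2 + 1) / 2 = (q + 3) / 2 by ring]
    ring
  rw [step3]
  have hG1 : 0 < Real.Gamma ((q + 3) / 2) := Real.Gamma_pos_of_pos (by linarith)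
  have hs : 0 < (1 - q) / 2 := by linarith
  have hG2 : 0 < Real.Gamma ((1 - q) / 2) := Real.Gamma_pos_of_pos hs
  have hv : ∫ u in Ioi (0 : ℝ),
        (1 / 2) * Real.Gamma ((q + 3) / 2) * (Real.exp (-u) * u ^ ((1 - q) / 2 - 1)) =
      (1 / 2) * Real.Gamma ((q + 3) / 2) * Real.Gamma ((1 - q) / 2) := by
    rw [integral_const_mul, ← Real.Gamma_eq_integral hs]
  rw [lintegral_ofReal_of_integral_pos measurableSet_Ioi
    (fun u hu => by have : 0 < u := hu; positivity) (by rw [hv]; positivity), hv]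

/-- Step F: Gamma algebra. -/
lemma gamma_algebra {q : ℝ} (h0 : 0 < q) :
    Real.Gamma ((q + 3) / 2) * Real.Gamma ((1 - q) / 2) =
      ((q + 1) / 2) * (Real.pi / Real.cos (Real.pi * q / 2)) := by
  have hs : (q + 1) / 2 ≠ 0 := by
    have : 0 < (q + 1) / 2 := by linarith
    exact this.ne'
  have e1 : Real.Gamma ((q + 3) / 2) = ((q + 1) / 2) * Real.Gamma ((q + 1) / 2) := by
    rw [← Real.Gamma_add_one hs]
    congr 1
    ring
  have e2 : Real.Gamma ((q + 1) / 2) * Real.Gamma ((1 - q) / 2) =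
      Real.pi / Real.cos (Real.pi * q / 2) := by
    have h := Real.Gamma_mul_Gamma_one_sub ((q + 1) / 2)
    rw [show 1 - (q + 1) / 2 = (1 - q) / 2 by ring] at h
    rw [h, show Real.pi * ((q + 1) / 2) = Real.pi * q / 2 + Real.pi / 2 by ring,
      Real.sin_add_pi_div_two]
  rw [e1, mul_assoc, e2]

theorem mellin_gOne {q : ℝ} (h0 : 0 < q) (h1 : q < 1) :
    ∫⁻ t : ℝ, ENNReal.ofReal (Real.exp (q * t) * gOne (Real.exp t)) =
      ENNReal.ofReal (2 / (q * (q + 2) * Real.cos (Real.pi * q / 2))) := by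
  have hpi : 0 < Real.pi := Real.pi_pos
  have hcos : 0 < Real.cos (Real.pi * q / 2) := by
    apply Real.cos_pos_of_mem_Ioo
    constructor <;> nlinarith
  set K : ℝ := 2 / Real.pi * 2 * (2 / (q * (q + 1) * (q + 2))) with hK
  have hKpos : 0 < K := by positivity
  have hmeasF : Measurable (Function.uncurry (fun b t : ℝ => ENNReal.ofReal
      (b ^ (q - 1) * (2 / Real.pi) * (2 * (t - b) ^ 2 / (1 + t ^ 2) ^ 2)))) := by
    simp only [Function.uncurry_def]
    fun_prop
  rw [lintegral_exp_change q gOne]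
  have step1 : ∫⁻ b in Ioi (0 : ℝ), ENNReal.ofReal (b ^ (q - 1) * gOne b) =
      ∫⁻ b in Ioi (0 : ℝ), ∫⁻ t in Ioi b, ENNReal.ofReal
        (b ^ (q - 1) * (2 / Real.pi) * (2 * (t - b) ^ 2 / (1 + t ^ 2) ^ 2)) := by
    apply setLIntegral_congr_fun measurableSet_Ioi
    intro b hb
    exact ofReal_gOne hb
  rw [step1, tonelli_triangle _ hmeasF]
  have step2 : ∫⁻ t in Ioi (0 : ℝ), ∫⁻ b in Ioo 0 t, ENNReal.ofReal
        (b ^ (q - 1) * (2 / Real.pi) * (2 * (t - b) ^ 2 / (1 + t ^ 2) ^ 2)) =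
      ∫⁻ t in Ioi (0 : ℝ), ENNReal.ofReal K *
        ENNReal.ofReal (t ^ q * t ^ 2 / (1 + t ^ 2) ^ 2) := by
    apply setLIntegral_congr_fun measurableSet_Ioi
    intro t ht
    have ht0 : 0 < t := ht
    have hv : ∫ b in Ioo 0 t, b ^ (q - 1) * (2 / Real.pi) * (2 * (t - b) ^ 2 / (1 + t ^ 2) ^ 2) =
        K * (t ^ q * t ^ 2 / (1 + t ^ 2) ^ 2) := by
      have : ∀ b : ℝ, b ^ (q - 1) * (2 / Real.pi) * (2 * (t - b) ^ 2 / (1 + t ^ 2) ^ 2) =
          (2 / Real.pi * 2 / (1 + t ^ 2) ^ 2) * (b ^ (q - 1) * (t - b) ^ 2) := by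
        intro b
        ring
      simp_rw [this]
      rw [integral_const_mul, integral_beta_three h0 ht0, hK]
      ring
    simp only
    rw [lintegral_ofReal_of_integral_pos measurableSet_Ioo
      (fun b hb => by have : 0 < b := hb.1; positivity) (by rw [hv]; positivity), hv,
      ENNReal.ofReal_mul hKpos.le]
  rw [step2, lintegral_const_mul' _ _ ENNReal.ofReal_ne_top, J_eval h0 h1,
    ← ENNReal.ofReal_mul hKpos.le]
  congr 1
  rw [mul_assoc (1 / 2 : ℝ), gamma_algebra h0, hK]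
  have hq1 : q + 1 ≠ 0 := by linarith
  have hq2 : q + 2 ≠ 0 := by linarith
  field_simp

end Vale.Agent.Lib.P371.Mix
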