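import Mathlib

/-!
Mellin transform of the profile `hOne`, computed through the substitution
`b = √3 (1 - v) / (4 √v)`, `v ∈ (0,1)`, which reduces it to three Beta integrals.
-/

open MeasureTheory Set
open scoped ENNReal

namespace Vale.Agent.Lib.P371.Mix

/-- The profile of the mixed calibrator. -/
noncomputable def hOne (b : ℝ) : ℝ :=
  (2 / (27 * Real.pi)) * (Real.sqrt (4 * b ^ 2 + 3) - 2 * b) ^ 2 *
    (2 * Real.sqrt (4 * b ^ 2 + 3) + 2 * b)

namespace MellinH

/-- The Beta integral as a lower Lebesgue integral over `(0,1)`. -/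
lemma lintegral_kernel {a b : ℝ} (ha : 0 < a) (hb : 0 < b) :
    ∫⁻ x in Ioo (0:ℝ) 1, ENNReal.ofReal (x ^ (a - 1) * (1 - x) ^ (b - 1)) =
      ENNReal.ofReal (ProbabilityTheory.beta a b) := by
  have h1 := ProbabilityTheory.lintegral_betaPDF_eq_one ha hb
  rw [ProbabilityTheory.lintegral_betaPDF] at h1
  have hβ := ProbabilityTheory.beta_pos ha hb
  have h2 : ∀ x : ℝ, x ∈ Ioo (0:ℝ) 1 →
      ENNReal.ofReal (1 / ProbabilityTheory.beta a b * x ^ (a - 1) * (1 - x) ^ (b - 1)) =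
        ENNReal.ofReal (1 / ProbabilityTheory.beta a b) *
          ENNReal.ofReal (x ^ (a - 1) * (1 - x) ^ (b - 1)) := by
    intro x _
    rw [mul_assoc, ENNReal.ofReal_mul (by positivity)]
  rw [setLIntegral_congr_fun measurableSet_Ioo h2,
    lintegral_const_mul' _ _ ENNReal.ofReal_ne_top] at h1
  have h3 : ENNReal.ofReal (ProbabilityTheory.beta a b) *
      ENNReal.ofReal (1 / ProbabilityTheory.beta a b) = 1 := by
    rw [← ENNReal.ofReal_mul hβ.le, mul_one_div_cancel hβ.ne', ENNReal.ofReal_one]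
  calc ∫⁻ x in Ioo (0:ℝ) 1, ENNReal.ofReal (x ^ (a - 1) * (1 - x) ^ (b - 1))
      = (ENNReal.ofReal (ProbabilityTheory.beta a b) *
          ENNReal.ofReal (1 / ProbabilityTheory.beta a b)) *
          ∫⁻ x in Ioo (0:ℝ) 1, ENNReal.ofReal (x ^ (a - 1) * (1 - x) ^ (b - 1)) := by
        rw [h3, one_mul]
    _ = ENNReal.ofReal (ProbabilityTheory.beta a b) := by
        rw [mul_assoc, h1, mul_one]

/-- The three-term polynomial weight, integrated against the Beta kernel. -/
lemma lintegral_poly {A q K : ℝ} (hA : 0 < A) (hq : 0 < q) (hK : 0 ≤ K) :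
    ∫⁻ v in Ioo (0:ℝ) 1,
        ENNReal.ofReal (K * ((1 + 4 / 3 * v + 1 / 3 * v ^ 2) * v ^ (A - 1) * (1 - v) ^ (q - 1))) =
      ENNReal.ofReal (K * (ProbabilityTheory.beta A q + 4 / 3 * ProbabilityTheory.beta (A + 1) q +
        1 / 3 * ProbabilityTheory.beta (A + 2) q)) := by
  have hb0 := ProbabilityTheory.beta_pos hA hq
  have hb1 := ProbabilityTheory.beta_pos (add_pos hA one_pos) hq
  have hb2 := ProbabilityTheory.beta_pos (add_pos hA two_pos) hq
  have hm : ∀ a : ℝ, Measurable fun x : ℝ => ENNReal.ofReal (x ^ (a - 1) * (1 - x) ^ (q - 1)) := by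
    intro a
    fun_prop
  have key : ∀ v : ℝ, v ∈ Ioo (0:ℝ) 1 →
      ENNReal.ofReal (K * ((1 + 4 / 3 * v + 1 / 3 * v ^ 2) * v ^ (A - 1) * (1 - v) ^ (q - 1))) =
        ENNReal.ofReal K * ENNReal.ofReal (v ^ (A - 1) * (1 - v) ^ (q - 1)) +
        ENNReal.ofReal (K * (4 / 3)) * ENNReal.ofReal (v ^ (A + 1 - 1) * (1 - v) ^ (q - 1)) +
        ENNReal.ofReal (K * (1 / 3)) * ENNReal.ofReal (v ^ (A + 2 - 1) * (1 - v) ^ (q - 1)) := by
    intro v hv
    have hv0 := hv.1
    have hv1 : 0 < 1 - v := by linarith [hv.2]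
    have e1 : v ^ (A + 1 - 1) = v ^ (A - 1) * v := by
      rw [show A + 1 - 1 = (A - 1) + 1 by ring, Real.rpow_add_one hv0.ne']
    have e2 : v ^ (A + 2 - 1) = v ^ (A - 1) * v ^ 2 := by
      rw [show A + 2 - 1 = (A - 1) + (2:ℕ) by push_cast; ring, Real.rpow_add_natCast hv0.ne']
    have p0 : 0 ≤ v ^ (A - 1) := (Real.rpow_pos_of_pos hv0 _).le
    have p1 : 0 ≤ (1 - v) ^ (q - 1) := (Real.rpow_pos_of_pos hv1 _).le
    rw [← ENNReal.ofReal_mul hK, ← ENNReal.ofReal_mul (by positivity),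
      ← ENNReal.ofReal_mul (by positivity), ← ENNReal.ofReal_add (by positivity) (by
        rw [e1]; positivity), ← ENNReal.ofReal_add (by rw [e1]; positivity) (by
        rw [e2]; positivity), e1, e2]
    congr 1
    ring
  rw [setLIntegral_congr_fun measurableSet_Ioo key,
    lintegral_add_right _ (((hm (A + 2)).const_mul _)),
    lintegral_add_right _ (((hm (A + 1)).const_mul _)),
    lintegral_const_mul' _ _ ENNReal.ofReal_ne_top,
    lintegral_const_mul' _ _ ENNReal.ofReal_ne_top,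
    lintegral_const_mul' _ _ ENNReal.ofReal_ne_top,
    lintegral_kernel hA hq, lintegral_kernel (add_pos hA one_pos) hq,
    lintegral_kernel (add_pos hA two_pos) hq,
    ← ENNReal.ofReal_mul hK, ← ENNReal.ofReal_mul (by positivity),
    ← ENNReal.ofReal_mul (by positivity), ← ENNReal.ofReal_add (by positivity) (by positivity),
    ← ENNReal.ofReal_add (by positivity) (by positivity)]
  congr 1
  ring

/-- The Gamma recursion collapses the three Beta values. -/
lemma beta_combo {q : ℝ} (h0 : 0 < q) (h1 : q < 1) :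
    ProbabilityTheory.beta ((1 - q) / 2) q + 4 / 3 * ProbabilityTheory.beta ((1 - q) / 2 + 1) q +
        1 / 3 * ProbabilityTheory.beta ((1 - q) / 2 + 2) q =
      ProbabilityTheory.beta ((1 - q) / 2) q * (8 / ((1 + q) * (3 + q))) := by
  set A : ℝ := (1 - q) / 2 with hA
  have hApos : 0 < A := by rw [hA]; linarith
  have hS : 0 < A + q := by positivity
  have e1 : Real.Gamma (A + 1) = A * Real.Gamma A := Real.Gamma_add_one hApos.ne'
  have e2 : Real.Gamma (A + 2) = (A + 1) * (A * Real.Gamma A) := by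
    rw [show A + 2 = (A + 1) + 1 by ring, Real.Gamma_add_one (by positivity), e1]
  have e3 : Real.Gamma (A + 1 + q) = (A + q) * Real.Gamma (A + q) := by
    rw [show A + 1 + q = (A + q) + 1 by ring, Real.Gamma_add_one hS.ne']
  have e4 : Real.Gamma (A + 2 + q) = (A + q + 1) * ((A + q) * Real.Gamma (A + q)) := by
    rw [show A + 2 + q = (A + q + 1) + 1 by ring, Real.Gamma_add_one (by positivity),
      Real.Gamma_add_one hS.ne']
  have hG : 0 < Real.Gamma (A + q) := Real.Gamma_pos_of_pos hS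
  have hq1 : A + q = (1 + q) / 2 := by rw [hA]; ring
  have hq2 : A + q + 1 = (3 + q) / 2 := by rw [hA]; ring
  have h1q : 0 < 1 + q := by linarith
  have h3q : 0 < 3 + q := by linarith
  have hnum : 1 + 4 / 3 * (A / (A + q)) + 1 / 3 * ((A + 1) * A / ((A + q + 1) * (A + q))) =
      8 / ((1 + q) * (3 + q)) := by
    rw [hq2, hq1, hA]
    field_simp
    ring
  simp only [ProbabilityTheory.beta]
  rw [e3, e4, e2, e1, ← hnum]
  have hS1 : 0 < A + q + 1 := by positivity
  generalize Real.Gamma (A + q) = G at hG ⊢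
  field_simp

/-- The substitution, in logarithmic variables. -/
noncomputable def psi (v : ℝ) : ℝ :=
  Real.log (Real.sqrt 3 / 4) + Real.log (1 - v) - (1 / 2) * Real.log v

lemma sqrt3_pos : 0 < Real.sqrt 3 := Real.sqrt_pos.mpr (by norm_num)

lemma sqrt3_sq : Real.sqrt 3 ^ 2 = 3 := Real.sq_sqrt (by norm_num)

lemma exp_half_log {v : ℝ} (hv : 0 < v) : Real.exp ((1 / 2) * Real.log v) = Real.sqrt v := by
  rw [Real.sqrt_eq_rpow, Real.rpow_def_of_pos hv]
  congr 1
  ring

lemma exp_psi {v : ℝ} (hv0 : 0 < v) (hv1 : v < 1) :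
    Real.exp (psi v) = Real.sqrt 3 * (1 - v) / (4 * Real.sqrt v) := by
  have h1 : 0 < 1 - v := by linarith
  have h3 := sqrt3_pos
  have hs : 0 < Real.sqrt v := Real.sqrt_pos.mpr hv0
  rw [psi, Real.exp_sub, Real.exp_add, Real.exp_log (by positivity), Real.exp_log h1,
    exp_half_log hv0]
  field_simp

lemma hasDerivAt_psi {v : ℝ} (hv0 : 0 < v) (hv1 : v < 1) :
    HasDerivAt psi (-(1 / (1 - v)) - (1 / 2) * (1 / v)) v := by
  have h1 : (1 - v) ≠ 0 := by linarith
  have d1 : HasDerivAt (fun x : ℝ => Real.log (1 - x)) (-1 / (1 - v)) v := by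
    simpa using ((hasDerivAt_const v (1:ℝ)).sub (hasDerivAt_id v)).log h1
  have d2 : HasDerivAt (fun x : ℝ => Real.log x) (1 / v) v := by
    simpa [one_div] using Real.hasDerivAt_log hv0.ne'
  have h : HasDerivAt (fun x : ℝ => Real.log (Real.sqrt 3 / 4) + Real.log (1 - x) -
      (1 / 2) * Real.log x) (0 + -1 / (1 - v) - (1 / 2) * (1 / v)) v :=
    ((hasDerivAt_const v (Real.log (Real.sqrt 3 / 4))).add d1).sub (d2.const_mul (1 / 2 : ℝ))
  exact h.congr_deriv (by ring)

lemma psi_strictAnti {v w : ℝ} (hv0 : 0 < v) (hvw : v < w) (hw1 : w < 1) : psi w < psi v := by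
  have hw0 : 0 < w := hv0.trans hvw
  have h1 : Real.log (1 - w) < Real.log (1 - v) := Real.log_lt_log (by linarith) (by linarith)
  have h2 : Real.log v < Real.log w := Real.log_lt_log hv0 hvw
  simp only [psi]
  linarith

lemma psi_injOn : InjOn psi (Ioo (0:ℝ) 1) := by
  intro v hv w hw h
  rcases lt_trichotomy v w with hlt | heq | hgt
  · exact absurd h (psi_strictAnti hv.1 hlt hw.2).ne'
  · exact heq
  · exact absurd h (psi_strictAnti hw.1 hgt hv.2).ne

lemma psi_image : psi '' Ioo (0:ℝ) 1 = univ := by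
  refine eq_univ_of_forall fun t => ?_
  set b : ℝ := Real.exp t with hb
  have hbpos : 0 < b := Real.exp_pos t
  set s : ℝ := Real.sqrt (4 * b ^ 2 + 3) with hs
  have hs2 : s ^ 2 = 4 * b ^ 2 + 3 := Real.sq_sqrt (by positivity)
  have hspos : 0 < s := Real.sqrt_pos.mpr (by positivity)
  have h3 := sqrt3_pos
  have h33 := sqrt3_sq
  set r : ℝ := Real.sqrt 3 with hr
  have hs2b : 2 * b < s := by nlinarith
  set y : ℝ := (s - 2 * b) / r with hy
  have hy0 : 0 < y := div_pos (by linarith) h3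
  have hy1 : y < 1 := by
    rw [hy, div_lt_one h3]
    nlinarith
  have hyr : y * r = s - 2 * b := by rw [hy]; field_simp
  have hyb : b = r * (1 - y ^ 2) / (4 * y) := by
    have : (s - 2 * b) * (s + 2 * b) = 3 := by nlinarith
    have h4 : y * r * (s + 2 * b) = 3 := by rw [hyr]; exact this
    have h5 : s + 2 * b = r / y := by
      field_simp
      nlinarith
    have h6 : 4 * b = r / y - y * r := by rw [hyr, ← h5]; ring
    field_simp
    field_simp at h6
    nlinarith
  refine ⟨y ^ 2, ⟨by positivity, by nlinarith⟩, ?_⟩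
  have hv0 : 0 < y ^ 2 := by positivity
  have hv1 : y ^ 2 < 1 := by nlinarith
  apply Real.exp_injective
  rw [exp_psi hv0 hv1, Real.sqrt_sq hy0.le, ← hb, ← hr]
  exact hyb.symm

lemma hOne_exp_psi {v : ℝ} (hv0 : 0 < v) (hv1 : v < 1) :
    hOne (Real.exp (psi v)) =
      (1 / (Real.sqrt 3 * Real.pi)) * (Real.sqrt v * (1 + v / 3)) := by
  rw [exp_psi hv0 hv1]
  have h3 := sqrt3_pos
  have h33 := sqrt3_sq
  set r : ℝ := Real.sqrt 3 with hr
  have hy : 0 < Real.sqrt v := Real.sqrt_pos.mpr hv0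
  have hyy : Real.sqrt v ^ 2 = v := Real.sq_sqrt hv0.le
  set y : ℝ := Real.sqrt v with hydef
  have hpi := Real.pi_pos
  have hb : r * (1 - v) / (4 * y) = r * (1 - y ^ 2) / (4 * y) := by rw [hyy]
  rw [hb]
  have hs : Real.sqrt (4 * (r * (1 - y ^ 2) / (4 * y)) ^ 2 + 3) = r * (1 + y ^ 2) / (2 * y) := by
    rw [show 4 * (r * (1 - y ^ 2) / (4 * y)) ^ 2 + 3 = (r * (1 + y ^ 2) / (2 * y)) ^ 2 by
      field_simp
      nlinarith [h33]]
    exact Real.sqrt_sq (by positivity)
  rw [hOne, hs, ← hyy]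
  field_simp
  rw [show r ^ 4 = 9 by rw [show r ^ 4 = (r ^ 2) ^ 2 by ring, h33]; norm_num]
  ring

lemma exp_q_psi {v q : ℝ} (hv0 : 0 < v) (hv1 : v < 1) :
    Real.exp (q * psi v) =
      (Real.sqrt 3 / 4) ^ q * (1 - v) ^ q * v ^ (-(q / 2)) := by
  have h1 : 0 < 1 - v := by linarith
  have h3 := sqrt3_pos
  rw [Real.rpow_def_of_pos (by positivity), Real.rpow_def_of_pos h1, Real.rpow_def_of_pos hv0,
    ← Real.exp_add, ← Real.exp_add, psi]
  congr 1
  ring

/-- The constant in front of the Beta integrals. -/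
noncomputable def cK (q : ℝ) : ℝ := (Real.sqrt 3 / 4) ^ q / (2 * Real.sqrt 3 * Real.pi)

lemma cK_nonneg (q : ℝ) : 0 ≤ cK q := by
  have h3 := sqrt3_pos
  have hpi := Real.pi_pos
  rw [cK]
  positivity

/-- The pointwise identity behind the substitution. -/
lemma integrand_eq {v q : ℝ} (hv0 : 0 < v) (hv1 : v < 1) :
    |(-(1 / (1 - v)) - (1 / 2) * (1 / v))| *
        (Real.exp (q * psi v) * hOne (Real.exp (psi v))) =
      cK q * ((1 + 4 / 3 * v + 1 / 3 * v ^ 2) * v ^ ((1 - q) / 2 - 1) * (1 - v) ^ (q - 1)) := by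
  have h1 : 0 < 1 - v := by linarith
  have h3 := sqrt3_pos
  have hpi := Real.pi_pos
  have hy : 0 < Real.sqrt v := Real.sqrt_pos.mpr hv0
  have hyy : Real.sqrt v * Real.sqrt v = v := Real.mul_self_sqrt hv0.le
  have habs : |(-(1 / (1 - v)) - (1 / 2) * (1 / v))| = 1 / (1 - v) + (1 / 2) * (1 / v) := by
    rw [abs_of_neg (by
      have : 0 < 1 / (1 - v) := by positivity
      have : 0 < (1 / 2) * (1 / v) := by positivity
      linarith)]
    ring
  have e1 : (1 - v) ^ (q - 1) = (1 - v) ^ q / (1 - v) := Real.rpow_sub_one h1.ne' q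
  have e2 : v ^ ((1 - q) / 2 - 1) = v ^ (-(q / 2)) * Real.sqrt v / v := by
    rw [Real.sqrt_eq_rpow, ← Real.rpow_add hv0, ← Real.rpow_sub_one hv0.ne']
    congr 1
    ring
  rw [habs, exp_q_psi hv0 hv1, hOne_exp_psi hv0 hv1, e1, e2, cK]
  generalize (Real.sqrt 3 / 4) ^ q = P
  generalize (1 - v) ^ q = R
  generalize v ^ (-(q / 2)) = S
  field_simp
  ring

/-- The Mellin integral after the substitution, still in Beta form. -/
lemma lintegral_subst {q : ℝ} (h0 : 0 < q) (h1 : q < 1) :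
    ∫⁻ t : ℝ, ENNReal.ofReal (Real.exp (q * t) * hOne (Real.exp t)) =
      ENNReal.ofReal (cK q * (ProbabilityTheory.beta ((1 - q) / 2) q * (8 / ((1 + q) * (3 + q))))) := by
  have himg := lintegral_image_eq_lintegral_abs_deriv_mul (s := Ioo (0:ℝ) 1) (f := psi)
    (f' := fun v => -(1 / (1 - v)) - (1 / 2) * (1 / v)) measurableSet_Ioo
    (fun v hv => (hasDerivAt_psi hv.1 hv.2).hasDerivWithinAt) psi_injOn
    (fun t => ENNReal.ofReal (Real.exp (q * t) * hOne (Real.exp t)))
  rw [psi_image, Measure.restrict_univ] at himg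
  rw [himg]
  have key : ∀ v : ℝ, v ∈ Ioo (0:ℝ) 1 →
      ENNReal.ofReal |(-(1 / (1 - v)) - (1 / 2) * (1 / v))| *
          ENNReal.ofReal (Real.exp (q * psi v) * hOne (Real.exp (psi v))) =
        ENNReal.ofReal
          (cK q * ((1 + 4 / 3 * v + 1 / 3 * v ^ 2) * v ^ ((1 - q) / 2 - 1) * (1 - v) ^ (q - 1))) := by
    intro v hv
    rw [← ENNReal.ofReal_mul (abs_nonneg _), integrand_eq hv.1 hv.2]
  rw [setLIntegral_congr_fun measurableSet_Ioo key,
    lintegral_poly (by linarith) h0 (cK_nonneg q), beta_combo h0 h1]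

end MellinH

/-- The Mellin transform of `hOne` on the line, for `0 < q < 1`. -/
theorem mellin_hOne {q : ℝ} (h0 : 0 < q) (h1 : q < 1) :
    ∫⁻ t : ℝ, ENNReal.ofReal (Real.exp (q * t) * hOne (Real.exp t)) =
      ENNReal.ofReal (4 * 3 ^ ((q - 1) / 2) * 4 ^ (-q) *
        (Real.Gamma ((1 - q) / 2) * Real.Gamma q / Real.Gamma ((1 + q) / 2)) /
          (Real.pi * (q + 1) * (q + 3))) := by
  rw [MellinH.lintegral_subst h0 h1]
  congr 1
  have h3 := MellinH.sqrt3_pos
  have hpi := Real.pi_pos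
  have e1 : (Real.sqrt 3 / 4) ^ q = (3:ℝ) ^ (q / 2) / (4:ℝ) ^ q := by
    rw [Real.div_rpow h3.le (by norm_num), Real.sqrt_eq_rpow, ← Real.rpow_mul (by norm_num)]
    congr 2
    ring
  have e2 : (3:ℝ) ^ ((q - 1) / 2) = (3:ℝ) ^ (q / 2) / Real.sqrt 3 := by
    rw [Real.sqrt_eq_rpow, ← Real.rpow_sub (by norm_num)]
    congr 1
    ring
  have e3 : (4:ℝ) ^ (-q) = 1 / (4:ℝ) ^ q := by
    rw [Real.rpow_neg (by norm_num), one_div]
  have hq1 : 0 < 1 + q := by linarith
  have hq3 : 0 < 3 + q := by linarith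
  have hq1' : 0 < q + 1 := by linarith
  have hq3' : 0 < q + 3 := by linarith
  have hG : 0 < Real.Gamma ((1 + q) / 2) := Real.Gamma_pos_of_pos (by linarith)
  have h4 : 0 < (4:ℝ) ^ q := Real.rpow_pos_of_pos (by norm_num) q
  rw [MellinH.cK, ProbabilityTheory.beta, show (1 - q) / 2 + q = (1 + q) / 2 by ring, e1, e2, e3]
  field_simp
  ring

end Vale.Agent.Lib.P371.Mix
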