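import Vale.Agent.Lib.P371.SharpM.CoreMat

/-!
# Matrix polynomials along a path, for the mixed calibrator.

For a symmetric path `F` with `F' = X` we compute the derivative of `∑_r ξ_r · P(F) ξ_r`
and of `tr R(F)`, `R' = P²`, and their expressions in an eigenbasis of `F`.
-/

open Matrix Filter Topology

namespace Vale.Agent.Lib.P371.Mix

open Vale.Agent.Lib.P371.Sharp Vale.Agent.Lib.P371.SharpM

variable {d p : ℕ}

/-- The divided difference of `t ↦ t ^ k`. -/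
noncomputable def dd : ℕ → ℝ → ℝ → ℝ
  | 0, _, _ => 0
  | k + 1, s, t => dd k s t * t + s ^ k

lemma dd_mul_sub (k : ℕ) (s t : ℝ) : dd k s t * (s - t) = s ^ k - t ^ k := by
  induction k with
  | zero => simp [dd]
  | succ k ih =>
    simp only [dd]
    have : (dd k s t * t + s ^ k) * (s - t) = (dd k s t * (s - t)) * t + s ^ k * (s - t) := by ring
    rw [this, ih]
    ring

lemma dd_self (k : ℕ) (s : ℝ) : dd (k + 1) s s = (k + 1) * s ^ k := by
  induction k with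
  | zero => simp [dd]
  | succ k ih =>
    rw [dd, ih]
    push_cast
    ring

lemma abs_dd_le (k : ℕ) {s t : ℝ} (hs0 : 0 ≤ s) (hs1 : s ≤ 1) (ht0 : 0 ≤ t) (ht1 : t ≤ 1) :
    |dd k s t| ≤ k := by
  induction k with
  | zero => simp [dd]
  | succ k ih =>
    simp only [dd]
    have h1 : |dd k s t * t| ≤ k := by
      rw [abs_mul, abs_of_nonneg ht0]
      calc |dd k s t| * t ≤ k * 1 := by
            apply mul_le_mul ih ht1 ht0 (by positivity)
        _ = k := by ring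
    have h2 : |s ^ k| ≤ 1 := by
      rw [abs_of_nonneg (pow_nonneg hs0 k)]
      exact pow_le_one₀ hs0 hs1
    calc |dd k s t * t + s ^ k| ≤ |dd k s t * t| + |s ^ k| := abs_add_le _ _
      _ ≤ k + 1 := add_le_add h1 h2
      _ = _ := by push_cast; ring

/-- The directional derivative of `F ↦ F ^ k` in the direction `X`. -/
noncomputable def dPow (F X : Mat d) : ℕ → Mat d
  | 0 => 0
  | k + 1 => dPow F X k * F + F ^ k * X

lemma hasDerivAt_pow_entry {F : ℝ → Mat d} {X : Mat d} {x : ℝ}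
    (hF : ∀ i j, HasDerivAt (fun y => F y i j) (X i j) x) (k : ℕ) (i j : Fin d) :
    HasDerivAt (fun y => (F y ^ k) i j) (dPow (F x) X k i j) x := by
  induction k generalizing i j with
  | zero =>
    simpa [dPow, Matrix.one_apply] using hasDerivAt_const x ((1 : Mat d) i j)
  | succ k ih =>
    simp only [pow_succ, dPow, Matrix.mul_apply, Matrix.add_apply]
    have h : HasDerivAt (fun y => ∑ l, (F y ^ k) i l * F y l j)
        (∑ l, (dPow (F x) X k i l * F x l j + (F x ^ k) i l * X l j)) x :=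
      HasDerivAt.fun_sum fun l _ => (ih i l).mul (hF l j)
    rwa [Finset.sum_add_distrib] at h

section conj

variable {F Q X : Mat d} {f : Fin d → ℝ}

lemma conj_F (h1 : Qᵀ * Q = 1) (h3 : F = Q * diagonal f * Qᵀ) : Qᵀ * F * Q = diagonal f := by
  rw [h3]
  calc Qᵀ * (Q * diagonal f * Qᵀ) * Q = (Qᵀ * Q) * diagonal f * (Qᵀ * Q) := by
        simp only [Matrix.mul_assoc]
    _ = _ := by rw [h1, Matrix.one_mul, Matrix.mul_one]

lemma conj_mul (h2 : Q * Qᵀ = 1) (A B : Mat d) :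
    Qᵀ * (A * B) * Q = (Qᵀ * A * Q) * (Qᵀ * B * Q) := by
  calc Qᵀ * (A * B) * Q = Qᵀ * A * 1 * B * Q := by simp only [Matrix.mul_assoc, Matrix.one_mul]
    _ = Qᵀ * A * (Q * Qᵀ) * B * Q := by rw [h2]
    _ = _ := by simp only [Matrix.mul_assoc]

lemma conj_pow (h1 : Qᵀ * Q = 1) (h2 : Q * Qᵀ = 1) (h3 : F = Q * diagonal f * Qᵀ) (k : ℕ) :
    Qᵀ * F ^ k * Q = diagonal fun j => f j ^ k := by
  induction k with
  | zero => simp [h1]
  | succ k ih =>
    rw [pow_succ, conj_mul h2, ih, conj_F h1 h3, Matrix.diagonal_mul_diagonal]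
    rfl

lemma conj_dPow (h1 : Qᵀ * Q = 1) (h2 : Q * Qᵀ = 1) (h3 : F = Q * diagonal f * Qᵀ) (k : ℕ)
    (j l : Fin d) :
    (Qᵀ * dPow F X k * Q) j l = dd k (f j) (f l) * (Qᵀ * X * Q) j l := by
  induction k generalizing j l with
  | zero => simp [dPow, dd]
  | succ k ih =>
    simp only [dPow, dd]
    rw [Matrix.mul_add, Matrix.add_mul, Matrix.add_apply, conj_mul h2, conj_mul h2, conj_pow h1 h2 h3,
      conj_F h1 h3, Matrix.mul_diagonal, Matrix.diagonal_mul, ih]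
    ring

end conj

/-- `P(F) = ∑_{k<D} a_k F^k`. -/
noncomputable def pm (a : ℕ → ℝ) (D : ℕ) (F : Mat d) : Mat d :=
  ∑ k ∈ Finset.range D, a k • F ^ k

/-- The directional derivative of `P`. -/
noncomputable def dpm (a : ℕ → ℝ) (D : ℕ) (F X : Mat d) : Mat d :=
  ∑ k ∈ Finset.range D, a k • dPow F X k

/-- `P(t) = ∑_{k<D} a_k t^k`. -/
noncomputable def pv (a : ℕ → ℝ) (D : ℕ) (t : ℝ) : ℝ :=
  ∑ k ∈ Finset.range D, a k * t ^ k

/-- The divided difference of `P`. -/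
noncomputable def pd (a : ℕ → ℝ) (D : ℕ) (s t : ℝ) : ℝ :=
  ∑ k ∈ Finset.range D, a k * dd k s t

/-- The bound of the coefficients. -/
noncomputable def cA (a : ℕ → ℝ) (D : ℕ) : ℝ := ∑ k ∈ Finset.range D, |a k|

/-- The bound of the divided difference. -/
noncomputable def cB (a : ℕ → ℝ) (D : ℕ) : ℝ := ∑ k ∈ Finset.range D, |a k| * k

lemma cA_nonneg (a : ℕ → ℝ) (D : ℕ) : 0 ≤ cA a D :=
  Finset.sum_nonneg fun _ _ => abs_nonneg _

lemma cB_nonneg (a : ℕ → ℝ) (D : ℕ) : 0 ≤ cB a D :=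
  Finset.sum_nonneg fun _ _ => by positivity

lemma abs_pv_le (a : ℕ → ℝ) (D : ℕ) {t : ℝ} (h0 : 0 ≤ t) (h1 : t ≤ 1) : |pv a D t| ≤ cA a D := by
  unfold pv cA
  refine (Finset.abs_sum_le_sum_abs _ _).trans (Finset.sum_le_sum fun k _ => ?_)
  rw [abs_mul, abs_of_nonneg (pow_nonneg h0 k)]
  exact mul_le_of_le_one_right (abs_nonneg _) (pow_le_one₀ h0 h1)

lemma abs_pd_le (a : ℕ → ℝ) (D : ℕ) {s t : ℝ} (hs0 : 0 ≤ s) (hs1 : s ≤ 1) (ht0 : 0 ≤ t)
    (ht1 : t ≤ 1) : |pd a D s t| ≤ cB a D := by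
  unfold pd cB
  refine (Finset.abs_sum_le_sum_abs _ _).trans (Finset.sum_le_sum fun k _ => ?_)
  rw [abs_mul]
  exact mul_le_mul_of_nonneg_left (abs_dd_le k hs0 hs1 ht0 ht1) (abs_nonneg _)

section conj2

variable {F Q X : Mat d} {f : Fin d → ℝ}

lemma conj_smul (c : ℝ) (A : Mat d) : Qᵀ * (c • A) * Q = c • (Qᵀ * A * Q) := by
  rw [Matrix.mul_smul, Matrix.smul_mul]

lemma conj_sum {ι : Type*} (s : Finset ι) (A : ι → Mat d) :
    Qᵀ * (∑ k ∈ s, A k) * Q = ∑ k ∈ s, Qᵀ * A k * Q := by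
  rw [Matrix.mul_sum, Matrix.sum_mul]

lemma conj_pm (h1 : Qᵀ * Q = 1) (h2 : Q * Qᵀ = 1) (h3 : F = Q * diagonal f * Qᵀ) (a : ℕ → ℝ)
    (D : ℕ) : Qᵀ * pm a D F * Q = diagonal fun j => pv a D (f j) := by
  unfold pm
  rw [conj_sum]
  simp only [conj_smul, conj_pow h1 h2 h3]
  ext i j
  simp only [Matrix.sum_apply, Matrix.smul_apply, smul_eq_mul, Matrix.diagonal_apply, pv]
  split_ifs with h
  · subst h
    rfl
  · simp

lemma conj_dpm (h1 : Qᵀ * Q = 1) (h2 : Q * Qᵀ = 1) (h3 : F = Q * diagonal f * Qᵀ) (a : ℕ → ℝ)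
    (D : ℕ) (j l : Fin d) :
    (Qᵀ * dpm a D F X * Q) j l = pd a D (f j) (f l) * (Qᵀ * X * Q) j l := by
  unfold dpm pd
  rw [conj_sum]
  simp only [conj_smul, Matrix.sum_apply, Matrix.smul_apply, smul_eq_mul, conj_dPow h1 h2 h3,
    Finset.sum_mul]
  exact Finset.sum_congr rfl fun k _ => by ring

lemma trace_eq_conj (h2 : Q * Qᵀ = 1) (A : Mat d) : A.trace = (Qᵀ * A * Q).trace := by
  rw [Matrix.mul_assoc, Matrix.trace_mul_comm, Matrix.mul_assoc, h2, Matrix.mul_one]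

lemma hs_conj (h2 : Q * Qᵀ = 1) (A B : Mat d) : hs A B = hs (Qᵀ * A * Q) (Qᵀ * B * Q) := by
  rw [hs_eq_trace, hs_eq_trace]
  have e : (Qᵀ * A * Q)ᵀ * (Qᵀ * B * Q) = Qᵀ * (Aᵀ * B) * Q := by
    rw [Matrix.transpose_mul, Matrix.transpose_mul, Matrix.transpose_transpose]
    rw [conj_mul h2]
    simp only [Matrix.mul_assoc]
  rw [e]
  exact trace_eq_conj h2 _

lemma pm_symm (a : ℕ → ℝ) (D : ℕ) (hF : F.IsSymm) : (pm a D F).IsSymm := by
  unfold pm Matrix.IsSymm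
  rw [Matrix.transpose_sum]
  refine Finset.sum_congr rfl fun k _ => ?_
  rw [Matrix.transpose_smul, Matrix.transpose_pow, hF.eq]

/-- `hs (dP) X` in the eigenbasis. -/
lemma hs_dpm (h1 : Qᵀ * Q = 1) (h2 : Q * Qᵀ = 1) (h3 : F = Q * diagonal f * Qᵀ) (a : ℕ → ℝ)
    (D : ℕ) :
    hs (dpm a D F X) X = ∑ j, ∑ l, pd a D (f j) (f l) * (Qᵀ * X * Q) j l ^ 2 := by
  rw [hs_conj h2]
  unfold hs
  refine Finset.sum_congr rfl fun j _ => Finset.sum_congr rfl fun l _ => ?_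
  rw [conj_dpm h1 h2 h3]
  ring

end conj2

/-- The derivative of `∑_r ξ_r · P(F) ξ_r`. -/
theorem hasDerivAt_c1 (a : ℕ → ℝ) (D : ℕ) {ξ ξ' : ℝ → Fin p → Vec d}
    (hξ : ∀ x r i, HasDerivAt (fun y => ξ y r i) (ξ' x r i) x) {F : ℝ → Mat d}
    (hF : ∀ x i j, HasDerivAt (fun y => F y i j) (rowX (ξ x) i j) x)
    (hsymm : ∀ x, (F x).IsSymm) (x : ℝ) :
    HasDerivAt (fun y => ∑ r, ξ y r ⬝ᵥ (pm a D (F y) *ᵥ ξ y r))
      (∑ r, 2 * (ξ' x r ⬝ᵥ (pm a D (F x) *ᵥ ξ x r)) +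
        hs (dpm a D (F x) (rowX (ξ x))) (rowX (ξ x))) x := by
  have hM : ∀ i j, HasDerivAt (fun y => pm a D (F y) i j) (dpm a D (F x) (rowX (ξ x)) i j) x := by
    intro i j
    simp only [pm, dpm, Matrix.sum_apply, Matrix.smul_apply, smul_eq_mul]
    exact HasDerivAt.fun_sum fun k _ => (hasDerivAt_pow_entry (hF x) k i j).const_mul (a k)
  have hX : ∀ i j, HasDerivAt (fun y => rowX (ξ y) i j)
      ((∑ r, (vecMulVec (ξ' x r) (ξ x r) + vecMulVec (ξ x r) (ξ' x r))) i j) x := by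
    intro i j
    simp only [rowX_apply, Matrix.sum_apply, Matrix.add_apply, vecMulVec_apply]
    exact HasDerivAt.fun_sum fun r _ => (hξ x r i).fun_mul (hξ x r j)
  have hmain : HasDerivAt (fun y => hs (pm a D (F y)) (rowX (ξ y)))
      (hs (dpm a D (F x) (rowX (ξ x))) (rowX (ξ x)) +
        hs (pm a D (F x)) (∑ r, (vecMulVec (ξ' x r) (ξ x r) + vecMulVec (ξ x r) (ξ' x r)))) x := by
    unfold hs
    rw [← Finset.sum_add_distrib]
    refine HasDerivAt.fun_sum fun i _ => ?_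
    rw [← Finset.sum_add_distrib]
    exact HasDerivAt.fun_sum fun j _ => (hM i j).mul (hX i j)
  have hsumr : ∀ (q : Finset (Fin p)) (g : Fin p → Mat d) (A : Mat d),
      hs A (∑ r ∈ q, g r) = ∑ r ∈ q, hs A (g r) := by
    intro q g A
    induction q using Finset.induction_on with
    | empty => simp [hs_zero_right]
    | insert b q hb ih =>
      rw [Finset.sum_insert hb, Finset.sum_insert hb, hs_add_right, ih]
  have e1 : hs (pm a D (F x)) (∑ r, (vecMulVec (ξ' x r) (ξ x r) + vecMulVec (ξ x r) (ξ' x r)))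
      = ∑ r, 2 * (ξ' x r ⬝ᵥ (pm a D (F x) *ᵥ ξ x r)) := by
    rw [hsumr]
    refine Finset.sum_congr rfl fun r _ => ?_
    rw [hs_add_right, hs_vecMulVec, hs_vecMulVec,
      dot_symm_swap (pm_symm a D (hsymm x)) (ξ x r) (ξ' x r)]
    ring
  rw [e1] at hmain
  have e2 : (∑ r, 2 * (ξ' x r ⬝ᵥ (pm a D (F x) *ᵥ ξ x r)) +
      hs (dpm a D (F x) (rowX (ξ x))) (rowX (ξ x))) =
      hs (dpm a D (F x) (rowX (ξ x))) (rowX (ξ x)) +
        ∑ r, 2 * (ξ' x r ⬝ᵥ (pm a D (F x) *ᵥ ξ x r)) := add_comm _ _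
  rw [e2]
  refine hmain.congr_of_eventuallyEq (Eventually.of_forall fun y => ?_)
  exact (hs_rowX _ _).symm

/-- `tr R(G) = ∑_{k,l} a_k a_l tr G^{k+l+1} / (k+l+1)`, `R' = P²`. -/
noncomputable def trR (a : ℕ → ℝ) (D : ℕ) (G : Mat d) : ℝ :=
  ∑ k ∈ Finset.range D, ∑ l ∈ Finset.range D,
    a k * a l / ((k : ℝ) + l + 1) * (G ^ (k + l + 1)).trace

/-- The scalar `R(t)`. -/
noncomputable def rv (a : ℕ → ℝ) (D : ℕ) (t : ℝ) : ℝ :=
  ∑ k ∈ Finset.range D, ∑ l ∈ Finset.range D, a k * a l / ((k : ℝ) + l + 1) * t ^ (k + l + 1)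

/-- `tr R(G)` in an eigenbasis of `G`. -/
lemma trR_eq {G Q : Mat d} {f : Fin d → ℝ} (h1 : Qᵀ * Q = 1) (h2 : Q * Qᵀ = 1)
    (h3 : G = Q * diagonal f * Qᵀ) (a : ℕ → ℝ) (D : ℕ) :
    trR a D G = ∑ j, rv a D (f j) := by
  unfold trR rv
  have e : ∀ m : ℕ, (G ^ m).trace = ∑ j, f j ^ m := by
    intro m
    rw [trace_eq_conj h2, conj_pow h1 h2 h3, Matrix.trace_diagonal]
  simp only [e, Finset.mul_sum]
  exact (Finset.sum_congr rfl fun k _ => Finset.sum_comm).trans Finset.sum_comm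

/-- The derivative of `tr R(F)`: it is `∑_r |P(F) ξ_r|²`. -/
theorem hasDerivAt_trR {ε : ℝ} (a : ℕ → ℝ) (D : ℕ) {ξ : ℝ → Fin p → Vec d} {F : ℝ → Mat d}
    (hF : ∀ x i j, HasDerivAt (fun y => F y i j) (rowX (ξ x) i j) x)
    (hQ : ∀ x, QBound ε (F x)) (x : ℝ) :
    HasDerivAt (fun y => trR a D (F y))
      (∑ r, (pm a D (F x) *ᵥ ξ x r) ⬝ᵥ (pm a D (F x) *ᵥ ξ x r)) x := by
  obtain ⟨Q, f, h1, h2, h3, -⟩ := eigen_data (hQ x)
  set X := rowX (ξ x) with hX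
  have hk : ∀ m : ℕ, HasDerivAt (fun y => (F y ^ (m + 1)).trace) ((dPow (F x) X (m + 1)).trace) x := by
    intro m
    simp only [Matrix.trace, Matrix.diag_apply]
    exact HasDerivAt.fun_sum fun i _ => hasDerivAt_pow_entry (hF x) (m + 1) i i
  have hmain : HasDerivAt (fun y => trR a D (F y))
      (∑ k ∈ Finset.range D, ∑ l ∈ Finset.range D,
        a k * a l / ((k : ℝ) + l + 1) * (dPow (F x) X (k + l + 1)).trace) x := by
    unfold trR
    exact HasDerivAt.fun_sum fun k _ => HasDerivAt.fun_sum fun l _ => (hk (k + l)).const_mul _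
  convert hmain using 1
  set XT := Qᵀ * X * Q with hXT
  have htr : ∀ m : ℕ, (dPow (F x) X (m + 1)).trace = ∑ j, ((m : ℝ) + 1) * f j ^ m * XT j j := by
    intro m
    rw [trace_eq_conj h2, Matrix.trace]
    refine Finset.sum_congr rfl fun j _ => ?_
    rw [Matrix.diag_apply, conj_dPow h1 h2 h3, dd_self]
  have hsq : ∀ r, (pm a D (F x) *ᵥ ξ x r) ⬝ᵥ (pm a D (F x) *ᵥ ξ x r)
      = ∑ j, pv a D (f j) ^ 2 * (Qᵀ *ᵥ ξ x r) j ^ 2 := by
    intro r
    rw [← dot_transpose h2]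
    have e : Qᵀ *ᵥ (pm a D (F x) *ᵥ ξ x r) = (Qᵀ * pm a D (F x) * Q) *ᵥ (Qᵀ *ᵥ ξ x r) := by
      simp only [Matrix.mulVec_mulVec]
      rw [Matrix.mul_assoc (Qᵀ * pm a D (F x)), h2, Matrix.mul_one]
    rw [e, conj_pm h1 h2 h3]
    simp only [dotProduct, Matrix.mulVec_diagonal]
    exact Finset.sum_congr rfl fun j _ => by ring
  have hXjj : ∀ j, XT j j = ∑ r, (Qᵀ *ᵥ ξ x r) j ^ 2 := by
    intro j
    rw [hXT, hX, conj_rowX, rowX_apply]
    exact Finset.sum_congr rfl fun r _ => (sq _).symm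
  simp only [hsq]
  rw [Finset.sum_comm]
  simp only [← Finset.mul_sum, ← hXjj]
  simp only [htr, Finset.mul_sum]
  have e2 : ∀ k ∈ Finset.range D, ∀ l ∈ Finset.range D,
      ∑ j, a k * a l / ((k : ℝ) + l + 1) * ((((k + l : ℕ) : ℝ) + 1) * f j ^ (k + l) * XT j j)
        = ∑ j, a k * f j ^ k * (a l * f j ^ l) * XT j j := by
    intro k _ l _
    refine Finset.sum_congr rfl fun j _ => ?_
    have hne : ((k : ℝ) + l + 1) ≠ 0 := by positivity
    push_cast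
    rw [pow_add]
    field_simp
  rw [Finset.sum_congr rfl fun k hk => Finset.sum_congr rfl fun l hl => e2 k hk l hl]
  have e3 : ∀ j, pv a D (f j) ^ 2 * XT j j = ∑ k ∈ Finset.range D, ∑ l ∈ Finset.range D,
      a k * f j ^ k * (a l * f j ^ l) * XT j j := by
    intro j
    rw [sq, pv, Finset.sum_mul_sum, Finset.sum_mul]
    exact Finset.sum_congr rfl fun k _ => by rw [Finset.sum_mul]
  simp only [e3]
  rw [Finset.sum_comm]
  refine Finset.sum_congr rfl fun k _ => ?_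
  rw [Finset.sum_comm]

end Vale.Agent.Lib.P371.Mix
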