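import Vale.Agent.Lib.P371.Mix.Dual
import Vale.Agent.Lib.P371.Mix.MellinG
import Vale.Agent.Lib.P371.Mix.MellinH

/-!
# From the family of dual inequalities to powers: integration in the parameter `b = exp t`.
-/

open MeasureTheory Set Filter Topology Matrix
open scoped ENNReal ComplexOrder

namespace Vale.Agent.Lib.P371.Mix

open Vale.Agent.Lib.P371.Sharp Vale.Agent.Lib.P371.SharpM

/-- The optimal occupation number. -/
noncomputable def nB (b E : ℝ) : ℝ := 2 / Real.pi * Real.arctan (Real.sqrt E / b)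

/-- The Legendre transform of `Θ_b`. -/
noncomputable def gB (b E : ℝ) : ℝ :=
  2 / Real.pi * (Real.arctan (Real.sqrt E / b) * (E + b ^ 2) - b * Real.sqrt E)

lemma nB_nonneg {b : ℝ} (hb : 0 < b) (E : ℝ) : 0 ≤ nB b E := by
  unfold nB
  have h1 : 0 ≤ Real.sqrt E / b := div_nonneg (Real.sqrt_nonneg _) hb.le
  have h2 : 0 ≤ Real.arctan (Real.sqrt E / b) := Real.arctan_nonneg.2 h1
  have hpi := Real.pi_pos
  positivity

lemma nB_lt_one (b E : ℝ) : nB b E < 1 := by
  unfold nB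
  have h2 := Real.arctan_lt_pi_div_two (Real.sqrt E / b)
  have hpi := Real.pi_pos
  rw [div_mul_eq_mul_div, div_lt_one hpi]
  linarith

lemma thetaB_nB (b E : ℝ) :
    thetaB b (nB b E) = b ^ 2 * (2 / Real.pi * (Real.sqrt E / b) - nB b E) := by
  unfold thetaB
  have hpi := Real.pi_pos
  have e : Real.pi * nB b E / 2 = Real.arctan (Real.sqrt E / b) := by
    unfold nB
    field_simp
  rw [e, Real.tan_arctan]

lemma gB_eq {b E : ℝ} (hb : 0 < b) : nB b E * E - thetaB b (nB b E) = gB b E := by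
  rw [thetaB_nB]
  unfold gB nB
  field_simp
  ring

/-- `n e - Θ(n) = G(e₊)` at the optimal `n`. -/
lemma gB_eq_max {b : ℝ} (hb : 0 < b) (e : ℝ) :
    nB b (max e 0) * e - thetaB b (nB b (max e 0)) = gB b (max e 0) := by
  rcases le_total e 0 with h | h
  · rw [max_eq_right h]
    have : nB b 0 = 0 := by simp [nB]
    rw [this]
    simp [thetaB, gB]
  · rw [max_eq_left h]
    exact gB_eq hb

lemma gB_zero (b : ℝ) : gB b 0 = 0 := by simp [gB]

lemma hB_zero {b : ℝ} (hb : 0 ≤ b) : hB b 0 = 0 := by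
  unfold hB
  have : Real.sqrt (4 * b ^ 2 + 3 * 0) = 2 * b := by
    rw [show 4 * b ^ 2 + 3 * 0 = (2 * b) ^ 2 by ring]
    exact Real.sqrt_sq (by positivity)
  rw [this]
  simp

lemma arctan_mul_ge {τ : ℝ} (hτ : 0 ≤ τ) : τ ≤ Real.arctan τ * (1 + τ ^ 2) := by
  have h1 : 0 ≤ 2 * Real.arctan τ := by
    have := Real.arctan_nonneg.2 hτ
    positivity
  have h2 := Real.sin_le h1
  rw [Real.sin_two_mul, Real.sin_arctan, Real.cos_arctan] at h2
  have hp : 0 < 1 + τ ^ 2 := by positivity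
  have hs : Real.sqrt (1 + τ ^ 2) ^ 2 = 1 + τ ^ 2 := Real.sq_sqrt hp.le
  have hs0 : 0 < Real.sqrt (1 + τ ^ 2) := Real.sqrt_pos.2 hp
  have e : 2 * (τ / Real.sqrt (1 + τ ^ 2)) * (1 / Real.sqrt (1 + τ ^ 2)) = 2 * τ / (1 + τ ^ 2) := by
    rw [← hs]
    field_simp
    simp [hs]
  rw [e, div_le_iff₀ hp] at h2
  linarith

lemma gB_nonneg {b E : ℝ} (hb : 0 < b) (hE : 0 ≤ E) : 0 ≤ gB b E := by
  unfold gB
  set τ := Real.sqrt E / b with hτ
  have hτ0 : 0 ≤ τ := div_nonneg (Real.sqrt_nonneg _) hb.le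
  have h1 := arctan_mul_ge hτ0
  have hE2 : E = (b * τ) ^ 2 := by
    rw [hτ, mul_div_cancel₀ _ hb.ne', Real.sq_sqrt hE]
  have hs : Real.sqrt E = b * τ := by
    rw [hτ, mul_div_cancel₀ _ hb.ne']
  have e : Real.arctan τ * (E + b ^ 2) - b * Real.sqrt E =
      b ^ 2 * (Real.arctan τ * (1 + τ ^ 2) - τ) := by
    rw [hs, hE2]
    ring
  rw [e]
  have hpi := Real.pi_pos
  have : 0 ≤ Real.arctan τ * (1 + τ ^ 2) - τ := by linarith
  positivity

lemma gB_scale {r u : ℝ} (hr : 0 < r) (hu : 0 < u) : gB (r * u) (r ^ 2) = r ^ 2 * gOne u := by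
  unfold gB gOne
  rw [Real.sqrt_sq hr.le]
  have e : r / (r * u) = 1 / u := by
    field_simp
  rw [e]
  ring

lemma hB_scale {r u : ℝ} (hr : 0 < r) (_hu : 0 < u) : hB (r * u) (r ^ 2) = r ^ 3 * hOne u := by
  unfold hB hOne
  have e : Real.sqrt (4 * (r * u) ^ 2 + 3 * r ^ 2) = r * Real.sqrt (4 * u ^ 2 + 3) := by
    rw [show 4 * (r * u) ^ 2 + 3 * r ^ 2 = r ^ 2 * (4 * u ^ 2 + 3) by ring,
      Real.sqrt_mul (sq_nonneg r), Real.sqrt_sq hr.le]
  rw [e]
  ring

/-- The shift of a Mellin type integral. -/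
lemma lint_shift {q r A : ℝ} (hr : 0 < r) (hA : 0 ≤ A) {F φ : ℝ → ℝ}
    (h : ∀ u, 0 < u → F (r * u) = A * φ u) :
    ∫⁻ t : ℝ, ENNReal.ofReal (Real.exp (q * t) * F (Real.exp t)) =
      ENNReal.ofReal (A * r ^ q) * ∫⁻ t : ℝ, ENNReal.ofReal (Real.exp (q * t) * φ (Real.exp t)) := by
  rw [← lintegral_sub_right_eq_self
    (fun t : ℝ => ENNReal.ofReal (Real.exp (q * t) * φ (Real.exp t))) (Real.log r),
    ← lintegral_const_mul' _ _ ENNReal.ofReal_ne_top]
  refine lintegral_congr fun t => ?_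
  rw [← ENNReal.ofReal_mul (by positivity)]
  congr 1
  have e1 : Real.exp t = r * Real.exp (t - Real.log r) := by
    rw [Real.exp_sub, Real.exp_log hr]
    field_simp
  have e2 : Real.exp (q * t) = r ^ q * Real.exp (q * (t - Real.log r)) := by
    rw [Real.rpow_def_of_pos hr, ← Real.exp_add]
    congr 1
    ring
  rw [e1, h _ (Real.exp_pos _), e2]
  ring

theorem lint_gB {q E : ℝ} (hq0 : 0 < q) (hq1 : q < 1) (hE : 0 ≤ E) :
    ∫⁻ t : ℝ, ENNReal.ofReal (Real.exp (q * t) * gB (Real.exp t) E) =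
      ENNReal.ofReal (E ^ (1 + q / 2)) *
        ENNReal.ofReal (2 / (q * (q + 2) * Real.cos (Real.pi * q / 2))) := by
  rcases hE.eq_or_lt with h | h
  · rw [← h]
    simp only [gB_zero, mul_zero, ENNReal.ofReal_zero, lintegral_const, zero_mul]
    rw [Real.zero_rpow (by linarith)]
    simp
  · set r := Real.sqrt E with hr
    have hr0 : 0 < r := Real.sqrt_pos.2 h
    have hr2 : r ^ 2 = E := Real.sq_sqrt hE
    have h1 := lint_shift (q := q) (r := r) (A := E) hr0 hE (F := fun b => gB b E) (φ := gOne)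
      (fun u hu => by
        have := gB_scale hr0 hu
        rwa [hr2] at this)
    rw [h1, mellin_gOne hq0 hq1]
    congr 2
    have e : r ^ q = E ^ (q / 2) := by
      rw [hr, Real.sqrt_eq_rpow, ← Real.rpow_mul hE]
      congr 1
      ring
    rw [e, Real.rpow_add h, Real.rpow_one]

/-- The constant of the `h` integral. -/
noncomputable def cH (q : ℝ) : ℝ :=
  4 * 3 ^ ((q - 1) / 2) * 4 ^ (-q) *
    (Real.Gamma ((1 - q) / 2) * Real.Gamma q / Real.Gamma ((1 + q) / 2)) /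
      (Real.pi * (q + 1) * (q + 3))

theorem lint_hB {q w : ℝ} (hq0 : 0 < q) (hq1 : q < 1) (hw : 0 ≤ w) :
    ∫⁻ t : ℝ, ENNReal.ofReal (Real.exp (q * t) * hB (Real.exp t) w) =
      ENNReal.ofReal (w ^ (3 / 2 + q / 2)) * ENNReal.ofReal (cH q) := by
  rcases hw.eq_or_lt with h | h
  · rw [← h]
    simp only [hB_zero (Real.exp_pos _).le, mul_zero, ENNReal.ofReal_zero, lintegral_const, zero_mul]
    rw [Real.zero_rpow (by linarith)]
    simp
  · set r := Real.sqrt w with hr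
    have hr0 : 0 < r := Real.sqrt_pos.2 h
    have hr2 : r ^ 2 = w := Real.sq_sqrt hw
    have h1 := lint_shift (q := q) (r := r) (A := r ^ 3) hr0 (by positivity)
      (F := fun b => hB b w) (φ := hOne)
      (fun u hu => by
        have := hB_scale hr0 hu
        rwa [hr2] at this)
    rw [h1, mellin_hOne hq0 hq1]
    congr 2
    have e : r ^ q = w ^ (q / 2) := by
      rw [hr, Real.sqrt_eq_rpow, ← Real.rpow_mul hw]
      congr 1
      ring
    have e3 : r ^ 3 = w ^ (3 / 2 : ℝ) := by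
      rw [hr, Real.sqrt_eq_rpow, ← Real.rpow_natCast, ← Real.rpow_mul hw]
      norm_num
    rw [e, e3, Real.rpow_add h]

/-- Rough Young inequality, for the integrability of the quadratic forms. -/
lemma young_rough {p w S : ℝ} (hp1 : 3 / 2 ≤ p) (hp2 : p ≤ 2) (hw : 0 ≤ w) (hS : 0 ≤ S) :
    w * S ≤ Real.pi ^ 2 / 4 * S ^ 3 + 1 * Real.pi * S ^ 2 + w ^ p := by
  have hp0 : 1 < p := by linarith
  have hconj : p.HolderConjugate (p / (p - 1)) := Real.HolderConjugate.conjExponent hp0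
  have hy := Real.young_inequality_of_nonneg hw hS hconj
  set p' := p / (p - 1) with hp'
  have hq1 : 2 ≤ p' := by
    rw [hp', le_div_iff₀ (by linarith)]
    linarith
  have hq2 : p' ≤ 3 := by
    rw [hp', div_le_iff₀ (by linarith)]
    linarith
  have h1 : w ^ p / p ≤ w ^ p :=
    div_le_self (Real.rpow_nonneg hw _) hp0.le
  have h2 : S ^ p' / p' ≤ S ^ p' :=
    div_le_self (Real.rpow_nonneg hS _) (by linarith)
  have h3 : S ^ p' ≤ S ^ 2 + S ^ 3 := by
    rcases le_total S 1 with h | h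
    · have : S ^ p' ≤ S ^ (2 : ℝ) := Real.rpow_le_rpow_of_exponent_ge' hS h (by norm_num) hq1
      rw [Real.rpow_two] at this
      have h5 : 0 ≤ S ^ 3 := by positivity
      linarith
    · have : S ^ p' ≤ S ^ (3 : ℝ) := Real.rpow_le_rpow_of_exponent_le h hq2
      rw [show (3 : ℝ) = ((3 : ℕ) : ℝ) by norm_num, Real.rpow_natCast] at this
      have h5 : 0 ≤ S ^ 2 := by positivity
      linarith
  have hpi := Real.pi_gt_three
  have h6 : S ^ 3 ≤ Real.pi ^ 2 / 4 * S ^ 3 := by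
    have : 1 ≤ Real.pi ^ 2 / 4 := by nlinarith
    have h5 : 0 ≤ S ^ 3 := by positivity
    nlinarith
  have h7 : S ^ 2 ≤ 1 * Real.pi * S ^ 2 := by
    have h5 : 0 ≤ S ^ 2 := by positivity
    nlinarith
  linarith

section main

variable {m N : ℕ}

/-- The integrand of the dual inequality, in a fixed basis. -/
noncomputable def FF (W : ℝ → Matrix (Fin m) (Fin m) ℂ) (ψ : Fin N → ℝ → EuclideanSpace ℂ (Fin m))
    (EE : Fin N → ℝ) (t x : ℝ) : ℝ :=
  ∑ j, nB (Real.exp t) (EE j) * PP (W x) (ψ j x) -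
    1 / 2 * QQ (Real.exp t) (rows (EuclideanSpace.basisFun (Fin m) ℂ)
      fun j => wfam (fun j => nB (Real.exp t) (EE j)) ψ j x)

lemma continuous_nB_exp (E : ℝ) : Continuous fun t : ℝ => nB (Real.exp t) E := by
  unfold nB
  refine continuous_const.mul (Real.continuous_arctan.comp ?_)
  exact continuous_const.div Real.continuous_exp fun t => (Real.exp_pos t).ne'

lemma measurable_FF {W : ℝ → Matrix (Fin m) (Fin m) ℂ} {ψ : Fin N → ℝ → EuclideanSpace ℂ (Fin m)}
    (hcont : ∀ j, Continuous (ψ j)) (hWm : ∀ a b, Measurable fun x => W x a b) (EE : Fin N → ℝ) :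
    Measurable (Function.uncurry (FF W ψ EE)) := by
  have hP : ∀ j, Measurable fun x => PP (W x) (ψ j x) := fun j =>
    Vale.Agent.Lib.P371.measurable_re_quadratic (hcont j).stronglyMeasurable hWm
  unfold Function.uncurry FF
  refine Measurable.sub ?_ ?_
  · refine Finset.measurable_sum _ fun j _ => ?_
    exact ((continuous_nB_exp (EE j)).measurable.comp measurable_fst).mul
      ((hP j).comp measurable_snd)
  · refine Continuous.measurable ?_
    refine continuous_const.mul ?_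
    set f₀ := EuclideanSpace.basisFun (Fin m) ℂ
    have hΦ : ∀ r : Fin m × Fin 2, Continuous fun p : ℝ × ℝ =>
        rows f₀ (fun j => wfam (fun j => nB (Real.exp p.1) (EE j)) ψ j p.2) r := by
      intro r
      simp only [rows_eq_sum]
      refine continuous_finsetSum _ fun j _ => (rowL f₀ r j).continuous.comp ?_
      simp only [wfam]
      have h1 : Continuous fun p : ℝ × ℝ => ψ j p.2 := (hcont j).comp continuous_snd
      have h2 : Continuous fun p : ℝ × ℝ => Real.exp p.1 := Real.continuous_exp.comp continuous_fst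
      have h3 : Continuous fun p : ℝ × ℝ => nB (Real.exp p.1) (EE j) :=
        (continuous_nB_exp (EE j)).comp continuous_fst
      exact (Complex.continuous_ofReal.comp (Real.continuous_sqrt.comp h3)).smul h1
    unfold QQ
    have h2 : Continuous fun p : ℝ × ℝ => Real.exp p.1 := Real.continuous_exp.comp continuous_fst
    exact (continuous_const.mul (continuous_cubeTr hΦ)).add
      ((h2.mul continuous_const).mul (continuous_sqTr hΦ))

lemma FF_le (W : ℝ → Matrix (Fin m) (Fin m) ℂ) (hW : ∀ x, (W x).PosSemidef)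
    (ψ : Fin N → ℝ → EuclideanSpace ℂ (Fin m)) (EE : Fin N → ℝ) (t x : ℝ) :
    FF W ψ EE t x ≤ ∑ a, hB (Real.exp t) ((hW x).isHermitian.eigenvalues a) := by
  have hb : 0 ≤ Real.exp t := (Real.exp_pos t).le
  have h := pointwise_weighted hb (hB (Real.exp t))
    (fun w S hw hS => young_mix hb hw hS) (W x) (hW x) (fun j => nB (Real.exp t) (EE j))
    (fun j => nB_nonneg (Real.exp_pos t) _) ψ x
  unfold FF
  linarith

/-- The integrated inequality at the parameter `t`. -/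
lemma FF_int (ψ ψ' : Fin N → ℝ → EuclideanSpace ℂ (Fin m))
    (hψ : ∀ j, MemLp (ψ j) 2 volume) (hψ' : ∀ j, MemLp (ψ' j) 2 volume)
    (hftc : ∀ j, ∀ a b : ℝ, ∫ t in a..b, ψ' j t = ψ j b - ψ j a)
    (orth : ∀ i j, ∫ x, inner ℂ (ψ i x) (ψ j x) = if i = j then (1 : ℂ) else 0)
    (W : ℝ → Matrix (Fin m) (Fin m) ℂ)
    (hP : ∀ j, Integrable fun x => PP (W x) (ψ j x)) (t : ℝ) :
    Integrable (FF W ψ (fun j => max ((∫ x, PP (W x) (ψ j x)) - ∫ x, ‖ψ' j x‖ ^ 2) 0) t) ∧
    ∑ j, gB (Real.exp t) (max ((∫ x, PP (W x) (ψ j x)) - ∫ x, ‖ψ' j x‖ ^ 2) 0) ≤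
      ∫ x, FF W ψ (fun j => max ((∫ x, PP (W x) (ψ j x)) - ∫ x, ‖ψ' j x‖ ^ 2) 0) t x := by
  set EE : Fin N → ℝ := fun j => max ((∫ x, PP (W x) (ψ j x)) - ∫ x, ‖ψ' j x‖ ^ 2) 0 with hEE
  set n : Fin N → ℝ := fun j => nB (Real.exp t) (EE j) with hn
  have hb : 0 ≤ Real.exp t := (Real.exp_pos t).le
  obtain ⟨-, hQi, hQle⟩ := dual_weighted hb ψ ψ' hψ hψ' hftc orth n
    (fun j => nB_nonneg (Real.exp_pos t) _) (fun j => nB_lt_one _ _)
  have hI1 : Integrable fun x => ∑ j, n j * PP (W x) (ψ j x) :=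
    integrable_finsetSum _ fun j _ => (hP j).const_mul _
  have hI2 := hQi.const_mul (1 / 2 : ℝ)
  have e : FF W ψ EE t = fun x => ∑ j, n j * PP (W x) (ψ j x) -
      1 / 2 * QQ (Real.exp t) (rows (EuclideanSpace.basisFun (Fin m) ℂ) fun j => wfam n ψ j x) := rfl
  rw [e]
  refine ⟨hI1.sub hI2, ?_⟩
  have e2 : ∫ x, (∑ j, n j * PP (W x) (ψ j x) -
      1 / 2 * QQ (Real.exp t) (rows (EuclideanSpace.basisFun (Fin m) ℂ) fun j => wfam n ψ j x)) =
      (∑ j, n j * ∫ x, PP (W x) (ψ j x)) - 1 / 2 *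
        ∫ x, QQ (Real.exp t) (rows (EuclideanSpace.basisFun (Fin m) ℂ) fun j => wfam n ψ j x) := by
    rw [integral_sub hI1 hI2, integral_const_mul, integral_finsetSum _ fun j _ => (hP j).const_mul _]
    simp only [integral_const_mul]
  rw [e2]
  have e3 : ∀ j, gB (Real.exp t) (max ((∫ x, PP (W x) (ψ j x)) - ∫ x, ‖ψ' j x‖ ^ 2) 0) =
      n j * (∫ x, PP (W x) (ψ j x)) -
      n j * (∫ x, ‖ψ' j x‖ ^ 2) - thetaB (Real.exp t) (n j) := by
    intro j
    have := gB_eq_max (Real.exp_pos t) ((∫ x, PP (W x) (ψ j x)) - ∫ x, ‖ψ' j x‖ ^ 2)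
    rw [← this]
    simp only [hn, hEE]
    ring
  simp only [e3]
  rw [Finset.sum_sub_distrib, Finset.sum_sub_distrib]
  linarith

/-- A real function is dominated by the lower integral of its positive part. -/
lemma ofReal_integral_le {f : ℝ → ℝ} (hf : Integrable f) :
    ENNReal.ofReal (∫ x, f x) ≤ ∫⁻ x, ENNReal.ofReal (f x) := by
  rw [integral_eq_lintegral_pos_part_sub_lintegral_neg_part hf]
  have h1 : ∫⁻ x, ENNReal.ofReal (f x) ≠ ⊤ := hf.lintegral_lt_top.ne
  calc ENNReal.ofReal ((∫⁻ x, ENNReal.ofReal (f x)).toReal - (∫⁻ x, ENNReal.ofReal (-f x)).toReal)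
      ≤ ENNReal.ofReal ((∫⁻ x, ENNReal.ofReal (f x)).toReal) := by
        apply ENNReal.ofReal_le_ofReal
        have := ENNReal.toReal_nonneg (a := ∫⁻ x, ENNReal.ofReal (-f x))
        linarith
    _ = _ := ENNReal.ofReal_toReal h1

lemma continuous_gB_exp (E : ℝ) : Continuous fun t : ℝ => gB (Real.exp t) E := by
  unfold gB
  have h1 : Continuous fun t : ℝ => Real.arctan (Real.sqrt E / Real.exp t) :=
    Real.continuous_arctan.comp
      (continuous_const.div Real.continuous_exp fun t => (Real.exp_pos t).ne')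
  exact continuous_const.mul
    ((h1.mul (continuous_const.add (Real.continuous_exp.pow 2))).sub
      (Real.continuous_exp.mul continuous_const))

lemma continuous_hB_exp (w : ℝ) : Continuous fun t : ℝ => hB (Real.exp t) w := by
  unfold hB
  have h1 : Continuous fun t : ℝ => Real.sqrt (4 * Real.exp t ^ 2 + 3 * w) :=
    Real.continuous_sqrt.comp ((continuous_const.mul (Real.continuous_exp.pow 2)).add
      continuous_const)
  exact (continuous_const.mul ((h1.sub (continuous_const.mul Real.continuous_exp)).pow 2)).mul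
    ((continuous_const.mul h1).add (continuous_const.mul Real.continuous_exp))

lemma cH_nonneg {q : ℝ} (hq0 : 0 < q) (hq1 : q < 1) : 0 ≤ cH q := by
  unfold cH
  have h1 : 0 < Real.Gamma ((1 - q) / 2) := Real.Gamma_pos_of_pos (by linarith)
  have h2 : 0 < Real.Gamma q := Real.Gamma_pos_of_pos hq0
  have h3 : 0 < Real.Gamma ((1 + q) / 2) := Real.Gamma_pos_of_pos (by linarith)
  have hpi := Real.pi_pos
  positivity

/-- The integrability of the quadratic forms. -/
theorem integrable_PP {p : ℝ} (hp1 : 3 / 2 ≤ p) (hp2 : p ≤ 2)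
    (ψ ψ' : Fin N → ℝ → EuclideanSpace ℂ (Fin m))
    (hψ : ∀ j, MemLp (ψ j) 2 volume) (hψ' : ∀ j, MemLp (ψ' j) 2 volume)
    (hftc : ∀ j, ∀ a b : ℝ, ∫ t in a..b, ψ' j t = ψ j b - ψ j a)
    (orth : ∀ i j, ∫ x, inner ℂ (ψ i x) (ψ j x) = if i = j then (1 : ℂ) else 0)
    (W : ℝ → Matrix (Fin m) (Fin m) ℂ) (hWm : ∀ a b, Measurable fun x => W x a b)
    (hW : ∀ x, (W x).PosSemidef)
    (htr : Integrable fun x => ∑ a, ((hW x).isHermitian.eigenvalues a) ^ p) :
    (∀ j, Continuous (ψ j)) ∧ (∀ j x, 0 ≤ PP (W x) (ψ j x)) ∧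
    (∀ j, Measurable fun x => PP (W x) (ψ j x)) ∧
    ∀ j, Integrable fun x => PP (W x) (ψ j x) := by
  obtain ⟨hcont, hQi, -⟩ := dual_weighted (b := 1) zero_le_one ψ ψ' hψ hψ' hftc orth
    (fun _ => 1 / 2) (fun _ => by norm_num) (fun _ => by norm_num)
  have hP0 : ∀ j x, 0 ≤ PP (W x) (ψ j x) := by
    intro j x
    unfold PP
    rw [Vale.Agent.Lib.P371.re_quadratic_eq (hW x).isHermitian]
    exact Finset.sum_nonneg fun a _ => mul_nonneg ((hW x).eigenvalues_nonneg a) (by positivity)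
  have hPm : ∀ j, Measurable fun x => PP (W x) (ψ j x) := fun j =>
    Vale.Agent.Lib.P371.measurable_re_quadratic (hcont j).stronglyMeasurable hWm
  refine ⟨hcont, hP0, hPm, fun j => ?_⟩
  have hdom := hQi.add (htr.const_mul 2)
  refine hdom.mono' (hPm j).aestronglyMeasurable (Eventually.of_forall fun x => ?_)
  rw [Real.norm_of_nonneg (hP0 j x)]
  have h := pointwise_weighted (b := 1) zero_le_one (fun w => w ^ p)
    (fun w S hw hS => young_rough hp1 hp2 hw hS) (W x) (hW x) (fun _ => (1 / 2 : ℝ))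
    (fun _ => by norm_num) ψ x
  have h2 : (1 / 2 : ℝ) * PP (W x) (ψ j x) ≤ ∑ j, (1 / 2 : ℝ) * PP (W x) (ψ j x) :=
    Finset.single_le_sum (f := fun j => (1 / 2 : ℝ) * PP (W x) (ψ j x))
      (fun i _ => mul_nonneg (by norm_num) (hP0 i x)) (Finset.mem_univ j)
  simp only [Pi.add_apply]
  linarith

/-- The inequality after integration in the parameter. -/
theorem power_main {q : ℝ} (hq0 : 0 < q) (hq1 : q < 1)
    (ψ ψ' : Fin N → ℝ → EuclideanSpace ℂ (Fin m))
    (hψ : ∀ j, MemLp (ψ j) 2 volume) (hψ' : ∀ j, MemLp (ψ' j) 2 volume)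
    (hftc : ∀ j, ∀ a b : ℝ, ∫ t in a..b, ψ' j t = ψ j b - ψ j a)
    (orth : ∀ i j, ∫ x, inner ℂ (ψ i x) (ψ j x) = if i = j then (1 : ℂ) else 0)
    (W : ℝ → Matrix (Fin m) (Fin m) ℂ) (hWm : ∀ a b, Measurable fun x => W x a b)
    (hW : ∀ x, (W x).PosSemidef)
    (htr : Integrable fun x => ∑ a, ((hW x).isHermitian.eigenvalues a) ^ (3 / 2 + q / 2)) :
    (∀ j, Integrable fun x => PP (W x) (ψ j x)) ∧
    (∑ j, (max ((∫ x, PP (W x) (ψ j x)) - ∫ x, ‖ψ' j x‖ ^ 2) 0) ^ (1 + q / 2)) *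
        (2 / (q * (q + 2) * Real.cos (Real.pi * q / 2))) ≤
      (∫ x, ∑ a, ((hW x).isHermitian.eigenvalues a) ^ (3 / 2 + q / 2)) * cH q := by
  have hp1 : (3 / 2 : ℝ) ≤ 3 / 2 + q / 2 := by linarith
  have hp2 : 3 / 2 + q / 2 ≤ (2 : ℝ) := by linarith
  obtain ⟨hcont, hP0, hPm, hP⟩ := integrable_PP hp1 hp2 ψ ψ' hψ hψ' hftc orth W hWm hW htr
  refine ⟨hP, ?_⟩
  set EE : Fin N → ℝ := fun j => max ((∫ x, PP (W x) (ψ j x)) - ∫ x, ‖ψ' j x‖ ^ 2) 0 with hEE
  have hEE0 : ∀ j, 0 ≤ EE j := fun j => le_max_right _ _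
  set IG : ℝ := 2 / (q * (q + 2) * Real.cos (Real.pi * q / 2)) with hIG
  have hcos : 0 < Real.cos (Real.pi * q / 2) := by
    have hpi := Real.pi_pos
    refine Real.cos_pos_of_mem_Ioo ⟨?_, ?_⟩ <;> nlinarith
  have hIG0 : 0 < IG := by
    rw [hIG]
    positivity
  set K : ℝ → ℝ → ℝ≥0∞ := fun t x => ENNReal.ofReal (Real.exp (q * t) * FF W ψ EE t x) with hK
  have hKm : Measurable (Function.uncurry K) := by
    have h1 : Measurable fun p : ℝ × ℝ => Real.exp (q * p.1) :=
      (Real.continuous_exp.comp (continuous_const.mul continuous_fst)).measurable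
    exact (h1.mul (measurable_FF hcont hWm EE)).ennreal_ofReal
  have hGm : ∀ E : ℝ, Measurable fun t : ℝ => ENNReal.ofReal (Real.exp (q * t) * gB (Real.exp t) E) :=
    fun E => (((Real.continuous_exp.comp (continuous_const.mul continuous_id)).mul
      (continuous_gB_exp E)).measurable).ennreal_ofReal
  have hHm : ∀ w : ℝ, Measurable fun t : ℝ => ENNReal.ofReal (Real.exp (q * t) * hB (Real.exp t) w) :=
    fun w => (((Real.continuous_exp.comp (continuous_const.mul continuous_id)).mul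
      (continuous_hB_exp w)).measurable).ennreal_ofReal
  -- the left side
  have hL : (∑ j, ENNReal.ofReal (EE j ^ (1 + q / 2))) * ENNReal.ofReal IG ≤
      ∫⁻ t : ℝ, ∫⁻ x : ℝ, K t x := by
    calc (∑ j, ENNReal.ofReal (EE j ^ (1 + q / 2))) * ENNReal.ofReal IG
        = ∑ j, ∫⁻ t : ℝ, ENNReal.ofReal (Real.exp (q * t) * gB (Real.exp t) (EE j)) := by
          rw [Finset.sum_mul]
          exact Finset.sum_congr rfl fun j _ => (lint_gB hq0 hq1 (hEE0 j)).symm
      _ = ∫⁻ t : ℝ, ∑ j, ENNReal.ofReal (Real.exp (q * t) * gB (Real.exp t) (EE j)) :=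
          (lintegral_finset_sum _ fun j _ => hGm (EE j)).symm
      _ ≤ _ := by
          refine lintegral_mono fun t => ?_
          obtain ⟨hI, hle⟩ := FF_int ψ ψ' hψ hψ' hftc orth W hP t
          have hE : ∀ j, 0 ≤ Real.exp (q * t) * gB (Real.exp t) (EE j) := fun j =>
            mul_nonneg (Real.exp_pos _).le (gB_nonneg (Real.exp_pos t) (hEE0 j))
          rw [← ENNReal.ofReal_sum_of_nonneg fun j _ => hE j]
          refine le_trans (ENNReal.ofReal_le_ofReal ?_)
            (ofReal_integral_le (hI.const_mul (Real.exp (q * t))))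
          rw [integral_const_mul, ← Finset.mul_sum]
          exact mul_le_mul_of_nonneg_left hle (Real.exp_pos _).le
  -- the right side
  have hR : ∀ x : ℝ, ∫⁻ t : ℝ, K t x ≤
      ENNReal.ofReal (∑ a, ((hW x).isHermitian.eigenvalues a) ^ (3 / 2 + q / 2)) *
        ENNReal.ofReal (cH q) := by
    intro x
    have hw := fun a => (hW x).eigenvalues_nonneg a
    calc ∫⁻ t : ℝ, K t x
        ≤ ∫⁻ t : ℝ, ∑ a, ENNReal.ofReal (Real.exp (q * t) *
            hB (Real.exp t) ((hW x).isHermitian.eigenvalues a)) := by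
          refine lintegral_mono fun t => ?_
          have hE : ∀ a, 0 ≤ Real.exp (q * t) *
              hB (Real.exp t) ((hW x).isHermitian.eigenvalues a) := fun a =>
            mul_nonneg (Real.exp_pos _).le (hB_nonneg (Real.exp_pos t).le (hw a))
          rw [← ENNReal.ofReal_sum_of_nonneg fun a _ => hE a]
          refine ENNReal.ofReal_le_ofReal ?_
          rw [← Finset.mul_sum]
          exact mul_le_mul_of_nonneg_left (FF_le W hW ψ EE t x) (Real.exp_pos _).le
      _ = ∑ a, ∫⁻ t : ℝ, ENNReal.ofReal (Real.exp (q * t) *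
            hB (Real.exp t) ((hW x).isHermitian.eigenvalues a)) :=
          lintegral_finset_sum _ fun a _ => hHm _
      _ = _ := by
          simp only [lint_hB hq0 hq1 (hw _)]
          rw [← Finset.sum_mul, ENNReal.ofReal_sum_of_nonneg fun a _ => Real.rpow_nonneg (hw a) _]
  have htr0 : ∀ x, 0 ≤ ∑ a, ((hW x).isHermitian.eigenvalues a) ^ (3 / 2 + q / 2) := fun x =>
    Finset.sum_nonneg fun a _ => Real.rpow_nonneg ((hW x).eigenvalues_nonneg a) _
  have hTon : ∫⁻ t : ℝ, ∫⁻ x : ℝ, K t x ≤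
      ENNReal.ofReal (∫ x, ∑ a, ((hW x).isHermitian.eigenvalues a) ^ (3 / 2 + q / 2)) *
        ENNReal.ofReal (cH q) := by
    rw [lintegral_lintegral_swap hKm.aemeasurable]
    refine (lintegral_mono hR).trans ?_
    rw [lintegral_mul_const' _ _ ENNReal.ofReal_ne_top,
      ← ofReal_integral_eq_lintegral_ofReal htr (Eventually.of_forall htr0)]
  have hfinal := hL.trans hTon
  have hS0 : ∀ j, 0 ≤ EE j ^ (1 + q / 2) := fun j => Real.rpow_nonneg (hEE0 j) _
  rw [← ENNReal.ofReal_sum_of_nonneg fun j _ => hS0 j,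
    ← ENNReal.ofReal_mul (Finset.sum_nonneg fun j _ => hS0 j),
    ← ENNReal.ofReal_mul (integral_nonneg htr0)] at hfinal
  exact (ENNReal.ofReal_le_ofReal_iff (mul_nonneg (integral_nonneg htr0) (cH_nonneg hq0 hq1))).1 hfinal

end main

end Vale.Agent.Lib.P371.Mix
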